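import Crest.Agent.R189.Basic

/-! Row 189, block B4: finiteness of `H₀(ℤ²; C(X, ℤ/m))` and `H¹(ℤ²; C(X, ℤ/2))` from COUNT. -/

set_option autoImplicit false
set_option linter.unusedSectionVars false

noncomputable section

namespace Crest.Agent.R189

open Finset
open scoped Pointwise

variable {X : Type} [TopologicalSpace X] [AddAction V X] [ContinuousConstVAdd V X]

namespace Hier

variable (H : Hier X)

instance (t : ℕ) : NeZero (H.q t) := ⟨(H.q_pos t).ne'⟩

/-- the step to the next level-`t` tile -/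
def st (t : ℕ) (b : Bool) : V := (H.q t : ℤ) • ev b

/-- position in the level-`t` tile shifted by `o` -/
def tpos (t : ℕ) (o : V) (x : X) : ℕ × ℕ := (((H.ph t x).1 - o.1).val, ((H.ph t x).2 - o.2).val)

/-- a function given in tile coordinates -/
def lift {β : Type} (t : ℕ) (o : V) (F : X → ℕ → ℕ → β) (x : X) : β :=
  F (-(o + (((H.tpos t o x).1 : ℤ), ((H.tpos t o x).2 : ℤ))) +ᵥ x) (H.tpos t o x).1 (H.tpos t o x).2

theorem ph_st (t : ℕ) (b : Bool) (x : X) : H.ph t (H.st t b +ᵥ x) = H.ph t x := by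
  rw [H.ph_vadd]
  cases b <;> simp [st, ev]

theorem exists_dec (t : ℕ) (o : V) (x : X) : ∃ (y : X) (u w : ℕ), H.ph t y = 0 ∧ u < H.q t ∧ w < H.q t ∧
    x = (o + ((u : ℤ), (w : ℤ))) +ᵥ y := by
  refine ⟨-(o + (((H.tpos t o x).1 : ℤ), ((H.tpos t o x).2 : ℤ))) +ᵥ x, _, _, ?_, ZMod.val_lt _, ZMod.val_lt _,
    (vadd_neg_vadd _ _).symm⟩
  rw [H.ph_vadd]
  ext <;> simp [tpos] <;> ring

variable {H}

theorem pos_dec {t : ℕ} (o : V) {y : X} {u w : ℕ} (hy : H.ph t y = 0) (hu : u < H.q t) (hw : w < H.q t) :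
    H.tpos t o ((o + ((u : ℤ), (w : ℤ))) +ᵥ y) = (u, w) := by
  simp [tpos, H.ph_vadd, hy, Nat.mod_eq_of_lt, hu, hw]

theorem lift_dec {β : Type} {t : ℕ} (o : V) (F : X → ℕ → ℕ → β) {y : X} {u w : ℕ} (hy : H.ph t y = 0)
    (hu : u < H.q t) (hw : w < H.q t) : H.lift t o F ((o + ((u : ℤ), (w : ℤ))) +ᵥ y) = F y u w := by
  rw [lift, pos_dec o hy hu hw, neg_vadd_vadd]

theorem lift_east {β : Type} {t : ℕ} (o : V) (F : X → ℕ → ℕ → β) {y : X} {u w : ℕ} (hy : H.ph t y = 0)
    (hu : u < H.q t) (hw : w < H.q t) : H.lift t o F (ev true +ᵥ (o + ((u : ℤ), (w : ℤ))) +ᵥ y) =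
      if u + 1 = H.q t then F (H.st t true +ᵥ y) 0 w else F y (u + 1) w := by
  split_ifs with e
  · rw [← lift_dec o F ((H.ph_st t _ y).trans hy) (H.q_pos t) hw]
    simp only [vadd_vadd, st, ← e, ev]
    congr 2
    ext <;> simp
    ring
  · rw [← lift_dec o F hy (by omega) hw]
    simp only [vadd_vadd, ev]
    congr 2
    ext <;> simp
    ring

theorem lift_north {β : Type} {t : ℕ} (o : V) (F : X → ℕ → ℕ → β) {y : X} {u w : ℕ} (hy : H.ph t y = 0)
    (hu : u < H.q t) (hw : w < H.q t) : H.lift t o F (ev false +ᵥ (o + ((u : ℤ), (w : ℤ))) +ᵥ y) =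
      if w + 1 = H.q t then F (H.st t false +ᵥ y) u 0 else F y u (w + 1) := by
  split_ifs with e
  · rw [← lift_dec o F ((H.ph_st t _ y).trans hy) hu (H.q_pos t)]
    simp only [vadd_vadd, st, ← e, ev]
    congr 2
    ext <;> simp
    ring
  · rw [← lift_dec o F hy hu (by omega)]
    simp only [vadd_vadd, ev]
    congr 2
    ext <;> simp
    ring

variable (H)

theorem pos_lc (t : ℕ) (o : V) : IsLocallyConstant (H.tpos t o) :=
  (H.ph_lc t).comp fun p => ((p.1 - o.1).val, (p.2 - o.2).val)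

theorem lift_lc {β : Type} (t : ℕ) (o : V) {F : X → ℕ → ℕ → β} (hF : ∀ u w, IsLocallyConstant fun y => F y u w) :
    IsLocallyConstant (H.lift t o F) := by
  refine (IsLocallyConstant.iff_eventually_eq _).2 fun x => ?_
  filter_upwards [(H.pos_lc t o).eventually_eq x, ((hF (H.tpos t o x).1 (H.tpos t o x).2).comp_continuous
    (continuous_const_vadd (-(o + (((H.tpos t o x).1 : ℤ), ((H.tpos t o x).2 : ℤ)))))).eventually_eq x] with y h1 h2
  rw [lift, h1]
  exact h2

end Hier

theorem coh_ite {β : Type} {U : Set X} [∀ x, Decidable (x ∈ U)] (hU : IsClopen U) {f g : X → β}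
    (hf : IsLocallyConstant f) (hg : IsLocallyConstant g) : IsLocallyConstant fun x => if x ∈ U then f x else g x := by
  refine (IsLocallyConstant.iff_eventually_eq _).2 fun x => ?_
  by_cases hx : x ∈ U
  · filter_upwards [hU.isOpen.mem_nhds hx, hf.eventually_eq x] with y h1 h2
    rw [if_pos h1, if_pos hx, h2]
  · filter_upwards [hU.compl.isOpen.mem_nhds hx, hg.eventually_eq x] with y h1 h2
    rw [if_neg h1, if_neg hx, h2]

section H0

variable {D : Type} [AddCommGroup D] {z : Set X → D}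
  (add : ∀ U W, IsClopen U → IsClopen W → Disjoint U W → z (U ∪ W) = z U + z W)
include add

theorem coh_empty : z ∅ = 0 := by
  simpa using add ∅ ∅ isClopen_empty isClopen_empty (by simp)

theorem coh_split {U W : Set X} (hU : IsClopen U) (hW : IsClopen W) : z U = z (U ∩ W) + z (U \ W) := by
  rw [← add _ _ (hU.inter hW) (hU.diff hW) (Set.disjoint_left.2 fun x h h' => h'.2 h.2), Set.inter_union_sdiff]

theorem coh_part {κ : Type} {c : X → κ} (hc : IsLocallyConstant c) (s : Finset κ) {U : Set X} (hU : IsClopen U)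
    (h : ∀ x ∈ U, c x ∈ s) : z U = ∑ k ∈ s, z (U ∩ {x | c x = k}) := by
  classical
  induction s using Finset.induction_on generalizing U with
  | empty => rw [Set.eq_empty_of_forall_notMem (s := U) fun x hx => by simpa using h x hx, coh_empty add, sum_empty]
  | insert k s hk ih =>
    rw [sum_insert hk, coh_split add hU (hc.isClopen_fiber k), ih (hU.diff (hc.isClopen_fiber k))
      fun x hx => (mem_insert.1 (h x hx.1)).resolve_left hx.2]
    refine congrArg _ (sum_congr rfl fun l hl => congrArg z (Set.ext fun x => ?_))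
    exact ⟨fun h => ⟨h.1.1, h.2⟩, fun h => ⟨⟨h.1, fun e => hk (e.symm.trans h.2 ▸ hl)⟩, h.2⟩⟩

open Classical in
theorem coh_count {m : ℕ} (tor : ∀ U, IsClopen U → m • z U = 0) {κ : Type} {A : κ → Set X} (hA : ∀ p, IsClopen (A p))
    (s : Finset κ) {W : Set X} (hW : IsClopen W) (c : ℤ)
    (h : ∀ x ∈ W, ∑ p ∈ s, (if x ∈ A p then 1 else 0 : ZMod m) = c) : ∑ p ∈ s, z (W ∩ A p) = c • z W := by
  induction s using Finset.induction_on generalizing W c with
  | empty =>
    rcases W.eq_empty_or_nonempty with rfl | ⟨x, hx⟩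
    · simp [coh_empty add]
    · obtain ⟨d, rfl⟩ := (ZMod.intCast_zmod_eq_zero_iff_dvd c m).1 (h x hx).symm
      rw [mul_comm, mul_smul, natCast_zsmul, tor W hW, smul_zero, sum_empty]
  | insert k s hk ih =>
    have h1 := ih (hW.inter (hA k)) (c - 1) fun x hx => by
      have := h x hx.1
      rw [sum_insert hk, if_pos hx.2] at this
      rw [Int.cast_sub, ← this]
      simp
    have h2 := ih (hW.diff (hA k)) c fun x hx => by
      have := h x hx.1
      rwa [sum_insert hk, if_neg hx.2, zero_add] at this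
    have h3 : ∀ p, z (W ∩ A p) = z (W ∩ A k ∩ A p) + z (W \ A k ∩ A p) := fun p => by
      rw [coh_split add (hW.inter (hA p)) (hA k), Set.inter_right_comm, Set.sdiff_eq, Set.sdiff_eq,
        Set.inter_right_comm W (A p)]
    rw [sum_insert hk, sum_congr rfl fun p _ => h3 p, sum_add_distrib, h1, h2, coh_split add hW (hA k)]
    module

theorem Hier.Count.h0_add {H : Hier X} (hc : H.Count) {m : ℕ} (hm : 0 < m)
    (inv : ∀ (v : V) U, IsClopen U → z (v +ᵥ U) = z U) (tor : ∀ U, IsClopen U → m • z U = 0) :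
    (z '' {U | IsClopen U}).Finite := by
  classical
  have : NeZero m := ⟨hm.ne'⟩
  obtain ⟨B, hB⟩ := hc m hm
  by_contra hinf
  obtain ⟨s, hs, hcard⟩ := Set.Infinite.exists_subset_card_eq hinf (m ^ B + 1)
  choose U hU hz using fun d : s => hs d.2
  obtain ⟨t, -, o, cls, hcl, h⟩ := hB s (fun d x => if x ∈ U d then 1 else 0)
    (fun d => coh_ite (hU d) (.const _) (.const _)) 0
  let W : Fin B → Set X := fun b => {x | H.ph t x = 0} ∩ {x | cls x = b}
  have h0 := (H.ph_lc t).isClopen_fiber 0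
  have key : ∀ d : s, ∃ c : Fin B → ZMod m, d.1 = ∑ b, ((c b).val : ℤ) • z (W b) := fun d => by
    let A : ℕ × ℕ → Set X := fun p => {x | (o + ((p.1 : ℤ), (p.2 : ℤ))) +ᵥ x ∈ U d}
    have hA : ∀ p, IsClopen (A p) := fun p => (hU d).preimage (continuous_const_vadd _)
    have e : ∀ b, ∃ c : ZMod m, ∀ x ∈ W b, ∑ p ∈ range (H.q t) ×ˢ range (H.q t),
        (if x ∈ A p then 1 else 0 : ZMod m) = c := fun b => by
      rcases (W b).eq_empty_or_nonempty with e | ⟨y, hy⟩
      · exact ⟨0, by simp [e]⟩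
      · exact ⟨_, fun x hx => (sum_product _ _ _).trans (h x y hx.1 hy.1 (hx.2.trans hy.2.symm) d).1⟩
    choose c hc using e
    refine ⟨c, ?_⟩
    rw [← hz d, coh_part add (H.pos_lc t o) (range (H.q t) ×ˢ range (H.q t)) (hU d)
      fun x _ => mem_product.2 ⟨mem_range.2 (ZMod.val_lt _), mem_range.2 (ZMod.val_lt _)⟩,
      ← sum_congr rfl fun b _ => coh_count add tor hA _ (h0.inter (hcl.isClopen_fiber b)) _
        fun x hx => (hc b x hx).trans (by simp), sum_comm]
    refine sum_congr rfl fun p hp => ?_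
    obtain ⟨hu, hw⟩ := mem_product.1 hp
    rw [mem_range] at hu hw
    have e : U d ∩ {x | H.tpos t o x = p} = (o + ((p.1 : ℤ), (p.2 : ℤ))) +ᵥ ({x | H.ph t x = 0} ∩ A p) := by
      ext x
      refine ⟨fun ⟨h1, h2⟩ => ?_, ?_⟩
      · obtain ⟨y, u, w, hy, hu', hw', rfl⟩ := H.exists_dec t o x
        obtain rfl : (u, w) = p := (Hier.pos_dec o hy hu' hw').symm.trans h2
        exact ⟨y, ⟨hy, h1⟩, rfl⟩
      · rintro ⟨y, ⟨hy, h1⟩, rfl⟩
        exact ⟨h1, Hier.pos_dec o hy hu hw⟩
    rw [e, inv _ _ (h0.inter (hA p)), coh_part add hcl univ (h0.inter (hA p)) fun _ _ => mem_univ _]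
    exact sum_congr rfl fun b _ => by rw [Set.inter_right_comm]
  choose c hc using key
  have := Fintype.card_le_of_injective c fun d d' e => Subtype.ext (by rw [hc d, hc d', e])
  simp [hcard] at this

end H0

/-- (H0) an additive, shift invariant, central, torsion function of clopen sets has finitely many values -/
theorem Hier.Count.h0 {H : Hier X} (hc : H.Count) {Γ : Type} [Group Γ] {m : ℕ} (hm : 0 < m) (z : Set X → Γ)
    (cen : ∀ U, IsClopen U → z U ∈ Subgroup.center Γ)
    (add : ∀ U W, IsClopen U → IsClopen W → Disjoint U W → z (U ∪ W) = z U * z W)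
    (inv : ∀ (v : V) U, IsClopen U → z (v +ᵥ U) = z U) (tor : ∀ U, IsClopen U → z U ^ m = 1) :
    (z '' {U | IsClopen U}).Finite := by
  classical
  let : CommGroup (Subgroup.center Γ) := { mul_comm := fun a b => Subtype.ext (Subgroup.mem_center_iff.1 b.2 a) }
  let y : Set X → Additive (Subgroup.center Γ) := fun U => if h : IsClopen U then .ofMul ⟨z U, cen U h⟩ else 0
  have hy : ∀ U, IsClopen U → ((y U).toMul : Γ) = z U := fun U h => by simp [y, h]
  have ext : ∀ a b : Additive (Subgroup.center Γ), (a.toMul : Γ) = b.toMul → a = b :=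
    fun a b h => Additive.toMul.injective (Subtype.ext h)
  refine ((hc.h0_add (z := y) (fun U W hU hW h => ext _ _ ?_) hm (fun v U hU => ext _ _ ?_)
    fun U hU => ext _ _ ?_).image fun a => (a.toMul : Γ)).subset ?_
  · rw [toMul_add, Subgroup.coe_mul, hy _ hU, hy _ hW, hy _ (hU.union hW), add U W hU hW h]
  · rw [hy _ hU, hy _ ⟨hU.1.vadd v, hU.2.vadd v⟩, inv v U hU]
  · rw [toMul_nsmul, Subgroup.coe_pow, hy _ hU, tor U hU]
    rfl
  · rintro _ ⟨U, hU, rfl⟩
    exact ⟨_, ⟨U, hU, rfl⟩, hy U hU⟩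

section H1

variable {R : Type} [AddCommGroup R]

/-- path integral: `u` steps east, then `w` steps north -/
def cohG (α β : X → R) (y : X) (u w : ℕ) : R :=
  ∑ i ∈ range u, α ((((i : ℤ), (0 : ℤ)) : V) +ᵥ y) + ∑ j ∈ range w, β ((((u : ℤ), (j : ℤ)) : V) +ᵥ y)

theorem cohG_north (α β : X → R) (y : X) (u w : ℕ) :
    cohG α β y u (w + 1) = cohG α β y u w + β ((((u : ℤ), (w : ℤ)) : V) +ᵥ y) := by
  rw [cohG, cohG, sum_range_succ, add_assoc]

theorem cohG_east {α β : X → R} (h : ∀ x, α x + β (ev true +ᵥ x) = β x + α (ev false +ᵥ x)) (y : X) (u w : ℕ) :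
    cohG α β y (u + 1) w = cohG α β y u w + α ((((u : ℤ), (w : ℤ)) : V) +ᵥ y) := by
  induction w with
  | zero => simp [cohG, sum_range_succ]
  | succ w ih =>
    have := h ((((u : ℤ), (w : ℤ)) : V) +ᵥ y)
    simp only [vadd_vadd, ev, if_true, Bool.false_eq_true, if_false, Prod.mk_add_mk, zero_add, add_comm (1 : ℤ)] at this
    rw [cohG_north, cohG_north, ih, add_assoc, add_assoc, Nat.cast_succ, Nat.cast_succ, this]

/-- a cocycle whose periods along the tiles vanish is a coboundary -/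
theorem Hier.coh_int (H : Hier X) (t : ℕ) (o : V) {α β : X → R} (hα : IsLocallyConstant α) (hβ : IsLocallyConstant β)
    (h : ∀ x, α x + β (ev true +ᵥ x) = β x + α (ev false +ᵥ x))
    (h1 : ∀ y, H.ph t y = 0 → ∑ u ∈ range (H.q t), α ((o + ((u : ℤ), (0 : ℤ))) +ᵥ y) = 0)
    (h2 : ∀ y, H.ph t y = 0 → ∑ w ∈ range (H.q t), β ((o + ((0 : ℤ), (w : ℤ))) +ᵥ y) = 0) :
    ∃ g : X → R, IsLocallyConstant g ∧ ∀ x, g (ev true +ᵥ x) = g x + α x ∧ g (ev false +ᵥ x) = g x + β x := by
  refine ⟨H.lift t o fun y => cohG α β (o +ᵥ y), H.lift_lc t o fun u w => ?_, fun x => ?_⟩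
  · have lc : ∀ {f : X → R}, IsLocallyConstant f → ∀ (s : Finset ℕ) (p : ℕ → V),
        IsLocallyConstant fun y => ∑ i ∈ s, f (p i +ᵥ o +ᵥ y) := fun hf s p => by
      refine (IsLocallyConstant.iff_eventually_eq _).2 fun x => ?_
      filter_upwards [(Filter.eventually_all_finset s).2 fun i _ => (hf.comp_continuous
        ((continuous_const_vadd (p i)).comp (continuous_const_vadd o))).eventually_eq x] with y hy
      exact sum_congr rfl hy
    exact (lc hα _ _).add (lc hβ _ _)
  · obtain ⟨y, u, w, hy, hu, hw, rfl⟩ := H.exists_dec t o x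
    have e0 : (o + ((u : ℤ), (w : ℤ))) +ᵥ y = (((u : ℤ), (w : ℤ)) : V) +ᵥ o +ᵥ y := by rw [vadd_vadd, add_comm]
    rw [Hier.lift_dec o _ hy hu hw, Hier.lift_east o _ hy hu hw, Hier.lift_north o _ hy hu hw, e0, ← cohG_east h,
      ← cohG_north]
    refine ⟨ite_eq_right_iff.2 fun e => ?_, ite_eq_right_iff.2 fun e => ?_⟩
    · rw [cohG, cohG, e]
      simp only [vadd_vadd, add_comm _ o, h1 y hy, range_zero, sum_empty, Hier.st, ev]
      simp [add_left_comm _ o]
    · rw [e]
      clear e0 hu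
      induction u with
      | zero => simp only [cohG, vadd_vadd, add_comm _ o, range_zero, sum_empty, zero_add, Nat.cast_zero, h2 y hy]
      | succ u ih =>
        rw [cohG_east h, cohG_east h, ih]
        simp only [vadd_vadd, Hier.st, ev]
        congr 3
        ext <;> simp
        ring

end H1

/-- cocycles on the level-`t` tiles (`ε true` lives on the east side, `ε false` on the north side) -/
structure Hier.Coc (H : Hier X) (t : ℕ) (ε : Bool → X → ZMod 2) : Prop where
  lc : ∀ b, IsLocallyConstant (ε b)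
  coc : ∀ x, H.ph t x = 0 → ε true x + ε false (H.st t true +ᵥ x) = ε false x + ε true (H.st t false +ᵥ x)

/-- (H1) at most `N` classes of level-`t` cocycles, `N` independent of `t` -/
theorem Hier.Count.h1 [Nonempty X] {H : Hier X} (hc : H.Count) : ∃ N : ℕ, ∀ (t : ℕ) (ε : Fin (N + 1) → Bool → X → ZMod 2),
    (∀ i, H.Coc t (ε i)) → ∃ i j, i ≠ j ∧ ∃ g : X → ZMod 2, IsLocallyConstant g ∧
      ∀ b x, H.ph t x = 0 → ε i b x - ε j b x = g (H.st t b +ᵥ x) - g x := by
  classical
  obtain ⟨B, hB⟩ := hc 2 two_pos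
  refine ⟨Fintype.card (Fin B → ZMod 2 × ZMod 2), fun t ε hε => ?_⟩
  let η := fun i b => H.lift t 0 fun y u w => if (if b = true then u else w) + 1 = H.q t then ε i b y else 0
  have lc : ∀ i b, IsLocallyConstant (η i b) := fun i b => H.lift_lc t 0 fun u w => by
    by_cases e : (if b = true then u else w) + 1 = H.q t
    · simpa only [if_pos e] using (hε i).lc b
    · simp only [if_neg e]
      exact .const _
  have coc : ∀ i x, η i true x + η i false (ev true +ᵥ x) = η i false x + η i true (ev false +ᵥ x) := fun i x => by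
    obtain ⟨y, u, w, hy, hu, hw, rfl⟩ := H.exists_dec t 0 x
    simp only [η, Hier.lift_dec 0 _ hy hu hw, Hier.lift_east 0 _ hy hu hw, Hier.lift_north 0 _ hy hu hw, if_true,
      Bool.false_eq_true, if_false]
    split_ifs <;> simp [(hε i).coc y hy]
  obtain ⟨s, -, o, cls, -, h⟩ := hB (_ × Bool) (fun p => η p.1 p.2) (fun p => lc p.1 p.2) 0
  let r := Function.invFunOn cls {x | H.ph s x = 0}
  obtain ⟨i, j, hij, e⟩ := Fintype.exists_ne_map_eq_of_card_lt (fun i (k : Fin B) =>
    (∑ u ∈ range (H.q s), η i true ((o + ((u : ℤ), (0 : ℤ))) +ᵥ r k),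
      ∑ w ∈ range (H.q s), η i false ((o + ((0 : ℤ), (w : ℤ))) +ᵥ r k))) (by simp)
  have hr := fun y (hy : H.ph s y = 0) => h y (r (cls y)) hy (Function.invFunOn_apply_mem (f := cls) (s := {x | H.ph s x = 0}) hy)
    (Function.invFunOn_apply_eq (f := cls) (s := {x | H.ph s x = 0}) hy).symm
  obtain ⟨g, hg, hg'⟩ := H.coh_int s o ((lc i true).sub (lc j true)) ((lc i false).sub (lc j false))
    (fun x => by simp only [Pi.sub_apply]; linear_combination coc i x - coc j x)
    (fun y hy => by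
      simp only [Pi.sub_apply, sum_sub_distrib]
      rw [(hr y hy (i, true)).2.1, (hr y hy (j, true)).2.1, sub_eq_zero]
      exact congrArg Prod.fst (congrFun e (cls y)))
    fun y hy => by
      simp only [Pi.sub_apply, sum_sub_distrib]
      rw [(hr y hy (i, false)).2.2, (hr y hy (j, false)).2.2, sub_eq_zero]
      exact congrArg Prod.snd (congrFun e (cls y))
  refine ⟨i, j, hij, g, hg, fun b y hy => ?_⟩
  have h1 : ∀ u : ℕ, u < H.q t → g (((u + 1 : ℕ) : ℤ) • ev b +ᵥ y) = g ((u : ℤ) • ev b +ᵥ y) +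
      if u + 1 = H.q t then ε i b y - ε j b y else 0 := fun u hu => by
    rw [Nat.cast_succ, add_smul, one_smul, add_comm _ (ev b), add_vadd]
    cases b
    · rw [(hg' _).2, show (u : ℤ) • ev false = 0 + (((0 : ℕ) : ℤ), (u : ℤ)) by simp [ev], Pi.sub_apply]
      simp only [η, Hier.lift_dec 0 _ hy (H.q_pos t) hu, Bool.false_eq_true, if_false]
      split_ifs <;> simp
    · rw [(hg' _).1, show (u : ℤ) • ev true = 0 + ((u : ℤ), ((0 : ℕ) : ℤ)) by simp [ev], Pi.sub_apply]
      simp only [η, Hier.lift_dec 0 _ hy hu (H.q_pos t), if_true]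
      split_ifs <;> simp
  have h2 : ∀ u : ℕ, u < H.q t → g ((u : ℤ) • ev b +ᵥ y) = g y := fun u hu => by
    induction u with
    | zero => simp
    | succ u ih => rw [h1 u (by omega), if_neg hu.ne, add_zero, ih (by omega)]
  obtain ⟨u, hu⟩ := Nat.exists_eq_add_one_of_ne_zero (H.q_pos t).ne'
  rw [Hier.st, hu, h1 u (by omega), if_pos hu.symm, h2 u (by omega), add_sub_cancel_left]

end Crest.Agent.R189
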