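import Crest.Agent.R189.Ker.Flux

/-! Row 189, block B4: a corner permutation without circulation is a product of quadrant and arm permutations. -/

set_option autoImplicit false
set_option linter.unusedSectionVars false

noncomputable section

namespace Crest.Agent.R189.Ker

open Equiv

/-- two 2-colourings of `T` with the same count differ by an even permutation of `T` (`Equiv.Perm.exists_extending_pair` or
`Finset.equivOfCardEq`; correct the parity by the swap of two points `a b` of the same `c₂`-colour, which exist as `3 ≤ |T|`). -/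
theorem exists_match {α : Type*} [DecidableEq α] {T : Finset α} (h3 : 3 ≤ T.card) (c₁ c₂ : α → Prop) [DecidablePred c₁]
    [DecidablePred c₂] (h : (T.filter c₁).card = (T.filter c₂).card) : ∃ e ∈ AltOn T, ∀ p ∈ T, (c₁ (e p) ↔ c₂ p) := by
  have hc : ∀ (c : α → Prop) [DecidablePred c], Fintype.card {x : T // c x} = (T.filter c).card := by
    intro c _
    rw [Fintype.card_subtype, Finset.univ_eq_attach, Finset.filter_attach, Finset.card_map, Finset.card_attach]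
  let q : {x : T // c₂ x} ≃ {x : T // c₁ x} := Fintype.equivOfCardEq (by rw [hc, hc, h])
  let e₀ : Perm α := Perm.ofSubtype (q.extendSubtype : Perm T)
  have hfix : ∀ a, a ∉ T → e₀ a = a := fun a ha => Perm.ofSubtype_apply_of_not_mem _ ha
  have hcol : ∀ p ∈ T, (c₁ (e₀ p) ↔ c₂ p) := by
    intro p hp
    have e1 : e₀ p = (q.extendSubtype ⟨p, hp⟩ : T) := Perm.ofSubtype_apply_of_mem _ hp
    rw [e1]
    by_cases h2 : c₂ p
    · exact iff_of_true (q.extendSubtype_mem ⟨p, hp⟩ h2) h2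
    · exact iff_of_false (q.extendSubtype_not_mem ⟨p, hp⟩ h2) h2
  by_cases hpar : par T e₀ = 0
  · exact ⟨e₀, mem_AltOn.2 ⟨hfix, hpar⟩, hcol⟩
  · obtain ⟨a, ha, b, hb, hab, hcab⟩ : ∃ a ∈ T, ∃ b ∈ T, a ≠ b ∧ (c₂ a ↔ c₂ b) := by
      obtain ⟨a, ha, b, hb, hab, h'⟩ := Finset.exists_ne_map_eq_of_card_lt_of_maps_to (s := T)
        (t := (Finset.univ : Finset Bool)) (by simp; omega) (f := fun x => decide (c₂ x)) (fun _ _ => Finset.mem_coe.2 (Finset.mem_univ _))
      exact ⟨a, ha, b, hb, hab, by simpa using h'⟩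
    have hsw : ∀ x, x ∉ T → swap a b x = x := fun x hx =>
      swap_apply_of_ne_of_ne (by rintro rfl; exact hx ha) (by rintro rfl; exact hx hb)
    refine ⟨e₀ * swap a b, mem_AltOn.2 ⟨fun x hx => ?_, ?_⟩, fun p hp => ?_⟩
    · rw [Perm.mul_apply, hsw x hx, hfix x hx]
    · rw [par_mul (inv_of_fix hfix) (inv_of_fix hsw), par_swap ha hb hab]
      revert hpar
      generalize par T e₀ = z
      revert z
      decide
    · rw [Perm.mul_apply, hcol _ (inv_of_fix hsw p hp)]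
      by_cases h1 : p = a
      · subst h1; rw [swap_apply_left]; exact hcab.symm
      · by_cases h2 : p = b
        · subst h2; rw [swap_apply_right]; exact hcab
        · rw [swap_apply_of_ne_of_ne h1 h2]

variable {n : ℕ}

theorem card_eq_of_sum_dif {α : Type*} [DecidableEq α] {A : Set α} {g : Perm α} {T : Finset α} (P : α → Prop)
    [DecidablePred P] (hP : ∀ p, p ∈ A ↔ P p) (h : ∑ p ∈ T, dif A g p = 0) :
    (T.filter P).card = (T.filter fun p => P (g p)).card := by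
  have e : ∀ p, dif A g p = (if P (g p) then (1 : ℤ) else 0) - (if P p then (1 : ℤ) else 0) := by
    intro p
    simp only [dif, hP]
  simp only [e, Finset.sum_sub_distrib, Finset.sum_boole, sub_eq_zero] at h
  exact_mod_cast h.symm

theorem dif_eq_zero {α : Type*} [DecidableEq α] {A : Set α} {g : Perm α} {p : α} (h : g p ∈ A ↔ p ∈ A) : dif A g p = 0 := by
  unfold dif
  by_cases a : p ∈ A
  · rw [if_pos a, if_pos (h.2 a), sub_self]
  · rw [if_neg a, if_neg (fun b => a (h.1 b)), sub_self]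

theorem dif_congr {α : Type*} [DecidableEq α] {A B : Set α} {g : Perm α} {p : α} (h : g p ∈ A ↔ g p ∈ B)
    (h' : p ∈ A ↔ p ∈ B) : dif A g p = dif B g p := by
  unfold dif
  rw [propext h, propext h']

/-- conservation (`sum_dif` for the right half plane, the upper half plane and the first quadrant): no net crossing on each arm -/
theorem arms (s c : ℤ) (hs : 0 < s) (hsc : s < c) {σ : Perm (St n)} (hσ : Inv (reg n (-c) c (-c) c) σ)
    (h1 : ∀ p ∈ reg n (-c) c (-c) c, ¬ (0 ≤ (σ p).1.1 ↔ 0 ≤ p.1.1) → p ∈ Rg n s c 4 ∨ p ∈ Rg n s c 5)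
    (h2 : ∀ p ∈ reg n (-c) c (-c) c, ¬ (0 ≤ (σ p).1.2 ↔ 0 ≤ p.1.2) → p ∈ Rg n s c 6 ∨ p ∈ Rg n s c 7)
    (h0 : ∑ p ∈ reg n (-c) c 0 c, dif (RP n) σ p = 0) :
    (∀ i : Fin 8, i = 4 ∨ i = 5 →
      ((Rg n s c i).filter fun p => 0 ≤ p.1.1).card = ((Rg n s c i).filter fun p => 0 ≤ (σ p).1.1).card) ∧
    (∀ i : Fin 8, i = 6 ∨ i = 7 →
      ((Rg n s c i).filter fun p => 0 ≤ p.1.2).card = ((Rg n s c i).filter fun p => 0 ≤ (σ p).1.2).card) := by
  have m4 : ∀ p, p ∈ Rg n s c 4 ↔ (-s ≤ p.1.1 ∧ p.1.1 < s) ∧ (s ≤ p.1.2 ∧ p.1.2 < c) := fun p => mem_reg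
  have m5 : ∀ p, p ∈ Rg n s c 5 ↔ (-s ≤ p.1.1 ∧ p.1.1 < s) ∧ (-c ≤ p.1.2 ∧ p.1.2 < -s) := fun p => mem_reg
  have m6 : ∀ p, p ∈ Rg n s c 6 ↔ (s ≤ p.1.1 ∧ p.1.1 < c) ∧ (-s ≤ p.1.2 ∧ p.1.2 < s) := fun p => mem_reg
  have m7 : ∀ p, p ∈ Rg n s c 7 ↔ (-c ≤ p.1.1 ∧ p.1.1 < -s) ∧ (-s ≤ p.1.2 ∧ p.1.2 < s) := fun p => mem_reg
  let UP : Set (St n) := {p | 0 ≤ p.1.2}
  let QD : Set (St n) := {p | 0 ≤ p.1.1 ∧ 0 ≤ p.1.2}
  have r1 : ∀ p, p ∈ RP n ↔ 0 ≤ p.1.1 := fun p => Iff.rfl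
  have r2 : ∀ p, p ∈ UP ↔ 0 ≤ p.1.2 := fun p => Iff.rfl
  have r3 : ∀ p, p ∈ QD ↔ 0 ≤ p.1.1 ∧ 0 ≤ p.1.2 := fun p => Iff.rfl
  have k1 : ∀ p ∈ reg n (-c) c (-c) c, p ∉ Rg n s c 4 → p ∉ Rg n s c 5 → (0 ≤ (σ p).1.1 ↔ 0 ≤ p.1.1) := by
    intro p hp a b
    by_contra hne
    exact (h1 p hp hne).elim a b
  have k2 : ∀ p ∈ reg n (-c) c (-c) c, p ∉ Rg n s c 6 → p ∉ Rg n s c 7 → (0 ≤ (σ p).1.2 ↔ 0 ≤ p.1.2) := by
    intro p hp a b
    by_contra hne
    exact (h2 p hp hne).elim a b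
  have dj : ∀ {i j : Fin 8}, (∀ p, p ∈ Rg n s c i → p ∈ Rg n s c j → False) → Disjoint (Rg n s c i) (Rg n s c j) :=
    fun h => Finset.disjoint_left.2 fun p a b => h p a b
  have s4 : ∑ p ∈ Rg n s c 4, dif (RP n) σ p = 0 := by
    rw [← h0]
    refine Finset.sum_subset (fun p hp => ?_) fun p hp hn => dif_eq_zero ?_
    · rw [m4] at hp; rw [mem_reg]; omega
    · rw [mem_reg] at hp
      exact k1 p (by rw [mem_reg]; omega) hn (by rw [m5]; omega)
  have s5 : ∑ p ∈ Rg n s c 5, dif (RP n) σ p = 0 := by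
    have t := sum_dif (A := RP n) hσ
    rw [← Finset.sum_subset (s₁ := Rg n s c 4 ∪ Rg n s c 5), Finset.sum_union, s4, zero_add] at t
    · exact t
    · exact dj fun p a b => by rw [m4] at a; rw [m5] at b; omega
    · intro p hp
      rw [Finset.mem_union, m4, m5] at hp; rw [mem_reg]; omega
    · intro p hp hn
      rw [Finset.mem_union, not_or] at hn
      exact dif_eq_zero (k1 p hp hn.1 hn.2)
  have s6 : ∑ p ∈ Rg n s c 6, dif UP σ p = 0 := by
    have t := sum_dif (A := QD) hσ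
    have e4 : ∑ p ∈ Rg n s c 4, dif QD σ p = ∑ p ∈ Rg n s c 4, dif (RP n) σ p := by
      refine Finset.sum_congr rfl fun p hp => ?_
      rw [m4] at hp
      have := k2 p (by rw [mem_reg]; omega) (by rw [m6]; omega) (by rw [m7]; omega)
      exact dif_congr (by rw [r3, r1, this]; omega) (by rw [r3, r1]; omega)
    have e6 : ∑ p ∈ Rg n s c 6, dif QD σ p = ∑ p ∈ Rg n s c 6, dif UP σ p := by
      refine Finset.sum_congr rfl fun p hp => ?_
      rw [m6] at hp
      have := k1 p (by rw [mem_reg]; omega) (by rw [m4]; omega) (by rw [m5]; omega)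
      exact dif_congr (by rw [r3, r2, this]; omega) (by rw [r3, r2]; omega)
    rw [← Finset.sum_subset (s₁ := Rg n s c 4 ∪ Rg n s c 6), Finset.sum_union, e4, e6, s4, zero_add] at t
    · exact t
    · exact dj fun p a b => by rw [m4] at a; rw [m6] at b; omega
    · intro p hp
      rw [Finset.mem_union, m4, m6] at hp; rw [mem_reg]; omega
    · intro p hp hn
      rw [Finset.mem_union, not_or] at hn
      refine dif_eq_zero ?_
      rw [r3, r3]
      by_cases a5 : p ∈ Rg n s c 5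
      · have := k2 p hp hn.2 (by rw [m5] at a5; rw [m7]; omega)
        rw [m5] at a5
        rw [this]; omega
      · by_cases a7 : p ∈ Rg n s c 7
        · have := k1 p hp hn.1 a5
          rw [m7] at a7
          rw [this]; omega
        · rw [k1 p hp hn.1 a5, k2 p hp hn.2 a7]
  have s7 : ∑ p ∈ Rg n s c 7, dif UP σ p = 0 := by
    have t := sum_dif (A := UP) hσ
    rw [← Finset.sum_subset (s₁ := Rg n s c 6 ∪ Rg n s c 7), Finset.sum_union, s6, zero_add] at t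
    · exact t
    · exact dj fun p a b => by rw [m6] at a; rw [m7] at b; omega
    · intro p hp
      rw [Finset.mem_union, m6, m7] at hp; rw [mem_reg]; omega
    · intro p hp hn
      rw [Finset.mem_union, not_or] at hn
      exact dif_eq_zero (k2 p hp hn.1 hn.2)
  refine ⟨?_, ?_⟩
  · rintro i (rfl | rfl)
    · exact card_eq_of_sum_dif (fun p : St n => 0 ≤ p.1.1) r1 s4
    · exact card_eq_of_sum_dif (fun p : St n => 0 ≤ p.1.1) r1 s5
  · rintro i (rfl | rfl)
    · exact card_eq_of_sum_dif (fun p : St n => 0 ≤ p.1.2) r2 s6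
    · exact card_eq_of_sum_dif (fun p : St n => 0 ≤ p.1.2) r2 s7

section crb
variable {α : Type*} [DecidableEq α] {A R R' : Finset α} {σ τ φ : Perm α}

theorem crb_fix (h : σ ∈ AltOn R) {a : α} (ha : a ∉ R) : σ a = a := (mem_AltOn.1 h).1 a ha

theorem crb_inv (h : σ ∈ AltOn R) : Inv R σ := inv_of_fix (mem_AltOn.1 h).1

theorem crb_comm (hd : Disjoint R R') (h : σ ∈ AltOn R) (h' : τ ∈ AltOn R') : Commute σ τ :=
  Perm.Disjoint.commute fun a => by
    by_cases ha : a ∈ R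
    · exact Or.inr (crb_fix h' (Finset.disjoint_left.1 hd ha))
    · exact Or.inl (crb_fix h ha)

theorem crb_swap {a b : α} (ha : a ∈ R) (hb : b ∈ R) {p : α} (hp : p ∉ R) : swap a b p = p :=
  swap_apply_of_ne_of_ne (fun e => hp (e ▸ ha)) fun e => hp (e ▸ hb)

theorem crb_union (h : Inv R σ) (h' : Inv R' σ) : Inv (R ∪ R') σ := fun a ha =>
  (Finset.mem_union.1 ha).elim (fun h1 => Finset.mem_union_left _ (h a h1)) fun h1 => Finset.mem_union_right _ (h' a h1)

theorem crb_res_mem (h : Inv R σ) {a : α} (ha : a ∈ R) : resS (R : Set α) σ a = σ a :=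
  resS_of_mem (Z := (R : Set α)) (fun b => h.iff b) ha

theorem crb_res_union (hd : Disjoint R R') (h : Inv R σ) (h' : Inv R' σ) :
    resS ((R ∪ R' : Finset α) : Set α) σ = resS (R : Set α) σ * resS (R' : Set α) σ := by
  refine Equiv.ext fun a => ?_
  rw [Perm.mul_apply]
  by_cases ha : a ∈ R
  · rw [crb_res_mem (crb_union h h') (Finset.mem_union_left _ ha),
      resS_of_not (Z := (R' : Set α)) (Finset.disjoint_left.1 hd ha), crb_res_mem h ha]
  · by_cases ha' : a ∈ R'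
    · rw [crb_res_mem (crb_union h h') (Finset.mem_union_right _ ha'), crb_res_mem h' ha',
        resS_of_not (Z := (R : Set α)) (Finset.disjoint_right.1 hd (h' a ha'))]
    · rw [resS_of_not (Z := ((R ∪ R' : Finset α) : Set α)) (fun h1 => (Finset.mem_union.1 h1).elim ha ha'),
        resS_of_not (Z := (R' : Set α)) ha', resS_of_not (Z := (R : Set α)) ha]

theorem crb_res_self (h : σ ∈ AltOn R) : resS (R : Set α) σ = σ := by
  refine Equiv.ext fun a => ?_
  by_cases ha : a ∈ R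
  · exact crb_res_mem (crb_inv h) ha
  · rw [resS_of_not (Z := (R : Set α)) ha, crb_fix h ha]

theorem crb_step (hd : Disjoint R R') (h : Inv R φ) (h' : Inv R' φ) {a a' b b' : α} (h1 : a ∈ A ∧ a ∈ R) (h2 : a' ∈ A ∧ a' ∈ R)
    (h3 : b ∈ A ∧ b ∈ R') (h4 : b' ∈ A ∧ b' ∈ R') (ha : a ≠ a') (hb : b ≠ b') :
    ∃ g ∈ AltOn A, ∃ ψ : Perm α, φ = ψ * g ∧ Inv R ψ ∧ Inv R' ψ ∧ par R ψ = 0 ∧
      ∀ T : Finset α, Disjoint T R → Disjoint T R' → Inv T φ → Inv T ψ ∧ par T ψ = par T φ := by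
  by_cases h0 : par R φ = 0
  · exact ⟨1, one_mem _, φ, (mul_one φ).symm, h, h', h0, fun T _ _ hT => ⟨hT, rfl⟩⟩
  have h5 : par R φ = 1 := by
    revert h0
    generalize par R φ = z
    revert z
    decide
  have fa : ∀ p ∈ R', swap a a' p = p := fun p hp => crb_swap h1.2 h2.2 (Finset.disjoint_right.1 hd hp)
  have fb : ∀ p ∈ R, swap b b' p = p := fun p hp => crb_swap h3.2 h4.2 (Finset.disjoint_left.1 hd hp)
  have ia : Inv R (swap a a') := inv_of_fix fun p hp => crb_swap h1.2 h2.2 hp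
  have ib : Inv R (swap b b') := fun p hp => by rwa [fb p hp]
  refine ⟨swap a a' * swap b b', mem_AltOn.2 ⟨fun p hp => ?_, ?_⟩, φ * swap b b' * swap a a', ?_, (h.mul ib).mul ia,
    (h'.mul (inv_of_fix fun p hp => crb_swap h3.2 h4.2 hp)).mul fun p hp => by rwa [fa p hp], ?_, fun T t1 t2 hT => ?_⟩
  · rw [Perm.mul_apply, crb_swap h3.1 h4.1 hp, crb_swap h1.1 h2.1 hp]
  · rw [par_mul (inv_of_fix fun p hp => crb_swap h1.1 h2.1 hp) (inv_of_fix fun p hp => crb_swap h3.1 h4.1 hp),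
      par_swap h1.1 h2.1 ha, par_swap h3.1 h4.1 hb]
    rfl
  · rw [mul_assoc, ← mul_assoc (swap a a'), swap_mul_self, one_mul, mul_assoc, swap_mul_self, mul_one]
  · rw [par_mul (h.mul ib) ia, par_mul h ib, h5, par_of_fix fb, par_swap h1.2 h2.2 ha]
    rfl
  · have e : ∀ p ∈ T, (φ * swap b b' * swap a a') p = φ p := fun p hp => by
      rw [Perm.mul_apply, Perm.mul_apply, crb_swap h1.2 h2.2 (Finset.disjoint_left.1 t1 hp),
        crb_swap h3.2 h4.2 (Finset.disjoint_left.1 t2 hp)]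
    exact ⟨fun p hp => by rw [e p hp]; exact hT p hp, par_congr e⟩

end crb

theorem crb_disj {a b c d a' b' c' d' : ℤ} (h : b ≤ a' ∨ b' ≤ a ∨ d ≤ c' ∨ d' ≤ c) :
    Disjoint (reg n a b c d) (reg n a' b' c' d') :=
  Finset.disjoint_left.2 fun p hp hp' => by
    rw [mem_reg] at hp hp'
    omega

theorem crb_sub {a b c d a' b' c' d' : ℤ} (h : a' ≤ a ∧ b ≤ b' ∧ c' ≤ c ∧ d ≤ d') : reg n a b c d ⊆ reg n a' b' c' d' :=
  fun p hp => by
    rw [mem_reg] at hp ⊢
    omega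

theorem crb_card (hn : 2 ≤ n) {a b c d : ℤ} (h1 : a < b) (h2 : c < d) (h3 : a + 1 < b ∨ c + 1 < d) :
    3 ≤ (reg n a b c d).card := by
  rw [reg, rect, Finset.card_product, Finset.card_product, Int.card_Ico, Int.card_Ico, Finset.card_univ, Fintype.card_fin]
  have h4 : 2 ≤ (b - a).toNat * (d - c).toNat := by
    rcases h3 with h3 | h3
    · exact Nat.mul_le_mul (show 2 ≤ (b - a).toNat by omega) (show 1 ≤ (d - c).toNat by omega)
    · exact Nat.mul_le_mul (show 1 ≤ (b - a).toNat by omega) (show 2 ≤ (d - c).toNat by omega)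
  exact le_trans (by norm_num) (Nat.mul_le_mul h4 hn)

/-- `exists_match` on the four arms gives `e` with `φ = σ e⁻¹` preserving the quadrants; multiply arms `4, 7, 5` by a product of two
swaps (levels `0,1` at a position in each of the two adjacent quadrants) to make the parities of `φ` on quadrants `0, 1, 2` even, the
last one is then even (`par_union`); `φ` is the product of its restrictions (`resS_mem`). -/
theorem corner (hn : 2 ≤ n) (s c : ℤ) (hs : 0 < s) (hsc : s < c) {σ : Perm (St n)} (hσ : σ ∈ AltOn (reg n (-c) c (-c) c))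
    (h1 : ∀ p ∈ reg n (-c) c (-c) c, ¬ (0 ≤ (σ p).1.1 ↔ 0 ≤ p.1.1) → p ∈ Rg n s c 4 ∨ p ∈ Rg n s c 5)
    (h2 : ∀ p ∈ reg n (-c) c (-c) c, ¬ (0 ≤ (σ p).1.2 ↔ 0 ≤ p.1.2) → p ∈ Rg n s c 6 ∨ p ∈ Rg n s c 7)
    (h0 : ∑ p ∈ reg n (-c) c 0 c, dif (RP n) σ p = 0) :
    ∃ e : Fin 8 → Perm (St n), (∀ i, e i ∈ AltOn (Rg n s c i)) ∧ σ = (List.ofFn e).prod := by
  obtain ⟨hx, hy⟩ := arms s c hs hsc (crb_inv hσ) h1 h2 h0
  obtain ⟨e4, m4, s4⟩ := exists_match (T := reg n (-s) s s c) (crb_card hn (by omega) hsc (by omega))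
    (fun p => 0 ≤ p.1.1) (fun p => 0 ≤ (σ p).1.1) (hx 4 (Or.inl rfl))
  obtain ⟨e5, m5, s5⟩ := exists_match (T := reg n (-s) s (-c) (-s)) (crb_card hn (by omega) (by omega) (by omega))
    (fun p => 0 ≤ p.1.1) (fun p => 0 ≤ (σ p).1.1) (hx 5 (Or.inr rfl))
  obtain ⟨e6, m6, s6⟩ := exists_match (T := reg n s c (-s) s) (crb_card hn hsc (by omega) (by omega))
    (fun p => 0 ≤ p.1.2) (fun p => 0 ≤ (σ p).1.2) (hy 6 (Or.inl rfl))
  obtain ⟨e7, m7, s7⟩ := exists_match (T := reg n (-c) (-s) (-s) s) (crb_card hn (by omega) (by omega) (by omega))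
    (fun p => 0 ≤ p.1.2) (fun p => 0 ≤ (σ p).1.2) (hy 7 (Or.inr rfl))
  have h1' : ∀ p : St n, p ∉ reg n (-s) s s c → p ∉ reg n (-s) s (-c) (-s) → (0 ≤ (σ p).1.1 ↔ 0 ≤ p.1.1) := fun p a b => by
    by_cases hp : p ∈ reg n (-c) c (-c) c
    · by_contra h
      exact (h1 p hp h).elim a b
    · rw [crb_fix hσ hp]
  have h2' : ∀ p : St n, p ∉ reg n s c (-s) s → p ∉ reg n (-c) (-s) (-s) s → (0 ≤ (σ p).1.2 ↔ 0 ≤ p.1.2) := fun p a b => by
    by_cases hp : p ∈ reg n (-c) c (-c) c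
    · by_contra h
      exact (h2 p hp h).elim a b
    · rw [crb_fix hσ hp]
  have d45 : Disjoint (reg n (-s) s s c) (reg n (-s) s (-c) (-s)) := crb_disj (by omega)
  have d46 : Disjoint (reg n (-s) s s c) (reg n s c (-s) s) := crb_disj (by omega)
  have d47 : Disjoint (reg n (-s) s s c) (reg n (-c) (-s) (-s) s) := crb_disj (by omega)
  have d56 : Disjoint (reg n (-s) s (-c) (-s)) (reg n s c (-s) s) := crb_disj (by omega)
  have d57 : Disjoint (reg n (-s) s (-c) (-s)) (reg n (-c) (-s) (-s) s) := crb_disj (by omega)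
  have d67 : Disjoint (reg n s c (-s) s) (reg n (-c) (-s) (-s) s) := crb_disj (by omega)
  have sg : ∀ p : St n, (0 ≤ (σ p).1.1 ↔ 0 ≤ ((e4 * e5 * e6 * e7) p).1.1) ∧
      (0 ≤ (σ p).1.2 ↔ 0 ≤ ((e4 * e5 * e6 * e7) p).1.2) := by
    intro p
    simp only [Perm.mul_apply]
    by_cases p4 : p ∈ reg n (-s) s s c
    · have a1 := crb_inv m4 p p4
      have a2 := h2' p (Finset.disjoint_left.1 d46 p4) (Finset.disjoint_left.1 d47 p4)
      rw [crb_fix m7 (Finset.disjoint_left.1 d47 p4), crb_fix m6 (Finset.disjoint_left.1 d46 p4),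
        crb_fix m5 (Finset.disjoint_left.1 d45 p4)]
      refine ⟨(s4 p p4).symm, ?_⟩
      rw [mem_reg] at a1 p4
      omega
    by_cases p5 : p ∈ reg n (-s) s (-c) (-s)
    · have a1 := crb_inv m5 p p5
      have a2 := h2' p (Finset.disjoint_left.1 d56 p5) (Finset.disjoint_left.1 d57 p5)
      rw [crb_fix m7 (Finset.disjoint_left.1 d57 p5), crb_fix m6 (Finset.disjoint_left.1 d56 p5),
        crb_fix m4 (Finset.disjoint_right.1 d45 a1)]
      refine ⟨(s5 p p5).symm, ?_⟩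
      rw [mem_reg] at a1 p5
      omega
    have a3 := h1' p p4 p5
    by_cases p6 : p ∈ reg n s c (-s) s
    · have a1 := crb_inv m6 p p6
      rw [crb_fix m7 (Finset.disjoint_left.1 d67 p6), crb_fix m5 (Finset.disjoint_right.1 d56 a1),
        crb_fix m4 (Finset.disjoint_right.1 d46 a1)]
      refine ⟨?_, (s6 p p6).symm⟩
      rw [mem_reg] at a1 p6
      omega
    by_cases p7 : p ∈ reg n (-c) (-s) (-s) s
    · have a1 := crb_inv m7 p p7
      rw [crb_fix m6 (Finset.disjoint_right.1 d67 a1), crb_fix m5 (Finset.disjoint_right.1 d57 a1),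
        crb_fix m4 (Finset.disjoint_right.1 d47 a1)]
      refine ⟨?_, (s7 p p7).symm⟩
      rw [mem_reg] at a1 p7
      omega
    rw [crb_fix m7 p7, crb_fix m6 p6, crb_fix m5 p5, crb_fix m4 p4]
    exact ⟨a3, h2' p p6 p7⟩
  have u4 : AltOn (reg n (-s) s s c) ≤ AltOn (reg n (-c) c (-c) c) := AltOn_mono (crb_sub (by omega))
  have u5 : AltOn (reg n (-s) s (-c) (-s)) ≤ AltOn (reg n (-c) c (-c) c) := AltOn_mono (crb_sub (by omega))
  have u6 : AltOn (reg n s c (-s) s) ≤ AltOn (reg n (-c) c (-c) c) := AltOn_mono (crb_sub (by omega))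
  have u7 : AltOn (reg n (-c) (-s) (-s) s) ≤ AltOn (reg n (-c) c (-c) c) := AltOn_mono (crb_sub (by omega))
  obtain ⟨φ, hφ⟩ : ∃ φ : Perm (St n), φ = σ * (e4 * e5 * e6 * e7)⁻¹ := ⟨_, rfl⟩
  have mφ : φ ∈ AltOn (reg n (-c) c (-c) c) :=
    hφ ▸ mul_mem hσ (inv_mem (mul_mem (mul_mem (mul_mem (u4 m4) (u5 m5)) (u6 m6)) (u7 m7)))
  have sφ : ∀ q ∈ reg n (-c) c (-c) c, φ q ∈ reg n (-c) c (-c) c ∧ (0 ≤ (φ q).1.1 ↔ 0 ≤ q.1.1) ∧ (0 ≤ (φ q).1.2 ↔ 0 ≤ q.1.2) := by
    intro q hq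
    refine ⟨crb_inv mφ q hq, ?_⟩
    have := sg ((e4 * e5 * e6 * e7)⁻¹ q)
    rwa [← Perm.mul_apply (e4 * e5 * e6 * e7), mul_inv_cancel, Perm.one_apply, ← Perm.mul_apply, ← hφ] at this
  have iφ : ∀ a b a' b' : ℤ, (a = 0 ∧ b = c ∨ a = -c ∧ b = 0) → (a' = 0 ∧ b' = c ∨ a' = -c ∧ b' = 0) →
      Inv (reg n a b a' b') φ := fun a b a' b' ha hb q hq => by
    have := sφ q (crb_sub (by omega) hq)
    rw [mem_reg] at this hq ⊢
    omega
  have d01 : Disjoint (reg n 0 c 0 c) (reg n (-c) 0 0 c) := crb_disj (by omega)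
  have d02 : Disjoint (reg n 0 c 0 c) (reg n (-c) 0 (-c) 0) := crb_disj (by omega)
  have d03 : Disjoint (reg n 0 c 0 c) (reg n 0 c (-c) 0) := crb_disj (by omega)
  have d12 : Disjoint (reg n (-c) 0 0 c) (reg n (-c) 0 (-c) 0) := crb_disj (by omega)
  have d13 : Disjoint (reg n (-c) 0 0 c) (reg n 0 c (-c) 0) := crb_disj (by omega)
  have d23 : Disjoint (reg n (-c) 0 (-c) 0) (reg n 0 c (-c) 0) := crb_disj (by omega)
  have hne : ∀ u : V, ((u, ⟨0, by omega⟩) : St n) ≠ (u, ⟨1, by omega⟩) := fun u e => by simp at e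
  obtain ⟨g4, n4, φ₁, k1, i0, i1, q0, r1⟩ := crb_step (A := reg n (-s) s s c) d01 (iφ _ _ _ _ (by omega) (by omega))
    (iφ _ _ _ _ (by omega) (by omega)) (by simp only [mem_reg]; omega) (by simp only [mem_reg]; omega)
    (by simp only [mem_reg]; omega) (by simp only [mem_reg]; omega) (hne (0, s)) (hne (-1, s))
  have i2 := (r1 _ d02.symm d12.symm (iφ _ _ _ _ (by omega) (by omega))).1
  have i3 := (r1 _ d03.symm d13.symm (iφ _ _ _ _ (by omega) (by omega))).1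
  obtain ⟨g7, n7, φ₂, k2, j1, j2, q1, r2⟩ := crb_step (A := reg n (-c) (-s) (-s) s) d12 i1 i2
    (by simp only [mem_reg]; omega) (by simp only [mem_reg]; omega)
    (by simp only [mem_reg]; omega) (by simp only [mem_reg]; omega) (hne (-s - 1, 0)) (hne (-s - 1, -1))
  obtain ⟨j0, q0'⟩ := r2 _ d01 d02 i0
  have j3 := (r2 _ d13.symm d23.symm i3).1
  obtain ⟨g5, n5, φ₃, k3, l2, l3, q2, r3⟩ := crb_step (A := reg n (-s) s (-c) (-s)) d23 j2 j3
    (by simp only [mem_reg]; omega) (by simp only [mem_reg]; omega)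
    (by simp only [mem_reg]; omega) (by simp only [mem_reg]; omega) (hne (-1, -s - 1)) (hne (0, -s - 1))
  obtain ⟨l0, q0''⟩ := r3 _ d02 d03 j0
  obtain ⟨l1, q1'⟩ := r3 _ d12 d13 j1
  rw [q0', q0] at q0''
  rw [q1] at q1'
  have m3 : φ₃ ∈ AltOn (reg n (-c) c (-c) c) := by
    have e : φ₃ = φ * g4⁻¹ * g7⁻¹ * g5⁻¹ := by rw [k1, mul_inv_cancel_right, k2, mul_inv_cancel_right, k3, mul_inv_cancel_right]
    rw [e]
    exact mul_mem (mul_mem (mul_mem mφ (inv_mem (u4 n4))) (inv_mem (u7 n7))) (inv_mem (u5 n5))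
  have eU : reg n (-c) c (-c) c = reg n 0 c 0 c ∪ reg n (-c) 0 0 c ∪ reg n (-c) 0 (-c) 0 ∪ reg n 0 c (-c) 0 := by
    ext p
    simp only [Finset.mem_union, mem_reg]
    omega
  have D2 := Finset.disjoint_union_left.2 ⟨d02, d12⟩
  have D3 := Finset.disjoint_union_left.2 ⟨Finset.disjoint_union_left.2 ⟨d03, d13⟩, d23⟩
  have q3 : par (reg n 0 c (-c) 0) φ₃ = 0 := by
    have := (mem_AltOn.1 m3).2
    rwa [eU, par_union D3 (crb_union (crb_union l0 l1) l2) l3, par_union D2 (crb_union l0 l1) l2, par_union d01 l0 l1,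
      q0'', q1', q2, zero_add, zero_add, zero_add] at this
  have e3 := crb_res_self m3
  rw [eU, crb_res_union D3 (crb_union (crb_union l0 l1) l2) l3, crb_res_union D2 (crb_union l0 l1) l2,
    crb_res_union d01 l0 l1] at e3
  refine ⟨![resS (reg n 0 c 0 c : Set (St n)) φ₃, resS (reg n (-c) 0 0 c : Set (St n)) φ₃,
    resS (reg n (-c) 0 (-c) 0 : Set (St n)) φ₃, resS (reg n 0 c (-c) 0 : Set (St n)) φ₃, g4 * e4, g5 * e5, e6, g7 * e7],
    fun i => ?_, ?_⟩
  · fin_cases i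
    · exact resS_mem l0 q0''
    · exact resS_mem l1 q1'
    · exact resS_mem l2 q2
    · exact resS_mem l3 q3
    · exact mul_mem n4 m4
    · exact mul_mem n5 m5
    · exact m6
    · exact mul_mem n7 m7
  · have c1 : Commute g7 (g4 * e4 * e5 * e6) :=
      ((crb_comm d47.symm n7 (mul_mem n4 m4)).mul_right (crb_comm d57.symm n7 m5)).mul_right (crb_comm d67.symm n7 m6)
    have c2 : Commute g5 (g4 * e4) := crb_comm d45.symm n5 (mul_mem n4 m4)
    calc σ = φ * (e4 * e5 * e6 * e7) := by rw [hφ, inv_mul_cancel_right]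
      _ = φ₃ * g5 * (g7 * (g4 * e4 * e5 * e6)) * e7 := by rw [k1, k2, k3]; simp only [mul_assoc]
      _ = φ₃ * (g5 * (g4 * e4)) * e5 * e6 * (g7 * e7) := by rw [c1.eq]; simp only [mul_assoc]
      _ = φ₃ * (g4 * e4 * (g5 * e5 * (e6 * (g7 * e7)))) := by rw [c2.eq]; simp only [mul_assoc]
      _ = _ := by
        conv_lhs => rw [← e3]
        simp only [List.ofFn_succ, List.ofFn_zero, List.prod_cons, List.prod_nil, Matrix.cons_val_zero, Matrix.cons_val_succ,
          mul_one, mul_assoc]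

end Crest.Agent.R189.Ker
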