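import Crest.Agent.R189.Basic
import Crest.Agent.R189.Full.Simple

/-! Row 189, block B4 (kernel of a central extension of `S`): definitions.  Architect helper85.
`π : E →* Perm (X × Fin n)` has range `S` and central kernel.  FROZEN. -/

set_option autoImplicit false

noncomputable section

namespace Crest.Agent.R189.Ker

open Equiv

/-! ### canonical lifts -/

section
variable {E P : Type*} [Group E] [Group P]

/-- the canonical lift of a (perfect) subgroup -/
def tl (π : E →* P) (J : Subgroup P) : Subgroup E := ⁅J.comap π, J.comap π⁆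

/-- perfect subgroups -/
def Perf (J : Subgroup P) : Prop := J ≤ ⁅J, J⁆

/-- the extension splits over `J` -/
def Split (π : E →* P) (J : Subgroup P) : Prop := tl π J ⊓ π.ker = ⊥

end

/-! ### finite permutations of an infinite type -/

section
variable {α : Type*} [DecidableEq α]

/-- even permutations of `R` -/
def AltOn (R : Finset α) : Subgroup (Perm α) := (alternatingGroup R).map Perm.ofSubtype

/-- `σ` maps `R` to itself -/
def Inv (R : Finset α) (σ : Perm α) : Prop := ∀ a ∈ R, σ a ∈ R

open Classical in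
/-- parity of `σ` on the invariant finite set `R` -/
def par (R : Finset α) (σ : Perm α) : ZMod 2 :=
  if h : ∀ a, σ a ∈ R ↔ a ∈ R then (if Perm.sign (σ.subtypePerm h : Perm R) = 1 then 0 else 1) else 0

open Classical in
/-- restriction to an invariant set -/
def resS (Z : Set α) (σ : Perm α) : Perm α :=
  if h : ∀ a, σ a ∈ Z ↔ a ∈ Z then Perm.ofSubtype (σ.subtypePerm h) else 1

open Classical in
/-- crossing of the boundary of `A` -/
def dif (A : Set α) (g : Perm α) (p : α) : ℤ := (if g p ∈ A then 1 else 0) - (if p ∈ A then 1 else 0)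

/-- `g` commensurates `A` -/
def Cm (A : Set α) (g : Perm α) : Prop := {p | ¬ (g p ∈ A ↔ p ∈ A)}.Finite

/-- index of `g` with respect to `A` -/
def ind (A : Set α) (g : Perm α) : ℤ := ∑ᶠ p, dif A g p

end

/-! ### sites, local words, flux (no dynamics) -/

/-- sites -/
abbrev St (n : ℕ) := V × Fin n

variable {n : ℕ}

/-- `[a,b) × [c,d)` -/
def rect (a b c d : ℤ) : Finset V := Finset.Ico a b ×ˢ Finset.Ico c d

theorem mem_rect {a b c d : ℤ} {u : V} : u ∈ rect a b c d ↔ (a ≤ u.1 ∧ u.1 < b) ∧ (c ≤ u.2 ∧ u.2 < d) := by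
  simp [rect]

/-- all sites over `[a,b) × [c,d)` -/
def reg (n : ℕ) (a b c d : ℤ) : Finset (St n) := rect a b c d ×ˢ Finset.univ

theorem mem_reg {a b c d : ℤ} {p : St n} :
    p ∈ reg n a b c d ↔ (a ≤ p.1.1 ∧ p.1.1 < b) ∧ (c ≤ p.1.2 ∧ p.1.2 < d) := by
  simp [reg, mem_rect]

/-- one site on each level -/
def Rt (τ : Fin n → V) : Finset (St n) := Finset.univ.image fun i => (τ i, i)

theorem mem_Rt {τ : Fin n → V} {p : St n} : p ∈ Rt τ ↔ p.1 = τ p.2 := by
  simp only [Rt, Finset.mem_image, Finset.mem_univ, true_and]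
  exact ⟨by rintro ⟨i, rfl⟩; rfl, fun h => ⟨p.2, Prod.ext h.symm rfl⟩⟩

/-- base point of a site -/
def bs (τ : Fin n → V) (p : St n) : V := p.1 - τ p.2

/-- translation of sites -/
def sh (u : V) : Perm (St n) := Equiv.prodCongr (Equiv.addRight u) (Equiv.refl _)

@[simp] theorem sh_apply (u : V) (p : St n) : sh u p = (p.1 + u, p.2) := rfl

/-- a local letter: offsets and a permutation of the sites -/
abbrev Lt (n : ℕ) := (Fin n → V) × Perm (St n)

/-- the letter has radius `r` and preserves base points -/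
def Ok (r : ℕ) (l : Lt n) : Prop := (∀ i, l.1 i ∈ box r) ∧ ∀ p, bs l.1 (l.2 p) = bs l.1 p

/-- only the instances with base point in `Z` -/
def cut (l : Lt n) (Z : Set V) : Perm (St n) := resS {p | bs l.1 p ∈ Z} l.2

/-- a word cut along zones -/
def gz : List (Lt n) → (ℕ → Set V) → Perm (St n)
  | [], _ => 1
  | l :: w, Z => cut l (Z 0) * gz w fun i => Z (i + 1)

/-- right half plane -/
def RP (n : ℕ) : Set (St n) := {p | 0 ≤ p.1.1}

/-- lower half plane -/
def Low : Set V := {v | v.2 < 0}

/-- the flux of a word -/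
def flux (w : List (Lt n)) : ℤ := ind (RP n) (w.map fun l => cut l Low).prod

/-- quadrants `0..3` and arms `4..7` (top, bottom, right, left) of the corner square -/
def Rg (n : ℕ) (s c : ℤ) : Fin 8 → Finset (St n) :=
  ![reg n 0 c 0 c, reg n (-c) 0 0 c, reg n (-c) 0 (-c) 0, reg n 0 c (-c) 0,
    reg n (-s) s s c, reg n (-s) s (-c) (-s), reg n s c (-s) s, reg n (-c) (-s) (-s) s]

/-! ### towers -/

variable {X : Type} [TopologicalSpace X] [AddAction V X]

/-- `g` acts on the orbit of `x` as `σ` -/
def Rep (g : Perm (X × Fin n)) (x : X) (σ : Perm (St n)) : Prop := ∀ p, g (pt p x) = pt (σ p) x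

open Classical in
/-- the action on the orbit of `x` -/
def act (g : Perm (X × Fin n)) (x : X) : Perm (St n) := if h : ∃ σ, Rep g x σ then h.choose else 1

/-- the pieces over `U` at the sites of `R` are disjoint -/
abbrev DisjR (U : Set X) (R : Finset (St n)) : Prop := Disj U (Subtype.val : R → St n)

/-- the finite alternating group of a tower -/
def A (U : Set X) (R : Finset (St n)) : Subgroup (Perm (X × Fin n)) :=
  (alternatingGroup R).map (sec U (Subtype.val : R → St n))

/-- locally constant functions on `B` with values in `Alt R` -/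
def L (B : Set X) (R : Finset (St n)) : Subgroup (Perm (X × Fin n)) :=
  ⨆ U : {U : Set X // IsClopen U ∧ U ⊆ B}, A U.1 R

/-- SW corners of the level-`t` tiles -/
def Bs (H : Hier X) (t : ℕ) : Set X := {x | H.ph t x = 0}

/-- `y ∈ u + Bs` -/
def At (H : Hier X) (t : ℕ) (y : X) (u : V) : Prop := H.ph t (-u +ᵥ y) = 0

/-- the zone of the positions `Y` modulo `q t` -/
def Zn (H : Hier X) (t : ℕ) (Y : Set V) : Set X := {y | ∃ u ∈ Y, At H t y u}

variable {E : Type} [Group E]

/-- central extension of `S` -/
structure Ext (π : E →* Perm (X × Fin n)) : Prop where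
  range : π.range = SG V X n
  cen : π.ker ≤ Subgroup.center E

/-- the extension splits over all towers -/
def Splits (π : E →* Perm (X × Fin n)) : Prop :=
  ∀ (B : Set X) (R : Finset (St n)), IsClopen B → DisjR B R → n ≤ R.card → Split π (L B R)

/-- letters -/
structure Let (π : E →* Perm (X × Fin n)) where
  τ : Fin n → V
  e : E
  mem : e ∈ tl π (L Set.univ (Rt τ))

variable {π : E →* Perm (X × Fin n)}

/-- the letter seen at `x` -/
def Let.at (l : Let π) (x : X) : Lt n := (l.τ, act (π l.e) x)

/-- value of a word -/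
def evw (w : List (Let π)) : E := (w.map Let.e).prod

/-- all letters have radius `r` -/
def Rad (r : ℕ) (w : List (Let π)) : Prop := ∀ l ∈ w, ∀ i, l.τ i ∈ box r

/-- thin rectangle around the W edge of the tile -/
def RV (n : ℕ) (q s : ℤ) : Finset (St n) := reg n (-s) s s (q - s)
/-- thin rectangle around the S edge of the tile -/
def RH (n : ℕ) (q s : ℤ) : Finset (St n) := reg n s (q - s) (-s) s
/-- the tile -/
def RF (n : ℕ) (q : ℤ) : Finset (St n) := reg n 0 q 0 q

variable (π) in
/-- a relation `bV bH c` at level `t` -/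
structure Tr (H : Hier X) (t : ℕ) (s : ℤ) where
  bV : E
  bH : E
  c : E
  hV : bV ∈ tl π (L (Bs H t) (RV n (H.q t) s))
  hH : bH ∈ tl π (L (Bs H t) (RH n (H.q t) s))
  hc : c ∈ tl π (L (Bs H t) (RF n (H.q t)))
  one : π (bV * bH * c) = 1

/-- value -/
def Tr.val {H : Hier X} {t : ℕ} {s : ℤ} (T : Tr π H t s) : E := T.bV * T.bH * T.c

/-- parities on the halves of the edge rectangles inside the tile -/
def Tr.eps {H : Hier X} {t : ℕ} {s : ℤ} (T : Tr π H t s) (b : Bool) (x : X) : ZMod 2 :=
  if b then par (reg n s (H.q t - s) 0 s) (act (π T.bH) x) else par (reg n 0 s s (H.q t - s)) (act (π T.bV) x)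

end Crest.Agent.R189.Ker
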