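import Crest.Agent.R189.Ker.Par

/-! Row 189, block B4: index and flux (combinatorics of permutations of the sites). -/

set_option autoImplicit false
set_option linter.unusedSectionVars false

noncomputable section

namespace Crest.Agent.R189.Ker

open Equiv

section
variable {α : Type*} [DecidableEq α] {A : Set α} {g h : Perm α}

theorem Cm.mul (hg : Cm A g) (hh : Cm A h) : Cm A (g * h) := by
  refine Set.Finite.subset ((Set.Finite.preimage h.injective.injOn hg).union hh) fun p hp => ?_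
  simp only [Set.mem_ofPred_eq, Perm.mul_apply, Set.mem_union, Set.mem_preimage] at hp ⊢
  tauto

theorem Cm.inv (hg : Cm A g) : Cm A g⁻¹ := by
  refine Set.Finite.subset (Set.Finite.preimage (g⁻¹).injective.injOn hg) fun p hp => ?_
  have e : g (g⁻¹ p) = p := by simp
  simp only [Set.mem_ofPred_eq, Set.mem_preimage, e] at hp ⊢
  tauto

theorem fxa_supp {p : α} (hp : dif A g p ≠ 0) : ¬ (g p ∈ A ↔ p ∈ A) := by
  intro h
  apply hp
  by_cases h1 : p ∈ A
  · simp [dif, h1, h.2 h1]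
  · have h2 : g p ∉ A := fun h2 => h1 (h.1 h2)
    simp [dif, h1, h2]

theorem fxa_supp_fin (hg : Cm A g) : (Function.support (dif A g)).Finite :=
  Set.Finite.subset hg fun _ hp => fxa_supp hp

theorem Cm.one : Cm A (1 : Perm α) := by
  simp [Cm]

/-- `dif A (g * h) p = dif A g (h p) + dif A h p`, `finsum_add_distrib`, `finsum_comp_equiv` -/
theorem ind_mul (hg : Cm A g) (hh : Cm A h) : ind A (g * h) = ind A g + ind A h := by
  have h1 : ∀ p, dif A (g * h) p = dif A g (h p) + dif A h p := fun p => by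
    unfold dif
    exact (sub_add_sub_cancel _ _ _).symm
  have h2 : (Function.support fun p => dif A g (h p)).Finite :=
    Set.Finite.preimage h.injective.injOn (fxa_supp_fin hg)
  unfold ind
  rw [finsum_congr h1, finsum_add_distrib h2 (fxa_supp_fin hh), finsum_comp_equiv h (f := dif A g)]

theorem ind_one : ind A (1 : Perm α) = 0 := by
  have h : ∀ p, dif A (1 : Perm α) p = 0 := fun p => sub_self _
  simp only [ind, h, finsum_zero]

theorem ind_inv (hg : Cm A g) : ind A g⁻¹ = -ind A g := by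
  have h := ind_mul hg hg.inv
  rw [mul_inv_cancel, ind_one] at h
  omega

/-- a finite invariant set -/
theorem sum_dif {T : Finset α} (hT : Inv T g) : ∑ p ∈ T, dif A g p = 0 := by
  classical
  unfold dif
  rw [Finset.sum_sub_distrib, sub_eq_zero]
  exact Finset.sum_equiv g (fun a => (hT.iff a).symm) fun _ _ => rfl

/-- (FIB) `g` preserves a map with finite fibres: sum over the finite invariant set `b ⁻¹' (b '' crossing points)`. -/
theorem ind_fib {β : Type*} (b : α → β) (hb : ∀ y, {p | b p = y}.Finite) (hg : ∀ p, b (g p) = b p) (hc : Cm A g) :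
    ind A g = 0 := by
  have hf : (⋃ y ∈ b '' {p | ¬ (g p ∈ A ↔ p ∈ A)}, {p | b p = y}).Finite :=
    Set.Finite.biUnion (Set.Finite.image b hc) fun y _ => hb y
  have hm : ∀ p, p ∈ hf.toFinset ↔ b p ∈ b '' {p | ¬ (g p ∈ A ↔ p ∈ A)} := fun p => by
    rw [Set.Finite.mem_toFinset, Set.mem_iUnion₂]
    exact ⟨fun ⟨y, hy, h⟩ => (show b p = y from h) ▸ hy, fun h => ⟨b p, h, rfl⟩⟩
  have hT : Inv hf.toFinset g := fun p hp => by
    rw [hm] at hp ⊢
    rwa [hg]
  unfold ind
  rw [finsum_eq_sum_of_support_subset (s := hf.toFinset) _ ?_, sum_dif hT]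
  intro p hp
  rw [Finset.mem_coe, hm]
  exact ⟨p, fxa_supp hp, rfl⟩

end

variable {n r : ℕ} {w : List (Lt n)}

theorem cut_of_mem {l : Lt n} (hl : Ok r l) {Z : Set V} {p : St n} (hp : bs l.1 p ∈ Z) : cut l Z p = l.2 p := by
  refine resS_of_mem (fun a => ?_) hp
  simp only [Set.mem_ofPred_eq, hl.2 a]

theorem cut_of_not {l : Lt n} {Z : Set V} {p : St n} (hp : bs l.1 p ∉ Z) : cut l Z p = p := by
  exact resS_of_not hp

theorem gz_const (Z : Set V) : gz w (fun _ => Z) = (w.map fun l => cut l Z).prod := by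
  induction w with
  | nil => rfl
  | cons l w ih => simp only [gz, List.map_cons, List.prod_cons, ih]

theorem gz_univ (hw : ∀ l ∈ w, Ok r l) : gz w (fun _ => Set.univ) = (w.map Prod.snd).prod := by
  rw [gz_const]
  congr 1
  refine List.map_congr_left fun l hl => ?_
  ext1 p
  exact cut_of_mem (hw l hl) (Set.mem_univ _)

theorem fxa_cut_disp {l : Lt n} (hl : Ok r l) (Z : Set V) (p : St n) : (cut l Z p).1 - p.1 ∈ box (2 * r) := by
  by_cases hp : bs l.1 p ∈ Z
  · rw [cut_of_mem hl hp]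
    have h1 := hl.2 p
    unfold bs at h1
    have h2 : (l.2 p).1 - p.1 = l.1 (l.2 p).2 + -l.1 p.2 := by
      rw [sub_eq_iff_eq_add] at h1
      rw [h1]; abel
    rw [h2, two_mul]
    exact add_mem_box (hl.1 _) (neg_mem_box (hl.1 _))
  · rw [cut_of_not hp, sub_self]
    exact zero_mem_box _

theorem fxa_gz_empty : gz w (fun _ => (∅ : Set V)) = 1 := by
  rw [gz_const]
  refine List.prod_eq_one fun g hg => ?_
  obtain ⟨l, -, rfl⟩ := List.mem_map.1 hg
  ext1 p
  exact cut_of_not (Set.notMem_empty _)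

/-- displacement -/
theorem gz_disp (hw : ∀ l ∈ w, Ok r l) (Z : ℕ → Set V) (p : St n) : (gz w Z p).1 - p.1 ∈ box (2 * r * w.length) := by
  induction w generalizing Z with
  | nil => simpa [gz] using zero_mem_box 0
  | cons l w ih =>
    have h1 := ih (fun l hl => hw l (List.mem_cons_of_mem _ hl)) fun i => Z (i + 1)
    have h2 := fxa_cut_disp (hw l List.mem_cons_self) (Z 0) (gz w (fun i => Z (i + 1)) p)
    have h3 := add_mem_box h2 h1
    rw [sub_add_sub_cancel] at h3
    have h4 : 2 * r * (l :: w).length = 2 * r + 2 * r * w.length := by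
      rw [List.length_cons]; ring
    rw [h4]
    exact h3

/-- locality in the zones -/
theorem gz_loc (hw : ∀ l ∈ w, Ok r l) {Z Z' : ℕ → Set V} {p : St n}
    (h : ∀ i < w.length, ∀ v, v - p.1 ∈ box (2 * r * w.length + r) → (v ∈ Z i ↔ v ∈ Z' i)) : gz w Z p = gz w Z' p := by
  induction w generalizing Z Z' with
  | nil => rfl
  | cons l w ih =>
    have hw' : ∀ l ∈ w, Ok r l := fun l hl => hw l (List.mem_cons_of_mem _ hl)
    have hl := hw l List.mem_cons_self
    have hle : 2 * r * w.length + r ≤ 2 * r * (l :: w).length + r := by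
      rw [List.length_cons, Nat.mul_succ]; omega
    have h1 : gz w (fun i => Z (i + 1)) p = gz w (fun i => Z' (i + 1)) p :=
      ih hw' fun i hi v hv => h (i + 1) (by rw [List.length_cons]; omega) v (box_mono hle hv)
    show cut l (Z 0) (gz w (fun i => Z (i + 1)) p) = cut l (Z' 0) (gz w (fun i => Z' (i + 1)) p)
    rw [← h1]
    have h2 := gz_disp hw' (fun i => Z (i + 1)) p
    generalize gz w (fun i => Z (i + 1)) p = q at h2
    have h3 : bs l.1 q - p.1 ∈ box (2 * r * w.length + r) := by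
      have h4 : bs l.1 q - p.1 = (q.1 - p.1) + -l.1 q.2 := by unfold bs; abel
      rw [h4]
      exact add_mem_box h2 (neg_mem_box (hl.1 _))
    have h5 := h 0 (by rw [List.length_cons]; omega) _ (box_mono hle h3)
    by_cases hq : bs l.1 q ∈ Z 0
    · rw [cut_of_mem hl hq, cut_of_mem hl (h5.1 hq)]
    · rw [cut_of_not hq, cut_of_not fun h6 => hq (h5.2 h6)]

/-- the cut relation word moves only points with `|y| ≤ 2 r len + r`, by at most `2 r len` -/
theorem cm_low (hw : ∀ l ∈ w, Ok r l) (h1 : (w.map Prod.snd).prod = 1) : Cm (RP n) (w.map fun l => cut l Low).prod := by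
  rw [← gz_const]
  refine Set.Finite.subset (box (2 * r * w.length + r) ×ˢ (Finset.univ : Finset (Fin n))).finite_toSet
    fun p hp => ?_
  have hne : gz w (fun _ => Low) p ≠ p := fun h => hp (by rw [h])
  have hd := mem_box.1 (gz_disp hw (fun _ => Low) p)
  simp only [RP, Set.mem_ofPred_eq] at hp
  simp only [Finset.mem_coe, Finset.mem_product, Finset.mem_univ, and_true, mem_box]
  simp only [Prod.fst_sub, Prod.snd_sub] at hd
  have e : ((2 * r * w.length + r : ℕ) : ℤ) = ((2 * r * w.length : ℕ) : ℤ) + r := by push_cast; ring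
  refine ⟨by rw [e]; omega, ?_, ?_⟩
  · by_contra hlt
    apply hne
    rw [gz_loc hw (Z' := fun _ => Set.univ), gz_univ hw, h1, Perm.one_apply]
    intro i _ v hv
    have h2 := (mem_box.1 hv).2
    simp only [Prod.snd_sub] at h2
    simp only [Low, Set.mem_ofPred_eq, Set.mem_univ, iff_true]
    omega
  · by_contra hlt
    apply hne
    rw [gz_loc hw (Z' := fun _ => ∅), fxa_gz_empty, Perm.one_apply]
    intro i _ v hv
    have h2 := (mem_box.1 hv).2
    simp only [Prod.snd_sub] at h2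
    simp only [Low, Set.mem_ofPred_eq, Set.mem_empty_iff_false, iff_false]
    omega

/-- sets at bounded distance from the right half plane -/
def FlxNr (A : Set (St n)) : Prop := ∃ M : ℤ, ∀ p : St n, (M ≤ p.1.1 → p ∈ A) ∧ (p.1.1 ≤ -M → p ∉ A)

/-- permutations of index `0` for all such sets -/
def FlxN (γ : Perm (St n)) : Prop := ∀ A, FlxNr A → Cm A γ ∧ ind A γ = 0

theorem FlxN.mul {γ δ : Perm (St n)} (h : FlxN γ) (h' : FlxN δ) : FlxN (γ * δ) := fun A hA =>
  ⟨(h A hA).1.mul (h' A hA).1, by rw [ind_mul (h A hA).1 (h' A hA).1, (h A hA).2, (h' A hA).2, add_zero]⟩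

theorem flxb_one : FlxN (1 : Perm (St n)) := fun A _ => ⟨by simp [Cm], ind_one⟩

theorem flxb_bs {l : Lt n} (hl : Ok r l) (Z : Set V) (p : St n) : bs l.1 (cut l Z p) = bs l.1 p := by
  by_cases hp : bs l.1 p ∈ Z
  · rw [cut_of_mem hl hp, hl.2]
  · rw [cut_of_not hp]

theorem flxb_near {l : Lt n} (hl : Ok r l) (p : St n) :
    (bs l.1 p).1 - r ≤ p.1.1 ∧ p.1.1 ≤ (bs l.1 p).1 + r := by
  have h1 := hl.1 p.2
  rw [mem_box] at h1
  simp only [bs, Prod.fst_sub]
  omega

theorem flxb_fib (τ : Fin n → V) (y : V) : {p : St n | bs τ p = y}.Finite := by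
  refine (Set.finite_range fun i : Fin n => ((y + τ i, i) : St n)).subset fun p hp => ⟨p.2, ?_⟩
  have h1 : bs τ p = y := hp
  rw [← h1]
  simp [bs]

theorem flxb_conj {l : Lt n} (hl : Ok r l) (Z : Set V) {γ : Perm (St n)} (hγ : FlxN γ) :
    FlxN (cut l Z * γ * (cut l Z)⁻¹) := by
  rintro A ⟨M, hM⟩
  set α := cut l Z with hα
  have hn : FlxNr (α ⁻¹' A) := by
    refine ⟨M + 2 * r, fun p => ?_⟩
    have h1 := flxb_near hl p
    have h2 := flxb_near hl (α p)
    rw [hα, flxb_bs hl, ← hα] at h2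
    exact ⟨fun hp => (hM _).1 (by omega), fun hp => (hM _).2 (by omega)⟩
  obtain ⟨h1, h2⟩ := hγ _ hn
  refine ⟨(h1.image α).subset fun p hp => ⟨α⁻¹ p, ?_, by simp⟩, ?_⟩
  · simpa using hp
  · rw [← h2, ind, ind, ← finsum_comp_equiv α]
    refine finsum_congr fun q => ?_
    have h3 : (α * γ * α⁻¹) (α q) = α (γ q) := by simp
    unfold dif
    rw [h3]
    rfl

theorem flxb_step {l : Lt n} (hl : Ok r l) {Z Z' : Set V}
    (h : ∀ M : ℤ, {v : V | |v.1| ≤ M ∧ ¬ (v ∈ Z ↔ v ∈ Z')}.Finite) : FlxN (cut l Z' * (cut l Z)⁻¹) := by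
  rintro A ⟨M, hM⟩
  have h1 : ∀ p, bs l.1 ((cut l Z)⁻¹ p) = bs l.1 p := fun p => by
    rw [← flxb_bs hl Z ((cut l Z)⁻¹ p)]; simp
  have h2 : ∀ p, bs l.1 ((cut l Z' * (cut l Z)⁻¹) p) = bs l.1 p := fun p => by
    rw [Perm.mul_apply, flxb_bs hl, h1]
  have h3 : ∀ p, (bs l.1 p ∈ Z ↔ bs l.1 p ∈ Z') → (cut l Z' * (cut l Z)⁻¹) p = p := fun p hp => by
    rw [← h1] at hp
    have h4 : cut l Z' ((cut l Z)⁻¹ p) = cut l Z ((cut l Z)⁻¹ p) := by
      by_cases hq : bs l.1 ((cut l Z)⁻¹ p) ∈ Z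
      · rw [cut_of_mem hl hq, cut_of_mem hl (hp.1 hq)]
      · rw [cut_of_not hq, cut_of_not fun h' => hq (hp.2 h')]
    rw [Perm.mul_apply, h4]; simp
  have hc : Cm A (cut l Z' * (cut l Z)⁻¹) := by
    refine ((h (M + r)).biUnion fun y _ => flxb_fib l.1 y).subset fun p hp => ?_
    have hp' : ¬ ((cut l Z' * (cut l Z)⁻¹) p ∈ A ↔ p ∈ A) := hp
    refine Set.mem_biUnion (x := bs l.1 p) ⟨?_, fun h' => hp' (by rw [h3 p h'])⟩ rfl
    have a1 := flxb_near hl p
    have a2 := flxb_near hl ((cut l Z' * (cut l Z)⁻¹) p)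
    rw [h2] at a2
    rw [abs_le]
    constructor
    · by_contra h'
      exact hp' (iff_of_false ((hM _).2 (by omega)) ((hM _).2 (by omega)))
    · by_contra h'
      exact hp' (iff_of_true ((hM _).1 (by omega)) ((hM _).1 (by omega)))
  exact ⟨hc, ind_fib (bs l.1) (flxb_fib l.1) h2 hc⟩

theorem flxb_main (hw : ∀ l ∈ w, Ok r l) {Z Z' : ℕ → Set V}
    (h : ∀ i (M : ℤ), {v : V | |v.1| ≤ M ∧ ¬ (v ∈ Z i ↔ v ∈ Z' i)}.Finite) :
    ∃ γ, FlxN γ ∧ gz w Z' = γ * gz w Z := by
  induction w generalizing Z Z' with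
  | nil => exact ⟨1, flxb_one, by simp [gz]⟩
  | cons l w ih =>
    have hl := hw l List.mem_cons_self
    obtain ⟨γ, hγ, e⟩ := ih (fun l' hl' => hw l' (List.mem_cons_of_mem _ hl')) (Z := fun i => Z (i + 1))
      (Z' := fun i => Z' (i + 1)) fun i => h (i + 1)
    refine ⟨_, (flxb_step hl (h 0)).mul (flxb_conj hl (Z 0) hγ), ?_⟩
    simp only [gz, e]
    group

/-- (ZONE) Let `BD` be the group of permutations with bounded displacement and `N` the normal subgroup of the `γ ∈ BD` with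
`Cm (α '' RP) γ ∧ ind (α '' RP) γ = 0` for all `α ∈ BD`.  A letter cut along a zone `T` whose intersection with every vertical strip
is finite lies in `N` (`ind_fib` with `b = bs`), `cut l Z = cut l (Z ∩ Z') * cut l (Z \ Z')`, so `(gz w Z)⁻¹ * gz w Z' ∈ N`. -/
theorem ind_zone (hw : ∀ l ∈ w, Ok r l) {Z Z' : ℕ → Set V}
    (h : ∀ i (M : ℤ), {v : V | |v.1| ≤ M ∧ ¬ (v ∈ Z i ↔ v ∈ Z' i)}.Finite) (hc : Cm (RP n) (gz w Z)) :
    Cm (RP n) (gz w Z') ∧ ind (RP n) (gz w Z') = ind (RP n) (gz w Z) := by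

  obtain ⟨γ, hγ, e⟩ := flxb_main hw h
  obtain ⟨h1, h2⟩ := hγ (RP n) ⟨1, fun p => ⟨fun hp => show 0 ≤ p.1.1 by omega, fun hp (hq : 0 ≤ p.1.1) => by omega⟩⟩
  rw [e]
  exact ⟨h1.mul hc, by rw [ind_mul h1 hc, h2, zero_add]⟩

end Crest.Agent.R189.Ker
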