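import Crest.Agent.R189.Ker.Flux

/-! Row 189, block B4: the flux is local, shift invariant and is seen on the top arm. -/

set_option autoImplicit false
set_option linter.unusedSectionVars false

noncomputable section

namespace Crest.Agent.R189.Ker

open Equiv

variable {n r : ℕ} {w : List (Lt n)}

theorem ft_gz_empty (w : List (Lt n)) : gz w (fun _ => (∅ : Set V)) = 1 := by
  induction w with
  | nil => rfl
  | cons l w ih =>
    have h : cut l (∅ : Set V) = 1 := Equiv.ext fun p => cut_of_not (Set.notMem_empty _)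
    show cut l ∅ * gz w (fun _ => (∅ : Set V)) = 1
    rw [h, ih, one_mul]

theorem ft_dif_fix {α : Type*} [DecidableEq α] {A : Set α} {g : Perm α} {p : α} (h : g p = p) : dif A g p = 0 := by
  unfold dif
  rw [h, sub_self]

theorem ft_dif_congr {α : Type*} [DecidableEq α] {A : Set α} {g g' : Perm α} {p : α} (h : g p = g' p) :
    dif A g p = dif A g' p := by
  unfold dif
  rw [h]

theorem ft_dif_far (hw : ∀ l ∈ w, Ok r l) (Z : ℕ → Set V) {p : St n}
    (hp : ¬ (-(2 * r * w.length : ℤ) ≤ p.1.1 ∧ p.1.1 < 2 * r * w.length)) : dif (RP n) (gz w Z) p = 0 := by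
  have h := (mem_box.1 (gz_disp hw Z p)).1
  simp only [Prod.fst_sub] at h
  push_cast at h
  have : gz w Z p ∈ RP n ↔ p ∈ RP n := by
    simp only [RP, Set.mem_ofPred_eq]
    constructor <;> intro h0 <;> by_contra h2 <;> apply hp <;> constructor <;> linarith [h.1, h.2]
  unfold dif
  by_cases h3 : p ∈ RP n
  · rw [if_pos h3, if_pos (this.2 h3), sub_self]
  · rw [if_neg h3, if_neg (fun h4 => h3 (this.1 h4)), sub_self]

/-- Compare with the zones `Z' i = Low ∪ (Z i ∩ box c')` (`ind_zone`); `dif` vanishes unless `|x| ≤ D := 2 r len`; for such `p`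
use `gz_loc`: upper points of the square see `Z`, all other points are fixed. -/
theorem flux_top (hw : ∀ l ∈ w, Ok r l) (h1 : (w.map Prod.snd).prod = 1) {Z : ℕ → Set V} {D ρ ρ' c : ℤ}
    (hD : 2 * r * w.length + r ≤ D) (hρ : 3 * D ≤ ρ) (hρ' : ρ ≤ ρ') (hc : ρ' + D ≤ c)
    (hin : ∀ i < w.length, ∀ v ∈ rect (-ρ) ρ (-ρ) ρ, v ∈ Z i)
    (hout : ∀ i < w.length, ∀ v ∈ rect (-c - D) (c + D) (-c - D) (c + D), v ∈ Z i → v ∈ rect (-ρ') ρ' (-ρ') ρ') :
    ∑ p ∈ reg n (-c) c 0 c, dif (RP n) (gz w Z) p = flux w := by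
  classical
  set Z' : ℕ → Set V := fun i => Low ∪ (Z i ∩ ↑(rect (-ρ') ρ' (-ρ') ρ')) with hZ'
  have hcm : Cm (RP n) (gz w fun _ => Low) := by rw [gz_const]; exact cm_low hw h1
  have hz := (ind_zone hw (Z := fun _ => Low) (Z' := Z') (fun i M => ?_) hcm).2
  swap
  · refine (rect (-ρ') ρ' (-ρ') ρ').finite_toSet.subset fun v hv => ?_
    by_contra hv'
    exact hv.2 ⟨fun h => Or.inl h, fun h => h.elim id fun h => absurd h.2 hv'⟩
  rw [gz_const] at hz
  rw [flux, ← hz, ind]
  have hr : (0 : ℤ) ≤ r := by positivity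
  have hd : (0 : ℤ) ≤ 2 * r * w.length := by positivity
  have near : ∀ (p : St n) (v : V), v - p.1 ∈ box (2 * r * w.length + r) →
      (p.1.1 - D ≤ v.1 ∧ v.1 ≤ p.1.1 + D) ∧ (p.1.2 - D ≤ v.2 ∧ v.2 ≤ p.1.2 + D) := fun p v hv => by
    have h := mem_box.1 hv
    simp only [Prod.fst_sub, Prod.snd_sub] at h
    push_cast at h
    refine ⟨⟨?_, ?_⟩, ?_, ?_⟩ <;> linarith [h.1.1, h.1.2, h.2.1, h.2.2]
  rw [finsum_eq_sum_of_support_subset (s := reg n (-c) c 0 c)]
  · refine Finset.sum_congr rfl fun p hp => ?_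
    by_cases hx : -(2 * r * w.length : ℤ) ≤ p.1.1 ∧ p.1.1 < 2 * r * w.length
    swap
    · rw [ft_dif_far hw _ hx, ft_dif_far hw _ hx]
    rw [mem_reg] at hp
    refine ft_dif_congr (gz_loc hw fun i hi v hv => ?_)
    have hn := near p v hv
    by_cases hy : v.2 < 0
    · refine iff_of_true (hin i hi v (mem_rect.2 ⟨⟨?_, ?_⟩, ?_, ?_⟩)) (Or.inl hy) <;>
        linarith [hn.1.1, hn.1.2, hn.2.1, hn.2.2, hx.1, hx.2, hp.2.1, hp.2.2]
    · refine ⟨fun h => Or.inr ⟨h, hout i hi v (mem_rect.2 ⟨⟨?_, ?_⟩, ?_, ?_⟩) h⟩,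
        fun h => h.elim (fun h => absurd h hy) fun h => h.1⟩ <;>
        linarith [hn.1.1, hn.1.2, hn.2.1, hn.2.2, hx.1, hx.2, hp.2.1, hp.2.2, hp.1.1, hp.1.2]
  · intro p hp
    by_contra hp'
    apply hp
    by_cases hx : -(2 * r * w.length : ℤ) ≤ p.1.1 ∧ p.1.1 < 2 * r * w.length
    swap
    · exact ft_dif_far hw _ hx
    rw [Finset.mem_coe, mem_reg] at hp'
    apply ft_dif_fix
    by_cases hy : p.1.2 < 0
    · rw [gz_loc hw (Z' := fun _ => Set.univ) fun i hi v hv => ?_, gz_univ hw, h1, Perm.one_apply]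
      have hn := near p v hv
      refine iff_of_true ?_ (Set.mem_univ _)
      by_cases hv0 : v.2 < 0
      · exact Or.inl hv0
      · refine Or.inr ⟨hin i hi v (mem_rect.2 ⟨⟨?_, ?_⟩, ?_, ?_⟩), Finset.mem_coe.2 (mem_rect.2 ⟨⟨?_, ?_⟩, ?_, ?_⟩)⟩ <;>
          linarith [hn.1.1, hn.1.2, hn.2.1, hn.2.2, hx.1, hx.2]
    · have hcy : c ≤ p.1.2 := by
        by_contra hcy
        refine hp' ⟨⟨?_, ?_⟩, ?_, ?_⟩ <;> linarith [hx.1, hx.2]
      rw [gz_loc hw (Z' := fun _ => ∅) fun i hi v hv => ?_, ft_gz_empty, Perm.one_apply]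
      have hn := near p v hv
      refine iff_of_false (fun h => h.elim (fun h => ?_) fun h => ?_) (Set.notMem_empty _)
      · have h' : v.2 < 0 := h
        linarith [hn.2.1]
      · have h' := (mem_rect.1 (Finset.mem_coe.1 h.2)).2.2
        linarith [hn.2.1]

theorem f2b_dif_congr {α β : Type*} {A : Set α} {A' : Set β} {g : Perm α} {g' : Perm β} {p : α} {p' : β}
    (h1 : g p ∈ A ↔ g' p' ∈ A') (h2 : p ∈ A ↔ p' ∈ A') : dif A g p = dif A' g' p' := by
  unfold dif
  rw [propext h1, propext h2]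

theorem f2b_dif_eq_zero {α : Type*} {A : Set α} {g : Perm α} {p : α} (h : g p ∈ A ↔ p ∈ A) : dif A g p = 0 := by
  unfold dif
  rw [propext h, sub_self]

/-- the index only depends on the part of `A` inside the support, up to a finite set -/
theorem f2b_ind_congr {α : Type*} [DecidableEq α] {A A' : Set α} {g : Perm α} (hc : Cm A g)
    (h : {p | g p ≠ p ∧ ¬ (p ∈ A ↔ p ∈ A')}.Finite) : ind A' g = ind A g := by
  classical
  let φ : α → ℤ := fun p => if g p = p then 0 else (if p ∈ A' then 1 else 0) - (if p ∈ A then 1 else 0)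
  have hφ : (Function.support φ).Finite := h.subset fun p hp => by
    by_cases h1 : g p = p
    · simp [φ, h1] at hp
    · refine ⟨h1, fun h2 => hp ?_⟩
      simp [φ, h2]
  have hφ' : (Function.support fun p => φ (g p)).Finite := hφ.preimage g.injective.injOn
  have hd : (Function.support (dif A g)).Finite := hc.subset fun p hp h2 => hp (by simp [dif, h2])
  have e : ∀ p, dif A' g p = dif A g p + (φ (g p) - φ p) := fun p => by
    by_cases h1 : g p = p
    · simp [dif, h1]
    · have h2 : g (g p) ≠ g p := fun h2 => h1 (g.injective h2)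
      simp only [dif, φ, if_neg h1, if_neg h2]
      ring
  have hs : (Function.support fun p => φ (g p) - φ p).Finite := (hφ'.union hφ).subset fun p hp => by
    by_contra h3
    simp only [Set.mem_union, Function.mem_support, not_or, not_not] at h3
    exact hp (by simp [h3.1, h3.2])
  unfold ind
  rw [finsum_congr e, finsum_add_distrib hd hs, finsum_sub_distrib hφ' hφ, finsum_comp_equiv g, sub_self, add_zero]

theorem f2b_gz_empty : ∀ (w : List (Lt n)) (p : St n), gz w (fun _ => (∅ : Set V)) p = p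
  | [], _ => rfl
  | l :: w, p => by
    show cut l ∅ (gz w (fun _ => (∅ : Set V)) p) = p
    rw [f2b_gz_empty w p, cut_of_not (Set.notMem_empty _)]

/-- a relation word cut along a lower half plane is supported in a horizontal strip -/
theorem f2b_fix (hw : ∀ l ∈ w, Ok r l) (h1 : (w.map Prod.snd).prod = 1) (a : ℤ) {p : St n}
    (hp : ((2 * r * w.length + r : ℕ) : ℤ) < |p.1.2 - a|) : gz w (fun _ => {v : V | v.2 < a}) p = p := by
  rcases lt_abs.mp hp with hp | hp
  · rw [gz_loc hw (Z' := fun _ => (∅ : Set V)), f2b_gz_empty]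
    intro i _ v hv
    rw [mem_box] at hv
    simp only [Set.mem_ofPred_eq, Set.mem_empty_iff_false, iff_false, not_lt, Prod.snd_sub] at hv ⊢
    omega
  · rw [gz_loc hw (Z' := fun _ => (Set.univ : Set V)), gz_univ hw, h1, Perm.one_apply]
    intro i _ v hv
    rw [mem_box] at hv
    simp only [Set.mem_ofPred_eq, Set.mem_univ, iff_true, Prod.snd_sub] at hv ⊢
    omega

theorem f2b_sh_inv (u : V) (p : St n) : (sh u)⁻¹ p = (p.1 - u, p.2) := by
  rw [Perm.inv_eq_iff_eq]
  simp

theorem f2b_cut_sh {l : Lt n} (hl : Ok r l) (u : V) :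
    cut (l.1, (sh u)⁻¹ * l.2 * sh u) Low = (sh u)⁻¹ * cut l {v : V | v.2 < u.2} * sh u := by
  have hb : ∀ p : St n, bs l.1 (sh u p) = bs l.1 p + u := fun p => by
    simp only [bs, sh_apply]
    abel
  have hl' : Ok r (l.1, (sh u)⁻¹ * l.2 * sh u) := ⟨hl.1, fun p => by
    have h1 := hl.2 (sh u p)
    have h2 := hb ((sh u)⁻¹ (l.2 (sh u p)))
    rw [show sh u ((sh u)⁻¹ (l.2 (sh u p))) = l.2 (sh u p) from (sh u).apply_symm_apply _, h1, hb] at h2
    exact (add_right_cancel h2).symm⟩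
  refine Equiv.ext fun p => ?_
  by_cases hp : bs l.1 p ∈ Low
  · have hp' : bs l.1 (sh u p) ∈ {v : V | v.2 < u.2} := by
      rw [hb]
      simpa [Low] using hp
    rw [cut_of_mem hl' hp, Perm.mul_apply, Perm.mul_apply, Perm.mul_apply, Perm.mul_apply, cut_of_mem hl hp']
  · have hp' : bs l.1 (sh u p) ∉ {v : V | v.2 < u.2} := by
      rw [hb]
      simpa [Low] using hp
    rw [cut_of_not (l := (l.1, (sh u)⁻¹ * l.2 * sh u)) hp, Perm.mul_apply, Perm.mul_apply, cut_of_not hp']
    exact ((sh u).symm_apply_apply _).symm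

theorem f2b_prod_sh (u : V) : ∀ (w : List (Lt n)), (∀ l ∈ w, Ok r l) →
    ((w.map fun l => (l.1, (sh u)⁻¹ * l.2 * sh u)).map fun l => cut l Low).prod =
      (sh u)⁻¹ * gz w (fun _ => {v : V | v.2 < u.2}) * sh u
  | [], _ => by simp [gz]
  | l :: w, hw => by
    rw [List.map_cons, List.map_cons, List.prod_cons, f2b_prod_sh u w fun l' h => hw l' (List.mem_cons_of_mem _ h),
      f2b_cut_sh (hw l List.mem_cons_self)]
    show _ = (sh u)⁻¹ * (cut l {v : V | v.2 < u.2} * gz w fun _ => {v : V | v.2 < u.2}) * sh u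
    group

/-- The left side is `ind (RP + u) (gz w (Low + u))`; `ind_zone` moves the zone, and for `g` supported in a horizontal strip
`ind (RP + u) g = ind RP g` because the difference is `ind` of a set meeting the strip in a finite set (`sum_dif`). -/
theorem flux_shift (hw : ∀ l ∈ w, Ok r l) (h1 : (w.map Prod.snd).prod = 1) (u : V) :
    flux (w.map fun l => (l.1, (sh u)⁻¹ * l.2 * sh u)) = flux w := by
  have hz := ind_zone (Z := fun _ => Low) (Z' := fun _ => {v : V | v.2 < u.2}) hw (fun _ M => by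
    refine (Finset.finite_toSet (Finset.Icc (-M) M ×ˢ Finset.Icc (-|u.2|) |u.2|)).subset fun v hv => ?_
    obtain ⟨h2, h3⟩ := hv
    simp only [Low, Set.mem_ofPred_eq] at h3
    rw [abs_le] at h2
    have := le_abs_self u.2
    have := neg_abs_le u.2
    simp only [Finset.coe_product, Finset.coe_Icc, Set.mem_prod, Set.mem_Icc]
    omega) (by rw [gz_const]; exact cm_low hw h1)
  have e1 : flux w = ind (RP n) (gz w fun _ => Low) := by rw [gz_const]; rfl
  rw [e1, ← hz.2]
  unfold flux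
  rw [f2b_prod_sh u w hw]
  set G := gz w fun _ => {v : V | v.2 < u.2} with hG
  have e2 : ind (RP n) ((sh u)⁻¹ * G * sh u) = ind {p : St n | u.1 ≤ p.1.1} G := by
    unfold ind
    rw [← finsum_comp_equiv (sh u) (f := dif {p : St n | u.1 ≤ p.1.1} G)]
    refine finsum_congr fun p => ?_
    have a1 : ((sh u)⁻¹ * G * sh u : Perm (St n)) p ∈ RP n ↔ G (sh u p) ∈ {p : St n | u.1 ≤ p.1.1} := by
      rw [Perm.mul_apply, Perm.mul_apply, f2b_sh_inv]
      simp [RP]
    have a2 : p ∈ RP n ↔ sh u p ∈ {p : St n | u.1 ≤ p.1.1} := by simp [RP]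
    exact f2b_dif_congr a1 a2
  rw [e2]
  refine f2b_ind_congr hz.1 ?_
  refine (Finset.finite_toSet ((Finset.Icc (-|u.1|) |u.1| ×ˢ Finset.Icc (u.2 - (2 * r * w.length + r : ℕ))
    (u.2 + (2 * r * w.length + r : ℕ))) ×ˢ (Finset.univ : Finset (Fin n)))).subset fun p hp => ?_
  obtain ⟨h2, h3⟩ := hp
  have h4 : |p.1.2 - u.2| ≤ ((2 * r * w.length + r : ℕ) : ℤ) := not_lt.mp fun h => h2 (f2b_fix hw h1 u.2 h)
  simp only [RP, Set.mem_ofPred_eq] at h3
  rw [abs_le] at h4
  have := le_abs_self u.1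
  have := neg_abs_le u.1
  simp only [Finset.coe_product, Finset.coe_Icc, Set.mem_prod, Set.mem_Icc, Finset.coe_univ, Set.mem_univ, and_true]
  omega

/-- locality in the letters -/
theorem f2b_gz_let {Λ : Type*} {f f' : Λ → Lt n} (Z : Set V) (M : ℕ) (p : St n) (hp : p.1 ∈ box M) :
    ∀ v : List Λ, (∀ l ∈ v, Ok r (f l)) → (∀ l ∈ v, Ok r (f' l)) → (∀ l ∈ v, (f l).1 = (f' l).1) →
      (∀ l ∈ v, ∀ q : St n, q.1 ∈ box (2 * r * v.length + M) → (f l).2 q = (f' l).2 q) →
      gz (v.map f) (fun _ => Z) p = gz (v.map f') (fun _ => Z) p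
  | [], _, _, _, _ => rfl
  | l :: v, hw, hw', hτ, h => by
    have hm : 2 * r * v.length + M ≤ 2 * r * (l :: v).length + M := by
      rw [List.length_cons]
      nlinarith
    have ih := f2b_gz_let Z M p hp v (fun l' h' => hw l' (List.mem_cons_of_mem _ h'))
      (fun l' h' => hw' l' (List.mem_cons_of_mem _ h')) (fun l' h' => hτ l' (List.mem_cons_of_mem _ h'))
      fun l' h' q hq => h l' (List.mem_cons_of_mem _ h') q (box_mono hm hq)
    show cut (f l) Z (gz (v.map f) (fun _ => Z) p) = cut (f' l) Z (gz (v.map f') (fun _ => Z) p)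
    rw [← ih]
    have hd := gz_disp (w := v.map f) (r := r) (fun l' h' => by
      obtain ⟨l'', h'', rfl⟩ := List.mem_map.mp h'
      exact hw l'' (List.mem_cons_of_mem _ h'')) (fun _ => Z) p
    rw [List.length_map] at hd
    have hq := add_mem_box hd hp
    rw [sub_add_cancel] at hq
    set q := gz (v.map f) (fun _ => Z) p
    have e := hτ l List.mem_cons_self
    by_cases hb : bs (f l).1 q ∈ Z
    · rw [cut_of_mem (hw l List.mem_cons_self) hb, cut_of_mem (hw' l List.mem_cons_self) (e ▸ hb)]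
      exact h l List.mem_cons_self q (box_mono hm hq)
    · rw [cut_of_not hb, cut_of_not (e ▸ hb)]

/-- the crossings happen near the origin -/
theorem f2b_dif_zero (hw : ∀ l ∈ w, Ok r l) (h1 : (w.map Prod.snd).prod = 1) {p : St n}
    (hp : p.1 ∉ box (2 * r * w.length + r)) : dif (RP n) (gz w fun _ => Low) p = 0 := by
  by_cases h2 : ((2 * r * w.length + r : ℕ) : ℤ) < |p.1.2 - 0|
  · have := f2b_fix hw h1 0 h2
    exact f2b_dif_eq_zero (by rw [show (gz w fun _ => Low) p = p from this])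
  · have hd := gz_disp hw (fun _ => Low) p
    rw [mem_box] at hd hp
    rw [not_lt, abs_le] at h2
    have a : (gz w fun _ => Low) p ∈ RP n ↔ p ∈ RP n := by
      simp only [RP, Set.mem_ofPred_eq, Prod.fst_sub] at hd ⊢
      push_cast at hd hp h2
      omega
    exact f2b_dif_eq_zero a

/-- only the sites near the origin matter -/
theorem flux_loc {Λ : Type*} {v : List Λ} {f f' : Λ → Lt n} (hw : ∀ l ∈ v, Ok r (f l)) (hw' : ∀ l ∈ v, Ok r (f' l))
    (h1 : ((v.map f).map Prod.snd).prod = 1) (h1' : ((v.map f').map Prod.snd).prod = 1) (hτ : ∀ l ∈ v, (f l).1 = (f' l).1)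
    (h : ∀ l ∈ v, ∀ p : St n, p.1 ∈ box (10 * (r + 1) * (v.length + 1)) → (f l).2 p = (f' l).2 p) :
    flux (v.map f) = flux (v.map f') := by
  have hw1 : ∀ l ∈ v.map f, Ok r l := fun l' h' => by
    obtain ⟨l'', h'', rfl⟩ := List.mem_map.mp h'
    exact hw l'' h''
  have hw2 : ∀ l ∈ v.map f', Ok r l := fun l' h' => by
    obtain ⟨l'', h'', rfl⟩ := List.mem_map.mp h'
    exact hw' l'' h''
  unfold flux
  rw [← gz_const, ← gz_const]
  unfold ind
  refine finsum_congr fun p => ?_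
  by_cases hp : p.1 ∈ box (2 * r * v.length + r)
  · have e := f2b_gz_let Low _ p hp v hw hw' hτ fun l hl q hq => h l hl q (box_mono (by nlinarith) hq)
    exact f2b_dif_congr (by rw [e]) Iff.rfl
  · rw [f2b_dif_zero hw1 h1 (by rwa [List.length_map]), f2b_dif_zero hw2 h1' (by rwa [List.length_map])]

end Crest.Agent.R189.Ker
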