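import Crest.Agent.R189.Ker.Tow
import Crest.Agent.R189.Ker.Flux2

/-! Row 189, block B4: words, fragmentation. -/

set_option autoImplicit false
set_option linter.unusedSectionVars false

noncomputable section

namespace Crest.Agent.R189.Ker

open Equiv

variable {n : ℕ} {X : Type} [TopologicalSpace X] [AddAction V X] [ContinuousConstVAdd V X] [CompactSpace X]
  [T2Space X] [TotallyDisconnectedSpace X] [IsCancelVAdd V X] {E : Type} [Group E] {π : E →* Perm (X × Fin n)}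

/-- the letter is supported over `W` -/
def Let.Sup (l : Let π) (W : Set X) : Prop := π l.e ∈ L W (Rt l.τ)

/-- inverse letter -/
def Let.inv (l : Let π) : Let π := ⟨l.τ, l.e⁻¹, inv_mem l.mem⟩

theorem Let.mem_SG (hn : 5 ≤ n) (l : Let π) : π l.e ∈ SG V X n := L_le_SG hn (disjR_Rt l.τ) (pi_mem l.mem)

theorem fa_sh (τ : Fin n → V) (p : St n) : sh (bs τ p) ((τ p.2, p.2) : St n) = p := by
  rw [sh_apply]; ext1 <;> simp [bs]

theorem fa_act {g : Perm (X × Fin n)} (hg : g ∈ SG V X n) (τ : Fin n → V) (x : X) (p : St n) :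
    act g x p = sh (bs τ p) (act g (bs τ p +ᵥ x) (τ p.2, p.2)) := by
  rw [act_vadd hg, Perm.mul_apply, Perm.mul_apply, fa_sh, ← Perm.mul_apply, mul_inv_cancel, Perm.one_apply]

theorem fa_fix (hn : 5 ≤ n) {τ : Fin n → V} {B : Set X} (hB : IsClopen B) {g : Perm (X × Fin n)} (hg : g ∈ L B (Rt τ))
    {y : X} (hy : y ∉ B) {p : St n} (hp : p ∈ Rt τ) : act g y p = p := by
  obtain ⟨h1, -, h3⟩ := (mem_L hn hB ((disjR_Rt τ).mono (Set.subset_univ B))).1 hg
  refine pt_injective y ?_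
  show pt (act g y p) y = pt p y
  rw [← rep_act h1 y p]
  refine h3 _ fun q hq z hz e => hy ?_
  obtain rfl := disjR_iff.1 (disjR_Rt (X := X) τ) q hq p hp z (Set.mem_univ _) y (Set.mem_univ _) e
  rwa [← pt_inj q e]

/-- `p` lies over the base point `bs τ p +ᵥ x`; `act_vadd`, `mem_L` -/
theorem Let.ok (hn : 5 ≤ n) {r : ℕ} (l : Let π) (hr : ∀ i, l.τ i ∈ box r) (x : X) : Ok r (l.at x) := by
  refine ⟨hr, fun p => ?_⟩
  obtain ⟨h1, h2, -⟩ := (mem_L hn isClopen_univ (disjR_Rt l.τ)).1 (pi_mem l.mem)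
  have h := mem_Rt.1 ((h2 (bs l.τ p +ᵥ x) (Set.mem_univ _)).1 (l.τ p.2, p.2) (mem_Rt.2 rfl))
  show bs l.τ (act (π l.e) x p) = bs l.τ p
  rw [fa_act h1 l.τ x p, sh_apply]
  conv_lhs => unfold bs
  simp only
  rw [show p.1 - l.τ p.2 = bs l.τ p from rfl, h]
  abel

theorem act_evw (hn : 5 ≤ n) (w : List (Let π)) (x : X) :
    act (π (evw w)) x = ((w.map fun l => l.at x).map Prod.snd).prod := by
  suffices h : π (evw w) ∈ SG V X n ∧ act (π (evw w)) x = ((w.map fun l => l.at x).map Prod.snd).prod from h.2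
  induction w with
  | nil => exact ⟨by simp [evw], by simp [evw, act_one]⟩
  | cons l w ih =>
    have e : π (evw (l :: w)) = π l.e * π (evw w) := by simp [evw]
    rw [e]
    refine ⟨mul_mem (l.mem_SG hn) ih.1, ?_⟩
    rw [act_mul (l.mem_SG hn) ih.1, ih.2]
    simp [Let.at]

/-- `SG_eq_AL`, `exists_isThreeCycle_of_inj`, `sec_restrict`, `tl_iSup` -/
theorem tl_le_closure (hn : 5 ≤ n) (hE : Ext π) : tl π (SG V X n) ≤ Subgroup.closure (Set.range (Let.e (π := π))) := by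
  have h1 : SG V X n ≤ ⨆ τ : Fin n → V, L (Set.univ : Set X) (Rt τ) := by
    rw [SG_eq_AL hn]
    refine (Subgroup.closure_le _).2 ?_
    rintro _ ⟨U, s, hU, hs, rfl⟩
    let τ : Fin n → V := Function.extend (fun k => (s k).2) (fun k => (s k).1) 0
    let j : Fin 3 → Rt τ := fun k => ⟨s k, mem_Rt.2 (hs.extend_apply (fun k => (s k).1) 0 k).symm⟩
    have hj : Function.Injective j := fun a b e => hs (congrArg (fun q : Rt τ => q.1.2) e)
    obtain ⟨σ, hσ, h1, h2⟩ := exists_isThreeCycle_of_inj hj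
    have e := sec_restrict ((disjR_Rt (X := X) τ).mono (Set.subset_univ U)) hj h1 h2
    refine Subgroup.mem_iSup_of_mem τ (A_le_L hU (Set.subset_univ U) ⟨σ, hσ.mem_alternatingGroup, ?_⟩)
    exact e
  refine (tl_mono h1).trans ((tl_iSup hE.cen (fun τ => ?_) fun τ => ?_).trans (iSup_le fun τ e he => ?_))
  · rw [hE.range]; exact L_le_SG hn (disjR_Rt τ)
  · exact perf_L (by rwa [card_Rt])
  · exact Subgroup.subset_closure ⟨⟨τ, e, he⟩, rfl⟩

/-- `exists_res`, `exists_tl`, `Split.eq` in `L univ (Rt τ)` -/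
theorem exists_cut (hn : 5 ≤ n) (hE : Ext π) (hS : Splits π) (l : Let π) {W Z : Set X} (hW : IsClopen W) (hZ : IsClopen Z)
    (hl : l.Sup W) : ∃ a b : Let π, a.τ = l.τ ∧ b.τ = l.τ ∧ l.e = a.e * b.e ∧ a.Sup (W ∩ Z) ∧ b.Sup (W \ Z) ∧
      ∀ x, act (π a.e) x = cut (l.at x) {v | v +ᵥ x ∈ Z} := by
  obtain ⟨g₁, h₁, g₂, h₂, e, k₁, -⟩ := exists_res hn hW hZ ((disjR_Rt l.τ).mono (Set.subset_univ W)) hl
  have hr : L (Set.univ : Set X) (Rt l.τ) ≤ π.range := by rw [hE.range]; exact L_le_SG hn (disjR_Rt l.τ)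
  have hp : Perf (L (Set.univ : Set X) (Rt l.τ)) := perf_L (by rwa [card_Rt])
  have h₁' := L_mono (Set.subset_univ _) h₁
  obtain ⟨a, ha, rfl⟩ := exists_tl hr hp h₁'
  obtain ⟨b, hb, rfl⟩ := exists_tl hr hp (L_mono (Set.subset_univ _) h₂)
  refine ⟨⟨l.τ, a, ha⟩, ⟨l.τ, b, hb⟩, rfl, rfl, ?_, h₁, h₂, fun x => ?_⟩
  · exact (hS _ _ isClopen_univ (disjR_Rt l.τ) (card_Rt l.τ).ge).eq l.mem (mul_mem ha hb) (by rw [map_mul, e])
  · obtain ⟨r, hr⟩ := exists_subset_box (Finset.univ.image l.τ)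
    have ok := l.ok hn (fun i => hr (Finset.mem_image_of_mem _ (Finset.mem_univ i))) x
    refine Equiv.ext fun p => ?_
    have hm : ((l.τ p.2, p.2) : St n) ∈ Rt l.τ := mem_Rt.2 rfl
    show act (π a) x p = _
    rw [fa_act (L_le_SG hn (disjR_Rt l.τ) h₁') l.τ x p]
    by_cases hz : bs l.τ p +ᵥ x ∈ Z
    · rw [cut_of_mem ok (Z := {v | v +ᵥ x ∈ Z}) hz]
      show _ = act (π l.e) x p
      rw [fa_act (l.mem_SG hn) l.τ x p]
      by_cases hw : bs l.τ p +ᵥ x ∈ W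
      · rw [k₁ _ ⟨hw, hz⟩ _ hm]
      · rw [fa_fix hn (hW.inter hZ) h₁ (fun h => hw h.1) hm, fa_fix hn hW hl hw hm]
    · rw [cut_of_not (l := l.at x) (Z := {v | v +ᵥ x ∈ Z}) hz, fa_fix hn (hW.inter hZ) h₁ (fun h => hz h.2) hm, fa_sh]

theorem fr_disjR_Rt (U : Set X) (τ : Fin n → V) : DisjR U (Rt τ) :=
  disjR_iff.2 fun p hp p' hp' y _ z _ e => disjR_iff.1 (disjR_Rt (X := X) τ) p hp p' hp' y trivial z trivial e

/-- a supported letter is a canonical lift for the smaller tower -/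
theorem Let.Sup.fr_mem_tl (hn : 5 ≤ n) (hE : Ext π) (hS : Splits π) {l : Let π} {W : Set X} (h : l.Sup W) :
    l.e ∈ tl π (L W (Rt l.τ)) :=
  (hS _ _ isClopen_univ (disjR_Rt l.τ) (card_Rt l.τ).ge).mem (L_mono (Set.subset_univ W))
    (hE.range ▸ L_le_SG hn (fr_disjR_Rt W l.τ)) (perf_L (by rw [card_Rt]; exact hn)) l.mem h

theorem fr_evw_cons (l : Let π) (w : List (Let π)) : evw (l :: w) = l.e * evw w := by
  simp [evw]

/-- letters with far apart supports commute -/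
theorem Let.Sup.fr_comm (hn : 5 ≤ n) (hE : Ext π) (hS : Splits π) {r : ℕ} {l l' : Let π} {U W : Set X} (hU : IsClopen U)
    (hW : IsClopen W) (h : l.Sup U) (h' : l'.Sup W) (hr : ∀ i, l.τ i ∈ box r) (hr' : ∀ i, l'.τ i ∈ box r)
    (hne : ∀ z ∈ W, ∀ v ∈ box (2 * r), v +ᵥ z ∉ U) : Commute l.e l'.e := by
  refine comm_tl hE.cen (h.fr_mem_tl hn hE hS) fun g hg =>
    (L_comm hn hU hW (fr_disjR_Rt U l.τ) (fr_disjR_Rt W l'.τ) ?_ hg).1 _ h'
  intro p hp p' hp' y hy z hz e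
  rw [mem_Rt] at hp hp'
  have e1 : p.1 +ᵥ y = p'.1 +ᵥ z := congrArg Prod.fst e
  refine hne z hz (-p.1 + p'.1) ?_ ?_
  · rw [two_mul, hp, hp']
    exact add_mem_box (neg_mem_box (hr _)) (hr' _)
  · rwa [add_vadd, ← e1, neg_vadd_vadd]

/-- (FRAG) induction on `w` generalizing `Z`; the outer part of the first letter commutes with the inner parts of the later
letters (`comm_tl`, `Split.mem`, `L_comm`). -/
theorem frag (hn : 5 ≤ n) (hE : Ext π) (hS : Splits π) {r : ℕ} {W : Set X} (hW : IsClopen W) (w : List (Let π)) (hr : Rad r w)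
    (hw : ∀ l ∈ w, l.Sup W) (Z : ℕ → Set X) (hZ : ∀ i, IsClopen (Z i))
    (hnest : ∀ i j, i < j → j < w.length → ∀ y ∈ Z j, ∀ v ∈ box (2 * r), v +ᵥ y ∈ Z i) :
    ∃ a b : List (Let π), evw w = evw a * evw b ∧ a.length = w.length ∧ b.length = w.length ∧ Rad r a ∧ Rad r b ∧
      (∀ l ∈ a, ∃ i < w.length, l.Sup (W ∩ Z i)) ∧ (∀ l ∈ b, ∃ i < w.length, l.Sup (W \ Z i)) ∧
      ∀ x, act (π (evw a)) x = gz (w.map fun l => l.at x) fun i => {v | v +ᵥ x ∈ Z i} := by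
  induction w generalizing Z with
  | nil => exact ⟨[], [], by simp [evw], rfl, rfl, hr, hr, by simp, by simp, fun x => by simp [evw, gz, act_one]⟩
  | cons l w ih =>
    have ml : l ∈ l :: w := List.mem_cons_self
    obtain ⟨a₀, b₀, ha, hb, he, sa, sb, hx⟩ := exists_cut hn hE hS l hW (hZ 0) (hw l ml)
    obtain ⟨a, b, e, la, lb, ra, rb, ta, tb, hy⟩ := ih (fun k hk => hr k (List.mem_cons_of_mem _ hk))
      (fun k hk => hw k (List.mem_cons_of_mem _ hk)) (fun i => Z (i + 1)) (fun i => hZ _)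
      fun i j hij hj => hnest (i + 1) (j + 1) (by omega) (by simpa using hj)
    have hc : Commute b₀.e (evw a) := by
      refine Commute.list_prod_right _ _ fun g hg => ?_
      obtain ⟨k, hk, rfl⟩ := List.mem_map.1 hg
      obtain ⟨i, hi, si⟩ := ta k hk
      exact sb.fr_comm hn hE hS (hW.diff (hZ 0)) (hW.inter (hZ _)) si (hb ▸ hr l ml) (ra k hk)
        fun z hz v hv h => h.2 (hnest 0 (i + 1) (by omega) (by simpa using hi) z hz.2 v hv)
    refine ⟨a₀ :: a, b₀ :: b, ?_, by simp [la], by simp [lb], ?_, ?_, ?_, ?_, fun x => ?_⟩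
    · rw [fr_evw_cons, fr_evw_cons, fr_evw_cons, he, e, mul_assoc, mul_assoc, ← mul_assoc b₀.e, hc.eq, mul_assoc]
    · exact List.forall_mem_cons.2 ⟨ha ▸ hr l ml, ra⟩
    · exact List.forall_mem_cons.2 ⟨hb ▸ hr l ml, rb⟩
    · refine List.forall_mem_cons.2 ⟨⟨0, by simp, sa⟩, fun k hk => ?_⟩
      obtain ⟨i, hi, si⟩ := ta k hk
      exact ⟨i + 1, by simpa using hi, si⟩
    · refine List.forall_mem_cons.2 ⟨⟨0, by simp, sb⟩, fun k hk => ?_⟩
      obtain ⟨i, hi, si⟩ := tb k hk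
      exact ⟨i + 1, by simpa using hi, si⟩
    · rw [fr_evw_cons, map_mul, act_mul (a₀.mem_SG hn) (hE.range ▸ ⟨_, rfl⟩), hx, hy]
      rfl

/-- words supported in a region (`L_le_of`, `Split.mem`) -/
theorem evw_mem (hn : 5 ≤ n) (hE : Ext π) (hS : Splits π) {H : Hier X} {t r : ℕ} {a b c d : ℤ}
    (h1 : b - a ≤ H.q t) (h2 : d - c ≤ H.q t) {w : List (Let π)} (hr : Rad r w)
    (h : ∀ l ∈ w, ∃ W, IsClopen W ∧ l.Sup W ∧ ∀ y ∈ W, ∃ u ∈ rect (a + r) (b - r) (c + r) (d - r), At H t y u) :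
    evw w ∈ tl π (L (Bs H t) (reg n a b c d)) := by
  refine Subgroup.list_prod_mem _ fun g hg => ?_
  obtain ⟨l, hl, rfl⟩ := List.mem_map.1 hg
  obtain ⟨W, -, sW, hW⟩ := h l hl
  refine tl_mono (L_le_of hn (fr_disjR_Rt W l.τ) (disjR_reg h1 h2) fun y hy => ?_) (sW.fr_mem_tl hn hE hS)
  obtain ⟨u, hu, hA⟩ := hW y hy
  refine ⟨u, hA, fun p hp => ?_⟩
  have := hr l hl p.2
  rw [← mem_Rt.1 hp, mem_box] at this
  rw [mem_rect] at hu
  rw [mem_reg]
  simp only [Prod.fst_add, Prod.snd_add]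
  omega

theorem fr_exists_rad (w : List (Let π)) : ∃ r, Rad r w := by
  induction w with
  | nil => exact ⟨0, fun l hl => by simp at hl⟩
  | cons l w ih =>
    obtain ⟨r, hr⟩ := ih
    obtain ⟨s, hs⟩ := exists_subset_box (Finset.univ.image l.τ)
    exact ⟨max r s, List.forall_mem_cons.2 ⟨fun i => box_mono (le_max_right _ _) (hs (by simp)),
      fun k hk i => box_mono (le_max_left _ _) (hr k hk i)⟩⟩

/-- the flux does not depend on the point (`flux_loc`, `act_lc`, `flux_shift`, `act_vadd`, minimality) -/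
theorem flux_const (hn : 5 ≤ n) [AddAction.IsMinimal V X] {w : List (Let π)} (h1 : π (evw w) = 1) (x y : X) :
    flux (w.map fun l => l.at x) = flux (w.map fun l => l.at y) := by
  obtain ⟨r, hr⟩ := fr_exists_rad w
  have ok : ∀ z, ∀ l ∈ w, Ok r (l.at z) := fun z l hl => l.ok hn (hr l hl) z
  have one : ∀ z, ((w.map fun l => l.at z).map Prod.snd).prod = 1 := fun z => by rw [← act_evw hn, h1, act_one]
  have ev : ∀ᶠ z in nhds y, ∀ l ∈ {l | l ∈ w}, ∀ p ∈ box (10 * (r + 1) * (w.length + 1)) ×ˢ (Finset.univ : Finset (Fin n)),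
      act (π l.e) z p = act (π l.e) y p :=
    (Filter.eventually_all_finite w.finite_toSet).2 fun l _ => (Filter.eventually_all_finset _).2 fun p _ =>
      (act_lc (l.mem_SG hn) p).eventually_eq y
  obtain ⟨_, ⟨u, rfl⟩, hu⟩ := ((AddAction.dense_orbit V x).inter_nhds_nonempty ev)
  rw [← flux_loc (ok (u +ᵥ x)) (ok y) (one _) (one _) (fun _ _ => rfl) fun l hl p hp => hu l hl p (by simpa using hp),
    ← flux_shift (r := r) (List.forall_mem_map.2 (ok x)) (one x) u, List.map_map]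
  congr 1
  exact List.map_congr_left fun l _ => by simp only [Function.comp, Let.at, act_vadd (l.mem_SG hn)]

end Crest.Agent.R189.Ker
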