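import Mathlib

/-! Row 189, block B4: finite universal central extensions and Carmichael's relations. -/

set_option autoImplicit false

namespace Crest.Agent.R189

open Equiv
open scoped commutatorElement

variable {E S : Type} [Group E] [Group S]

theorem comm_congr {π : E →* S} (hc : π.ker ≤ Subgroup.center E) {a a' b b' : E} (ha : π a = π a')
    (hb : π b = π b') : ⁅a, b⁆ = ⁅a', b'⁆ := by
  have h : ∀ {x y : E}, π x = π y → ∃ z, x = y * z ∧ ∀ g, g * z = z * g := fun {x y} h =>
    ⟨y⁻¹ * x, by simp, Subgroup.mem_center_iff.1 (hc (by simp [MonoidHom.mem_ker, h]))⟩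
  obtain ⟨z, rfl, hz⟩ := h ha
  obtain ⟨w, rfl, hw⟩ := h hb
  simp only [commutatorElement_def, mul_inv_rev]
  calc a' * z * (b' * w) * (z⁻¹ * a'⁻¹) * (w⁻¹ * b'⁻¹)
      = a' * (z * (b' * w) * z⁻¹) * a'⁻¹ * w⁻¹ * b'⁻¹ := by group
    _ = a' * b' * (w * a'⁻¹) * w⁻¹ * b'⁻¹ := by rw [← hz, mul_inv_cancel_right]; group
    _ = _ := by rw [← hw]; group

/-- lifts of a homomorphism from a perfect group are unique -/
theorem lift_unique {U : Type} [Group U] (hU : commutator U = ⊤) {π : E →* S} (hc : π.ker ≤ Subgroup.center E)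
    {L L' : U →* E} (h : ∀ u, π (L u) = π (L' u)) : L = L' := by
  refine MonoidHom.eq_of_eqOn_dense (s := commutatorSet U) (by rw [← commutator_eq_closure, hU]) ?_
  rintro _ ⟨a, b, rfl⟩
  rw [map_commutatorElement, map_commutatorElement]
  exact comm_congr hc (h a) (h b)

theorem range_lift {U : Type} [Group U] (hU : commutator U = ⊤) {π : E →* S} (hc : π.ker ≤ Subgroup.center E)
    (L : U →* E) : ⁅(π.comp L).range.comap π, (π.comp L).range.comap π⁆ = L.range := by
  refine le_antisymm (Subgroup.commutator_le.2 ?_) ?_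
  · rintro a ⟨u, hu⟩ b ⟨v, hv⟩
    exact ⟨⁅u, v⁆, by rw [map_commutatorElement]; exact comm_congr hc hu hv⟩
  · rw [L.range_eq_map, ← hU, commutator_def, Subgroup.map_commutator]
    refine Subgroup.commutator_mono ?_ ?_ <;> rintro _ ⟨u, -, rfl⟩ <;> exact ⟨u, rfl⟩

/-- a finite perfect group has a finite perfect cover to which every homomorphism lifts -/
theorem exists_cover (A : Type) [Group A] [Finite A] (hA : commutator A = ⊤) :
    ∃ (U : Type) (_ : Group U) (_ : Finite U) (ev : U →* A), commutator U = ⊤ ∧ Function.Surjective ev ∧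
      ∀ (E S : Type) [Group E] [Group S] (π : E →* S), Function.Surjective π → π.ker ≤ Subgroup.center E →
        ∀ ψ : A →* S, ∃ L : U →* E, ∀ u, π (L u) = ψ (ev u) := by
  let e : FreeGroup A →* A := FreeGroup.lift id
  let N : Subgroup (FreeGroup A) := ⁅(⊤ : Subgroup (FreeGroup A)), e.ker⁆
  have hN : N ≤ e.ker := Subgroup.commutator_le_right _ _
  let e' : FreeGroup A ⧸ N →* A := QuotientGroup.lift N e hN
  have hs : Function.Surjective e' := fun a => ⟨(FreeGroup.of a : FreeGroup A), by simp [e', e]⟩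
  have hc : e'.ker ≤ Subgroup.center _ := fun x hx => Subgroup.mem_center_iff.2 fun y => by
    obtain ⟨x, rfl⟩ := QuotientGroup.mk_surjective x
    obtain ⟨y, rfl⟩ := QuotientGroup.mk_surjective y
    rw [← commutatorElement_eq_one_iff_mul_comm]
    exact (QuotientGroup.eq_one_iff ⁅y, x⁆).2 (Subgroup.commutator_mem_commutator trivial hx)
  have : Finite (commutatorSet (FreeGroup A ⧸ N)) := by
    refine ((Set.finite_range fun p : A × A => ⁅Function.surjInv hs p.1, Function.surjInv hs p.2⁆).subset ?_).to_subtype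
    rintro _ ⟨a, b, rfl⟩
    exact ⟨(e' a, e' b), comm_congr hc (Function.surjInv_eq hs _) (Function.surjInv_eq hs _)⟩
  have hm : (commutator (FreeGroup A ⧸ N)).map e' = ⊤ := by
    rw [commutator_def, Subgroup.map_commutator, Subgroup.map_top_of_surjective _ hs, ← commutator_def, hA]
  have hs' : ∀ a, ∃ u ∈ commutator (FreeGroup A ⧸ N), e' u = a := fun a => (hm.ge (Subgroup.mem_top a) :)
  refine ⟨commutator (FreeGroup A ⧸ N), inferInstance, inferInstance, e'.comp (Subgroup.subtype _), ?_,
    fun a => (hs' a).elim fun u h => ⟨⟨u, h.1⟩, h.2⟩, fun E S _ _ π hπ hk ψ => ?_⟩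
  · apply Subgroup.map_injective (Subgroup.subtype_injective _)
    rw [Subgroup.map_subtype_commutator, ← MonoidHom.range_eq_map, Subgroup.range_subtype]
    refine le_antisymm (Subgroup.commutator_mono le_top le_top) (Subgroup.commutator_le.2 fun a _ b _ => ?_)
    obtain ⟨u, hu, hu'⟩ := hs' (e' a)
    obtain ⟨v, hv, hv'⟩ := hs' (e' b)
    rw [← comm_congr hc hu' hv']
    exact Subgroup.commutator_mem_commutator hu hv
  · let l : FreeGroup A →* E := FreeGroup.lift fun a => Function.surjInv hπ (ψ a)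
    have hl : π.comp l = ψ.comp e := FreeGroup.ext_hom _ _ fun a => by simp [l, e, Function.surjInv_eq]
    have hl' : ∀ x, π (l x) = ψ (e x) := DFunLike.congr_fun hl
    refine ⟨(QuotientGroup.lift N l (Subgroup.commutator_le.2 fun a _ b hb => ?_)).comp (Subgroup.subtype _), fun u => ?_⟩
    · rw [MonoidHom.mem_ker, map_commutatorElement, commutatorElement_eq_one_iff_mul_comm]
      exact Subgroup.mem_center_iff.1 (hk (by rw [MonoidHom.mem_ker, hl', MonoidHom.mem_ker.1 hb, map_one])) _
    · obtain ⟨u, hu⟩ := u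
      obtain ⟨x, rfl⟩ := QuotientGroup.mk_surjective u
      exact hl' x

/-- Carmichael: `y i ^ 3 = (y i * y j) ^ 2 = 1` present the alternating group -/
theorem carmichael {ι Ω : Type} [DecidableEq ι] (ρ : E →* Perm Ω) (y : ι → E) (p : ι → Ω) (s : Finset ι)
    (h3 : ∀ i ∈ s, y i * y i = (y i)⁻¹) (h2 : ∀ i ∈ s, ∀ j ∈ s, i ≠ j → y i * y j = (y j)⁻¹ * (y i)⁻¹)
    (ha : ∀ i ∈ s, ρ (y i) (p i) ≠ p i) (hf : ∀ i ∈ s, ∀ j ∈ s, i ≠ j → ρ (y i) (p j) = p j)
    {g : E} (hg : g ∈ Subgroup.closure (y '' s)) (h1 : ρ g = 1) : g = 1 := by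
  induction s using Finset.induction_on generalizing g with
  | empty => simpa using hg
  | insert n s hn ih =>
    have mn := Finset.mem_insert_self n s
    have ms : ∀ {i}, i ∈ s → i ∈ insert n s := Finset.mem_insert_of_mem
    have ne : ∀ {i}, i ∈ s → n ≠ i := fun h e => hn (e ▸ h)
    set H := Subgroup.closure (y '' s)
    have hy : ∀ {i}, i ∈ s → y i ∈ H := fun h => Subgroup.subset_closure ⟨_, h, rfl⟩
    let P : E → Prop := fun g => g ∈ H ∨ g * (y n)⁻¹ ∈ H ∨ g * y n ∈ H ∨ ∃ i ∈ s, g * (y i)⁻¹ * y n ∈ H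
    have step : ∀ g, P g → ∀ j ∈ insert n s, P (g * y j) := fun g hg j hj => by
      have e3 := h3 n mn
      rcases Finset.mem_insert.1 hj with rfl | hj <;> rcases hg with h | h | h | ⟨i, hi, h⟩
      · exact .inr (.inl (by simpa using h))
      · exact .inr (.inr (.inl (by rwa [mul_assoc, e3])))
      · exact .inl h
      · refine .inr (.inr (.inr ⟨i, hi, ?_⟩))
        have e : y j * (y i)⁻¹ * y j = (y i)⁻¹ * y j * (y i)⁻¹ := by
          have e1 := h2 i (ms hi) j mn (ne hi).symm
          have e2 := h2 j mn i (ms hi) (ne hi)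
          calc y j * (y i)⁻¹ * y j = (y j * y i) * (y i * y j) := by rw [← h3 i (ms hi)]; group
            _ = (y i)⁻¹ * ((y j)⁻¹ * (y j)⁻¹) * (y i)⁻¹ := by rw [e1, e2]; group
            _ = _ := by rw [← mul_inv_rev, e3, inv_inv]
        simpa only [mul_assoc, ← e] using (by simpa only [mul_assoc] using H.mul_mem h (H.inv_mem (hy hi)) :
          g * ((y i)⁻¹ * y j * (y i)⁻¹) ∈ H)
      · exact .inl (H.mul_mem h (hy hj))
      · refine .inr (.inr (.inl ?_))
        rw [mul_assoc, h2 j (ms hj) n mn (ne hj).symm, ← mul_assoc]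
        exact H.mul_mem h (H.inv_mem (hy hj))
      · exact .inr (.inr (.inr ⟨j, hj, by simpa using h⟩))
      · have e1 := h2 i (ms hi) n mn (ne hi).symm
        have e4 := h3 i (ms hi)
        by_cases hij : i = j
        · subst hij
          refine .inr (.inl ?_)
          convert H.mul_mem h (hy hi) using 1
          calc g * y i * (y n)⁻¹ = g * (y i)⁻¹ * y n * ((y n)⁻¹ * (y i * y i)) * (y n)⁻¹ := by group
            _ = _ := by rw [e4, ← e1]; group
        · refine .inr (.inr (.inr ⟨i, hi, ?_⟩))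
          convert H.mul_mem (H.mul_mem h (hy hj)) (H.inv_mem (hy hi)) using 1
          calc g * y j * (y i)⁻¹ * y n = g * (y i)⁻¹ * (y i * y j) * (y i)⁻¹ * y n := by group
            _ = g * (y i)⁻¹ * y n * ((y n)⁻¹ * (y j)⁻¹) * ((y i * y i)⁻¹ * y n) := by
              rw [h2 i (ms hi) j (ms hj) hij]; group
            _ = _ := by rw [e4, inv_inv, e1, ← h2 j (ms hj) n mn (ne hj).symm]; group
    have hP : P g := by
      clear h1
      induction hg using Subgroup.closure_induction_right with
      | one => exact .inl H.one_mem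
      | mul_right x _ z hz h =>
        obtain ⟨j, hj, rfl⟩ := hz
        exact step x h j hj
      | mul_inv_cancel x _ z hz h =>
        obtain ⟨j, hj, rfl⟩ := hz
        rw [← h3 j hj, ← mul_assoc]
        exact step _ (step x h j hj) j hj
    have fix : ∀ h ∈ H, ρ h (p n) = p n := fun h hh => by
      have : H ≤ (MulAction.stabilizer (Perm Ω) (p n)).comap ρ := (Subgroup.closure_le _).2 <| by
        rintro _ ⟨i, hi, rfl⟩
        exact hf i (ms hi) n mn (ne hi).symm
      exact this hh
    rcases hP with h | h | h | ⟨i, hi, h⟩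
    · exact ih (fun i hi => h3 i (ms hi)) (fun i hi j hj => h2 i (ms hi) j (ms hj)) (fun i hi => ha i (ms hi))
        (fun i hi j hj => hf i (ms hi) j (ms hj)) h h1
    · exact absurd (by simpa [h1] using fix _ (H.inv_mem h)) (ha n mn)
    · exact absurd (by simpa [h1] using fix _ h) (ha n mn)
    · have := fix _ h
      rw [map_mul, map_mul, h1, one_mul, map_inv, Perm.mul_apply, Perm.inv_eq_iff_eq, fix _ (hy hi)] at this
      exact absurd this (ha n mn)

end Crest.Agent.R189
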