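import Crest.Agent.R189.Ker.Tow
import Crest.Agent.R189.Ker.Coh
import Crest.Agent.R189.Ker.Univ

/-! Row 189, block B4: the spin part of the kernel is finite. -/

set_option autoImplicit false
set_option linter.unusedSectionVars false

noncomputable section

namespace Crest.Agent.R189.Ker

open Equiv
open scoped Pointwise

variable {n : ℕ} {X : Type} [TopologicalSpace X] [AddAction V X] [ContinuousConstVAdd V X] [CompactSpace X]
  [T2Space X] [TotallyDisconnectedSpace X] [IsCancelVAdd V X] {E : Type} [Group E] {π : E →* Perm (X × Fin n)}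

/-- an even permutation of a finite set of sites moving one injective family to another -/
theorem spin_exists_even {α ι : Type} [Infinite α] [DecidableEq α] [Fintype ι] {s s' : ι → α}
    (hs : Function.Injective s) (hs' : Function.Injective s') :
    ∃ (T : Finset α) (j j' : ι → T) (σ : Perm T), σ ∈ alternatingGroup T ∧ (∀ k, (j k : α) = s k) ∧
      (∀ k, (j' k : α) = s' k) ∧ ∀ k, σ (j k) = j' k := by
  obtain ⟨a, ha⟩ := Infinite.exists_notMem_finset (Finset.univ.image s)
  obtain ⟨b, hb⟩ := Infinite.exists_notMem_finset (insert a (Finset.univ.image s))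
  simp only [Finset.mem_insert, Finset.mem_image, Finset.mem_univ, true_and, not_or, not_exists] at ha hb
  let T : Finset α := insert a (insert b (Finset.univ.image s ∪ Finset.univ.image s'))
  let j : ι → T := fun k => ⟨s k, by simp [T]⟩
  let j' : ι → T := fun k => ⟨s' k, by simp [T]⟩
  let a' : T := ⟨a, by simp [T]⟩
  let b' : T := ⟨b, by simp [T]⟩
  have hab : a' ≠ b' := fun e => hb.1 (congrArg Subtype.val e).symm
  obtain ⟨τ, hτ⟩ := Perm.exists_extending_pair j j' (fun k l e => hs (congrArg Subtype.val e))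
    fun k l e => hs' (congrArg Subtype.val e)
  rcases Int.units_eq_one_or (Perm.sign τ) with h | h
  · exact ⟨T, j, j', τ, Perm.mem_alternatingGroup.2 h, fun _ => rfl, fun _ => rfl, hτ⟩
  · refine ⟨T, j, j', τ * swap a' b', Perm.mem_alternatingGroup.2 ?_, fun _ => rfl, fun _ => rfl, fun k => ?_⟩
    · rw [map_mul, h, Perm.sign_swap hab]; rfl
    · rw [Perm.mul_apply, swap_apply_of_ne_of_ne (fun e => ha k (congrArg Subtype.val e))
        fun e => hb.2 k (congrArg Subtype.val e), hτ]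

theorem spin_sec_mem (hn : 5 ≤ n) (hE : Ext π) {ι : Type} [Fintype ι] [DecidableEq ι] {U : Set X} (hU : IsClopen U)
    (s : ι → St n) {σ : Perm ι} (hσ : σ ∈ alternatingGroup ι) : sec U s σ ∈ π.range := by
  rw [hE.range]
  by_cases hd : Disj U s
  · exact SG_eq_AG (G := V) (X := X) hn ▸ sec_mem_AG hU hd hσ
  · unfold sec
    rw [dif_neg hd]
    exact one_mem _

/-- sections over disjoint sets commute -/
theorem spin_sec_comm {ι : Type} {U W : Set X} {s : ι → St n} (h : Disj (U ∪ W) s) (hd : Disjoint U W)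
    (σ τ : Perm ι) : sec W s τ * sec U s σ * (sec W s τ)⁻¹ = sec U s σ := by
  refine (conj_sec (h.mono Set.subset_union_left) (fun k y hy => sec_apply_not τ fun l z hz e => ?_) σ).2
  obtain rfl := disj_iff.1 h l k z (Or.inr hz) y (Or.inl hy) e
  obtain rfl : z = y := pt_inj _ e
  exact Set.disjoint_left.1 hd hy hz

section Psi

variable {C : Type} [Group C] {ev : C →* alternatingGroup (Fin n)} {Ψ : Set X → (Fin n → St n) → C →* E}

theorem spin_add (hE : Ext π) (hC : commutator C = ⊤)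
    (hΨ : ∀ U, IsClopen U → ∀ s c, π (Ψ U s c) = sec U s (ev c)) {U W : Set X} (hU : IsClopen U) (hW : IsClopen W)
    (hd : Disjoint U W) {s : Fin n → St n} (h : Disj (U ∪ W) s) (c : C) : Ψ (U ∪ W) s c = Ψ U s c * Ψ W s c := by
  have hcm : ∀ a b, Ψ W s b * Ψ U s a = Ψ U s a * Ψ W s b := fun a b => by
    have := lift_unique hC hE.cen (L := (MulAut.conj (Ψ W s b)).toMonoidHom.comp (Ψ U s)) (L' := Ψ U s) fun u => by
      simp only [MulEquiv.toMonoidHom_eq_coe, MonoidHom.comp_apply, MonoidHom.coe_coe, MulAut.conj_apply, map_mul,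
        map_inv]
      rw [hΨ W hW, hΨ U hU, spin_sec_comm h hd]
    have e : Ψ W s b * Ψ U s a * (Ψ W s b)⁻¹ = Ψ U s a := DFunLike.congr_fun this a
    exact mul_inv_eq_iff_eq_mul.1 e
  let M : C →* E := MonoidHom.mk' (fun a => Ψ U s a * Ψ W s a) fun a b => by
    rw [map_mul, map_mul]
    calc Ψ U s a * Ψ U s b * (Ψ W s a * Ψ W s b) = Ψ U s a * (Ψ U s b * Ψ W s a) * Ψ W s b := by group
      _ = _ := by rw [← hcm]; group
  have := lift_unique hC hE.cen (L := Ψ (U ∪ W) s) (L' := M) fun u => by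
    show _ = π (Ψ U s u * Ψ W s u)
    rw [map_mul, hΨ _ (hU.union hW), hΨ U hU, hΨ W hW, sec_union h hd]
  exact DFunLike.congr_fun this c

theorem spin_ker (hΨ : ∀ U, IsClopen U → ∀ s c, π (Ψ U s c) = sec U s (ev c)) {U : Set X} (hU : IsClopen U)
    (s : Fin n → St n) {μ : C} (hμ : ev μ = 1) : Ψ U s μ ∈ π.ker := by
  rw [MonoidHom.mem_ker, hΨ U hU, hμ, OneMemClass.coe_one, map_one]

theorem spin_indep (hn : 5 ≤ n) (hE : Ext π) (hC : commutator C = ⊤)
    (hΨ : ∀ U, IsClopen U → ∀ s c, π (Ψ U s c) = sec U s (ev c)) {U : Set X} (hU : IsClopen U)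
    {s s' : Fin n → St n} (h : Disj U s) (h' : Disj U s') {μ : C} (hμ : ev μ = 1) : Ψ U s μ = Ψ U s' μ := by
  refine clopen_induction (P := fun U => Ψ U s μ = Ψ U s' μ) hU ?_ (fun U W hU hW hd hsub e e' => ?_) fun x hx => ?_
  · exact DFunLike.congr_fun (lift_unique hC hE.cen (L := Ψ ∅ s) (L' := Ψ ∅ s') fun u => by
      rw [hΨ _ isClopen_empty, hΨ _ isClopen_empty, sec_empty, sec_empty]) μ
  · rw [spin_add hE hC hΨ hU hW hd (h.mono hsub), spin_add hE hC hΨ hU hW hd (h'.mono hsub), e, e']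
  · have : Nonempty (Fin n) := ⟨⟨0, by omega⟩⟩
    obtain ⟨T, j, j', σ, hσ, hj, hj', hσj⟩ := spin_exists_even (h.injective ⟨x, hx⟩) (h'.injective ⟨x, hx⟩)
    obtain ⟨W₁, hW₁, hd⟩ := exists_disj (s := (Subtype.val : T → St n)) Subtype.val_injective x
    obtain ⟨W₂, hW₂, hW₂o, hx₂⟩ := mem_nhds_iff.1 hW₁
    obtain ⟨W, hW, hxW, hWW⟩ := compact_exists_isClopen_in_isOpen hW₂o hx₂
    refine ⟨W, hW, hxW, fun U' hU' hUW hUU => ?_⟩
    have hdU : Disj U' (Subtype.val : T → St n) := hd.mono fun z hz => hW₂ (hWW (hUW hz))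
    obtain ⟨e, he⟩ := spin_sec_mem hn hE hU' (Subtype.val : T → St n) hσ
    have := lift_unique hC hE.cen (L := (MulAut.conj e).toMonoidHom.comp (Ψ U' s)) (L' := Ψ U' s') fun u => by
      simp only [MulEquiv.toMonoidHom_eq_coe, MonoidHom.comp_apply, MonoidHom.coe_coe, MulAut.conj_apply, map_mul,
        map_inv]
      rw [hΨ U' hU', hΨ U' hU', he]
      refine (conj_sec (h.mono hUU) (fun k y hy => ?_) _).2
      rw [← hj, ← hj', sec_apply hdU σ (j k) hy, hσj]
    have e1 : e * Ψ U' s μ * e⁻¹ = Ψ U' s' μ := DFunLike.congr_fun this μ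
    rw [← e1, Subgroup.mem_center_iff.1 (hE.cen (spin_ker hΨ hU' s hμ)) e, mul_inv_cancel_right]

end Psi

/-- `F = FreeGroup Alt`, `Alt = alternatingGroup (Fin n)`, `κ : F →* Alt` the canonical map.  For `U` clopen and `s : Fin n → St n` with
`Disj U s` choose `Ψ U s : F →* E` with `π ∘ Ψ = sec U s ∘ κ`.  Two such `Ψ` agree on `commutator F`.  For `μ ∈ κ.ker ⊓ commutator F`:
`z μ U = Ψ U s₀ μ` (`s₀ i = (0,i)`) is central, additive in `U` (take lifts in `tl (A U ..)`, `comm_tl`, `sec_union`),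
`Ψ U s μ = z μ U` for all `s` (`clopen_induction`; on small `U` conjugate by an even permutation of a bigger tower, `exists_disj`,
`conj_sec`), hence shift invariant (`sec_shift`).  `Q = F ⧸ ⁅κ.ker, ⊤⁆` has a finite commutator subgroup (Schur:
`Finite (commutatorSet Q)` gives `Finite (commutator Q)`), `z μ U` depends only on the class of `μ` in `Q`, so finitely many `μ` matter and
`z μ U ^ m = 1`.  Apply `Hier.Count.h0`; `Z` = closure of the finite set of all values; `tl π (A U R) = Ψ (commutator F)`. -/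
theorem spin (hn : 9 ≤ n) (hE : Ext π) {H : Hier X} (hc : H.Count) : ∃ Z : Subgroup E, Z ≤ π.ker ∧ Z.FG ∧
    ∀ (U : Set X) (R : Finset (St n)), IsClopen U → DisjR U R → R.card = n → tl π (A U R) ⊓ π.ker ≤ Z := by
  classical
  have hn5 : 5 ≤ n := by omega
  obtain ⟨C, _, _, ev, hC, hev, hlift⟩ := exists_cover (alternatingGroup (Fin n))
    (commutator_alternatingGroup_eq_top (by simpa using hn5))
  have hex : ∀ (U : Set X) (s : Fin n → St n), ∃ L : C →* E, IsClopen U → ∀ c, π (L c) = sec U s (ev c) := by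
    intro U s
    by_cases hU : IsClopen U
    · obtain ⟨L, hL⟩ := hlift E π.range π.rangeRestrict π.rangeRestrict_surjective
        (by rw [MonoidHom.ker_rangeRestrict]; exact hE.cen)
        (((sec U s).comp (alternatingGroup (Fin n)).subtype).codRestrict π.range
          fun σ => spin_sec_mem hn5 hE hU s σ.2)
      exact ⟨L, fun _ c => congrArg Subtype.val (hL c)⟩
    · exact ⟨1, fun h => absurd h hU⟩
  choose Ψ hΨ' using hex
  have hΨ : ∀ U, IsClopen U → ∀ s c, π (Ψ U s c) = sec U s (ev c) := fun U hU s c => hΨ' U s hU c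
  let s₀ : Fin n → St n := fun i => (0, i)
  have h0 : ∀ U : Set X, Disj U s₀ := fun U => disj_of_levels U fun _ _ h => h
  have hfin : ∀ μ : C, ev μ = 1 → ((fun U => Ψ U s₀ μ) '' {U | IsClopen U}).Finite := fun μ hμ => by
    refine hc.h0 (m := Nat.card C) Nat.card_pos _ (fun U hU => hE.cen (spin_ker hΨ hU s₀ hμ))
      (fun U W hU hW hd => spin_add hE hC hΨ hU hW hd (h0 _) μ) (fun v U hU => ?_) fun U _ => ?_
    · have hv : IsClopen (v +ᵥ U) := ⟨hU.1.vadd v, hU.2.vadd v⟩
      have e := lift_unique hC hE.cen (L := Ψ (v +ᵥ U) s₀) (L' := Ψ U fun k => ((s₀ k).1 + v, (s₀ k).2)) fun u => by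
        rw [hΨ _ hv, hΨ _ hU]
        exact (sec_shift v _).2
      rw [e]
      exact spin_indep hn5 hE hC hΨ hU ((sec_shift (V := U) (s := s₀) v 1).1.1 (h0 _)) (h0 _) hμ
    · rw [← map_pow, pow_card_eq_one', map_one]
  let S : Set E := ⋃ μ ∈ {μ : C | ev μ = 1}, (fun U => Ψ U s₀ μ) '' {U | IsClopen U}
  refine ⟨Subgroup.closure S, (Subgroup.closure_le _).2 ?_,
    (Subgroup.fg_iff _).2 ⟨S, rfl, (Set.toFinite _).biUnion hfin⟩, fun U R hU hd hR => ?_⟩
  · intro g hg
    obtain ⟨μ, hμ, U, hU, rfl⟩ := Set.mem_iUnion₂.1 hg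
    exact spin_ker hΨ hU s₀ hμ
  · let e : Fin n ≃ R := (Fintype.equivFinOfCardEq (by rw [Fintype.card_coe, hR])).symm
    let s : Fin n → St n := Subtype.val ∘ e
    have hs : Disj U s := Disj.comp hd e.injective
    have hA : A U R ≤ (π.comp (Ψ U s)).range := by
      rintro _ ⟨σ, hσ, rfl⟩
      obtain ⟨c, hc⟩ := hev ⟨e.symm.permCongr σ, by
        rw [Perm.mem_alternatingGroup, Perm.sign_permCongr]; exact hσ⟩
      refine ⟨c, ?_⟩
      rw [MonoidHom.comp_apply, hΨ U hU, hc]
      exact (sec_restrict hd e.injective (fun k => by simp) fun i hi => absurd (e.apply_symm_apply i) (hi _)).symm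
    rintro g ⟨hg, hk⟩
    have hg' : g ∈ (Ψ U s).range := by
      rw [← range_lift hC hE.cen]
      exact Subgroup.commutator_mono (Subgroup.comap_mono hA) (Subgroup.comap_mono hA) hg
    obtain ⟨μ, rfl⟩ := hg'
    rcases U.eq_empty_or_nonempty with rfl | ⟨y, hy⟩
    · have e1 := lift_unique hC hE.cen (L := Ψ ∅ s) (L' := 1) fun u => by
        rw [hΨ _ isClopen_empty, sec_empty, MonoidHom.one_apply, map_one]
      rw [e1]
      exact one_mem _
    · have h1 : sec U s (ev μ) = 1 := (hΨ U hU s μ).symm.trans hk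
      have hμ : ev μ = 1 := Subtype.ext (Equiv.ext fun k => by
        have e2 := sec_apply hs (ev μ : Perm (Fin n)) k hy
        rw [h1, Perm.one_apply] at e2
        exact (disj_iff.1 hs _ _ y hy y hy e2).symm)
      rw [spin_indep hn5 hE hC hΨ hU hs (h0 U) hμ]
      exact Subgroup.subset_closure (Set.mem_iUnion₂.2 ⟨μ, hμ, U, hU, rfl⟩)

end Crest.Agent.R189.Ker
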