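import Crest.Agent.R189.Ker.Defs

/-! Row 189, block B4: parity on invariant finite sets. -/

set_option autoImplicit false
set_option linter.unusedSectionVars false

noncomputable section

namespace Crest.Agent.R189.Ker

open Equiv

variable {α : Type*} [DecidableEq α] {R R' : Finset α} {σ τ : Perm α}

/-- the sign as an element of `ZMod 2` -/
def parSg (u : ℤˣ) : ZMod 2 := if u = 1 then 0 else 1

theorem parSg_mul (u v : ℤˣ) : parSg (u * v) = parSg u + parSg v := by
  rcases Int.units_eq_one_or u with rfl | rfl <;> rcases Int.units_eq_one_or v with rfl | rfl <;> decide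

theorem parSg_eq_zero {u : ℤˣ} : parSg u = 0 ↔ u = 1 := by
  rcases Int.units_eq_one_or u with rfl | rfl <;> decide

theorem par_eq (h : ∀ a, σ a ∈ R ↔ a ∈ R) : par R σ = parSg (Perm.sign (σ.subtypePerm h : Perm R)) := by
  rw [par, dif_pos h, parSg]

theorem par_of_not (h : ¬ Inv R σ) : par R σ = 0 := by
  rw [par, dif_neg fun h' => h fun a ha => (h' a).2 ha]

/-- an injective self-map of a finite set is onto -/
theorem Inv.iff (h : Inv R σ) (a : α) : σ a ∈ R ↔ a ∈ R := by
  have h1 : R.image σ = R := Finset.eq_of_subset_of_card_le (Finset.image_subset_iff.2 h)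
    (Finset.card_image_of_injective R σ.injective).ge
  refine ⟨fun ha => ?_, h a⟩
  rw [← h1, Finset.mem_image] at ha
  obtain ⟨b, hb, e⟩ := ha
  exact σ.injective e ▸ hb

theorem Inv.mul (h : Inv R σ) (h' : Inv R τ) : Inv R (σ * τ) := by
  exact fun a ha => h _ (h' a ha)

theorem Inv.inv (h : Inv R σ) : Inv R σ⁻¹ := by
  intro a ha
  rw [← h.iff]
  simpa using ha

theorem inv_of_fix (h : ∀ a, a ∉ R → σ a = a) : Inv R σ := by
  intro a ha
  by_contra hc
  exact hc ((σ.injective (h _ hc)).symm ▸ ha)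

theorem par_congr (h : ∀ a ∈ R, σ a = τ a) : par R σ = par R τ := by
  by_cases h1 : Inv R σ
  · have h2 : Inv R τ := fun a ha => h a ha ▸ h1 a ha
    rw [par_eq h1.iff, par_eq h2.iff]
    congr 2
    ext a
    exact h a.1 a.2
  · rw [par_of_not h1, par_of_not fun h2 => h1 fun a ha => (h a ha).symm ▸ h2 a ha]

theorem par_mul (h : Inv R σ) (h' : Inv R τ) : par R (σ * τ) = par R σ + par R τ := by
  rw [par_eq h.iff, par_eq h'.iff, par_eq (h.mul h').iff, ← parSg_mul, ← map_mul]
  rfl

theorem par_one : par R (1 : Perm α) = 0 := by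
  rw [par_eq (fun a => Iff.rfl), parSg_eq_zero]
  exact map_one _

theorem par_inv (h : Inv R σ) : par R σ⁻¹ = par R σ := by
  have h1 := par_mul h.inv h
  rw [inv_mul_cancel, par_one] at h1
  have key : ∀ a b : ZMod 2, 0 = a + b → a = b := by decide
  exact key _ _ h1

theorem par_of_fix (h : ∀ a ∈ R, σ a = a) : par R σ = 0 := by
  exact (par_congr (τ := 1) h).trans par_one

/-- enlarging by fixed points (`Perm.sign_subtypePerm`, `Perm.sign_eq_sign_of_equiv`) -/
theorem par_subset (hR : R ⊆ R') (h : ∀ a ∈ R', a ∉ R → σ a = a) (hi : Inv R σ) : par R' σ = par R σ := by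
  have hi' : Inv R' σ := fun a ha => by
    by_cases h1 : a ∈ R
    · exact hR (hi a h1)
    · rwa [h a ha h1]
  rw [par_eq hi.iff, par_eq hi'.iff]
  congr 1
  rw [← Perm.sign_subtypePerm (σ.subtypePerm hi'.iff : Perm R') (p := fun x => x.1 ∈ R) (fun x => hi.iff x.1)
    (fun x hx => by_contra fun hc => hx (Subtype.ext (h x.1 x.2 hc)))]
  exact Perm.sign_eq_sign_of_equiv _ _ (Equiv.subtypeSubtypeEquivSubtype fun hx => hR hx) fun x => rfl

theorem resS_of_mem {Z : Set α} (h : ∀ a, σ a ∈ Z ↔ a ∈ Z) {a : α} (ha : a ∈ Z) : resS Z σ a = σ a := by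
  classical
  rw [resS, dif_pos h]
  exact Perm.ofSubtype_subtypePerm_of_mem (p := (· ∈ Z)) h ha

theorem resS_of_not {Z : Set α} {a : α} (ha : a ∉ Z) : resS Z σ a = a := by
  classical
  rw [resS]
  split_ifs with h
  · exact Perm.ofSubtype_subtypePerm_of_not_mem (p := (· ∈ Z)) h ha
  · rfl

theorem par_union (hd : Disjoint R R') (h : Inv R σ) (h' : Inv R' σ) : par (R ∪ R') σ = par R σ + par R' σ := by
  have a1 : ∀ a ∈ R, resS (R : Set α) σ a = σ a := fun a ha => resS_of_mem h.iff ha
  have a2 : ∀ a, a ∉ R → resS (R : Set α) σ a = a := fun a ha => resS_of_not ha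
  have b1 : ∀ a ∈ R', resS (R' : Set α) σ a = σ a := fun a ha => resS_of_mem h'.iff ha
  have b2 : ∀ a, a ∉ R' → resS (R' : Set α) σ a = a := fun a ha => resS_of_not ha
  have hd' := Finset.disjoint_left.1 hd
  have e : par (R ∪ R') σ = par (R ∪ R') (resS (R : Set α) σ * resS (R' : Set α) σ) := par_congr fun a ha => by
    rw [Perm.mul_apply]
    rcases Finset.mem_union.1 ha with ha | ha
    · rw [b2 a (hd' ha), a1 a ha]
    · rw [b1 a ha, a2 _ fun hc => hd' hc (h' a ha)]
  rw [e, par_mul (inv_of_fix fun a ha => a2 a fun hc => ha (Finset.mem_union_left _ hc))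
    (inv_of_fix fun a ha => b2 a fun hc => ha (Finset.mem_union_right _ hc)),
    par_subset Finset.subset_union_left (fun a _ ha => a2 a ha) (inv_of_fix a2),
    par_subset Finset.subset_union_right (fun a _ ha => b2 a ha) (inv_of_fix b2), par_congr a1, par_congr b1]

/-- transport along a bijection -/
theorem par_conj (e : Perm α) (hR : ∀ a, e a ∈ R' ↔ a ∈ R) (h : ∀ a ∈ R, τ (e a) = e (σ a)) : par R' τ = par R σ := by
  by_cases h1 : Inv R σ
  · have h2 : Inv R' τ := fun b hb => by
      obtain ⟨a, rfl⟩ := e.surjective b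
      have ha := (hR a).1 hb
      rw [h a ha, hR]
      exact h1 a ha
    rw [par_eq h1.iff, par_eq h2.iff]
    congr 1
    refine (Perm.sign_eq_sign_of_equiv _ _ (e.subtypeEquiv fun a => (hR a).symm) fun x => ?_).symm
    exact Subtype.ext (h x.1 x.2).symm
  · rw [par_of_not h1, par_of_not fun h2 => h1 fun a ha => ?_]
    rw [← hR, ← h a ha]
    exact h2 _ ((hR a).2 ha)

theorem par_swap {a b : α} (ha : a ∈ R) (hb : b ∈ R) (hab : a ≠ b) : par R (swap a b) = 1 := by
  have h1 : Inv R (swap a b) := inv_of_fix fun x hx =>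
    swap_apply_of_ne_of_ne (by rintro rfl; exact hx ha) (by rintro rfl; exact hx hb)
  have h2 : ((swap a b).subtypePerm h1.iff : Perm R) = swap ⟨a, ha⟩ ⟨b, hb⟩ := by
    ext x
    change swap a b x.1 = _
    rw [swap_apply_def, swap_apply_def]
    simp only [Subtype.ext_iff]
    split_ifs <;> rfl
  rw [par_eq h1.iff, h2, Perm.sign_swap (by simpa using hab)]
  decide

theorem mem_AltOn : σ ∈ AltOn R ↔ (∀ a, a ∉ R → σ a = a) ∧ par R σ = 0 := by
  constructor
  · rintro ⟨f, hf, rfl⟩
    refine ⟨fun a ha => Perm.ofSubtype_apply_of_not_mem f ha, ?_⟩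
    rw [par_eq (Perm.ofSubtype_apply_mem_iff_mem f), parSg_eq_zero, Perm.subtypePerm_ofSubtype]
    exact hf
  · rintro ⟨h1, h2⟩
    have hi := inv_of_fix h1
    rw [par_eq hi.iff, parSg_eq_zero] at h2
    exact ⟨σ.subtypePerm hi.iff, h2, Perm.ofSubtype_subtypePerm _ fun x hx => by_contra fun hc => hx (h1 x hc)⟩

theorem AltOn_mono (h : R ⊆ R') : AltOn R ≤ AltOn R' := by
  intro σ hσ
  obtain ⟨h1, h2⟩ := mem_AltOn.1 hσ
  exact mem_AltOn.2 ⟨fun a ha => h1 a fun hc => ha (h hc),
    (par_subset h (fun a _ ha => h1 a ha) (inv_of_fix h1)).trans h2⟩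

/-- `commutator_alternatingGroup_eq_self`, `Subgroup.map_commutator` -/
theorem perf_AltOn (h : 5 ≤ R.card) : Perf (AltOn R) := by
  rw [Perf, AltOn, ← Subgroup.map_commutator, commutator_alternatingGroup_eq_self (by simpa using h)]

/-- the restriction of an even permutation -/
theorem resS_mem (h : Inv R σ) (hp : par R σ = 0) : resS (R : Set α) σ ∈ AltOn R := by
  exact mem_AltOn.2 ⟨fun a ha => resS_of_not ha, (par_congr fun a ha => resS_of_mem h.iff ha).trans hp⟩

end Crest.Agent.R189.Ker
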