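import Crest.Agent.R189.Ker.Tilde
import Crest.Agent.R189.Ker.Par

/-! Row 189, block B4: stability of the splitting of alternating groups. -/

set_option autoImplicit false
set_option linter.unusedSectionVars false

noncomputable section

namespace Crest.Agent.R189.Ker

open Equiv

section StabAux
variable {ι : Type*} [Fintype ι] [DecidableEq ι]

theorem stab_mem {R : Finset ι} {σ : Perm ι} : σ ∈ AltOn R ↔ (∀ a, a ∉ R → σ a = a) ∧ Perm.sign σ = 1 := by
  constructor
  · rintro ⟨τ, hτ, rfl⟩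
    refine ⟨fun a ha => Perm.ofSubtype_apply_of_not_mem τ ha, ?_⟩
    have h1 : Perm.sign τ = 1 := Perm.mem_alternatingGroup.1 hτ
    rw [← h1]
    convert Perm.sign_ofSubtype τ
  · rintro ⟨h1, h2⟩
    have h3 : ∀ a, σ a ∈ R ↔ a ∈ R := (inv_of_fix h1).iff
    have h4 : ∀ a, σ a ≠ a → a ∈ R := fun a ha => by by_contra h; exact ha (h1 a h)
    refine ⟨σ.subtypePerm h3, ?_, Perm.ofSubtype_subtypePerm h3 h4⟩
    refine Perm.mem_alternatingGroup.2 ?_
    rw [← h2]
    convert Perm.sign_subtypePerm σ h3 h4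

theorem stab_le_alt (R : Finset ι) : AltOn R ≤ alternatingGroup ι :=
  fun _ h => Perm.mem_alternatingGroup.2 (stab_mem.1 h).2

theorem stab_gen {R : Finset ι} (hR : 5 ≤ R.card) :
    AltOn R ≤ ⨆ F : {F : Finset ι // F ⊆ R ∧ F.card = 5}, AltOn F.1 := by
  unfold AltOn
  rw [← Perm.closure_three_cycles_eq_alternating, MonoidHom.map_closure, Subgroup.closure_le]
  rintro _ ⟨τ, hτ, rfl⟩
  have hτ' : τ.IsThreeCycle := hτ
  have h1 : (τ.support.map (Function.Embedding.subtype _)).card = 3 := by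
    rw [Finset.card_map, hτ'.card_support]
  have h2 : τ.support.map (Function.Embedding.subtype _) ⊆ R := by
    intro x hx
    obtain ⟨y, _, rfl⟩ := Finset.mem_map.1 hx
    exact y.2
  obtain ⟨F, hF1, hF2, hF3⟩ := Finset.exists_subsuperset_card_eq h2 (by omega : _ ≤ 5) hR
  refine Subgroup.mem_iSup_of_mem (⟨F, hF2, hF3⟩ : {F : Finset ι // F ⊆ R ∧ F.card = 5}) ?_
  refine stab_mem.2 ⟨fun a ha => ?_, (stab_mem.1 ⟨τ, hτ'.mem_alternatingGroup, rfl⟩).2⟩
  by_cases haR : a ∈ R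
  · rw [Perm.ofSubtype_apply_of_mem τ haR]
    have : (⟨a, haR⟩ : R) ∉ τ.support := fun h => ha (hF1 (Finset.mem_map.2 ⟨_, h, rfl⟩))
    rw [Perm.notMem_support.1 this]
  · exact Perm.ofSubtype_apply_of_not_mem τ haR

theorem stab_move {F : Finset ι} (hF : F.card = 5) {a b : ι} (ha : a ∈ F) (hb : b ∈ F) :
    ∃ γ ∈ AltOn F, γ a = b := by
  by_cases hab : a = b
  · exact ⟨1, one_mem _, hab⟩
  have h1 : ({a, b} : Finset ι).card < F.card := lt_of_le_of_lt Finset.card_le_two (by omega)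
  obtain ⟨c, hc, hc'⟩ := Finset.exists_mem_notMem_of_card_lt_card h1
  simp only [Finset.mem_insert, Finset.mem_singleton, not_or] at hc'
  refine ⟨swap a b * swap b c, stab_mem.2 ⟨fun x hx => ?_, ?_⟩, ?_⟩
  · have h2 : x ≠ a := fun h => hx (h ▸ ha)
    have h3 : x ≠ b := fun h => hx (h ▸ hb)
    have h4 : x ≠ c := fun h => hx (h ▸ hc)
    rw [Perm.mul_apply, swap_apply_of_ne_of_ne h3 h4, swap_apply_of_ne_of_ne h2 h3]
  · rw [map_mul, Perm.sign_swap hab, Perm.sign_swap (Ne.symm hc'.2)]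
    simp
  · rw [Perm.mul_apply, swap_apply_of_ne_of_ne hab (Ne.symm hc'.1), swap_apply_left]

theorem stab_conj {F : Finset ι} {g : Perm ι} (hg : g ∈ AltOn F) (ε : Perm ι) :
    ε * g * ε⁻¹ ∈ AltOn (F.image ε) := by
  obtain ⟨h1, h2⟩ := stab_mem.1 hg
  refine stab_mem.2 ⟨fun x hx => ?_, ?_⟩
  · have : ε⁻¹ x ∉ F := fun h => hx (Finset.mem_image.2 ⟨_, h, by simp⟩)
    rw [Perm.mul_apply, Perm.mul_apply, h1 _ this]
    simp
  · rw [map_mul, map_mul, h2, mul_one, ← map_mul, mul_inv_cancel, map_one]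

theorem stab_step {E P : Type*} [Group E] [Group P] {π : E →* P} (hc : π.ker ≤ Subgroup.center E)
    (ψ : Perm ι →* P) (hψ : Function.Injective ψ) (hr : (alternatingGroup ι).map ψ ≤ π.range)
    (h9 : ∀ G : Finset ι, G.card ≤ 9 → Split π ((AltOn G).map ψ)) {R : Finset ι} {a : ι} (ha : a ∈ R)
    (hR : 9 ≤ R.card) (h1 : Split π ((AltOn (R.erase a)).map ψ)) : Split π ((AltOn R).map ψ) := by
  have hrF : ∀ F : Finset ι, (AltOn F).map ψ ≤ π.range := fun F =>
    (Subgroup.map_mono (stab_le_alt F)).trans hr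
  have hpF : ∀ F : Finset ι, 5 ≤ F.card → Perf ((AltOn F).map ψ) := fun F hF => (perf_AltOn hF).map ψ
  have hmono : ∀ {F F' : Finset ι}, F ⊆ F' → tl π ((AltOn F).map ψ) ≤ tl π ((AltOn F').map ψ) :=
    fun h => tl_mono (Subgroup.map_mono (AltOn_mono h))
  let W : Set E := {x | ∃ F : Finset ι, F ⊆ R ∧ a ∈ F ∧ F.card = 5 ∧ ∃ d ∈ tl π ((AltOn F).map ψ),
    ∃ h ∈ tl π ((AltOn (R.erase a)).map ψ), x = d * h}
  have hW1 : (1 : E) ∈ W := by
    obtain ⟨F, hF1, hF2, hF3⟩ := Finset.exists_subsuperset_card_eq (Finset.singleton_subset_iff.2 ha)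
      (by simp : _ ≤ 5) (by omega : 5 ≤ R.card)
    exact ⟨F, hF2, Finset.singleton_subset_iff.1 hF1, hF3, 1, one_mem _, 1, one_mem _, (mul_one _).symm⟩
  have hWm : ∀ F' : Finset ι, F' ⊆ R → F'.card = 5 → ∀ e ∈ tl π ((AltOn F').map ψ), ∀ w ∈ W, e * w ∈ W := by
    rintro F' hF'R hF'5 e he _ ⟨F, hFR, haF, hF5, d, hd, h, hh, rfl⟩
    by_cases haF' : a ∈ F'
    · have hcard : (F ∪ F').card ≤ 9 := by
        have h2 := Finset.card_union_add_card_inter F F'
        have h3 : 0 < (F ∩ F').card := Finset.card_pos.2 ⟨a, Finset.mem_inter.2 ⟨haF, haF'⟩⟩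
        omega
      obtain ⟨G, hG1, hG2, hG3⟩ := Finset.exists_subsuperset_card_eq (Finset.union_subset hFR hF'R) hcard hR
      have hFG : F ⊆ G := Finset.subset_union_left.trans hG1
      have hF'G : F' ⊆ G := Finset.subset_union_right.trans hG1
      have hed : e * d ∈ tl π ((AltOn G).map ψ) := mul_mem (hmono hF'G he) (hmono hFG hd)
      obtain ⟨ρ, hρ, hρ'⟩ := pi_mem hed
      obtain ⟨hρ1, hρ2⟩ := stab_mem.1 hρ
      have hb : ρ a ∈ G := ((inv_of_fix hρ1).iff a).2 (hFG haF)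
      obtain ⟨F'', hF1, hF2, hF3⟩ := Finset.exists_subsuperset_card_eq
        (show ({a, ρ a} : Finset ι) ⊆ G from Finset.insert_subset (hFG haF) (Finset.singleton_subset_iff.2 hb))
        (le_trans Finset.card_le_two (by omega : 2 ≤ 5)) (by omega : 5 ≤ G.card)
      have haF'' : a ∈ F'' := hF1 (by simp)
      obtain ⟨γ, hγ, hγa⟩ := stab_move hF3 haF'' (hF1 (by simp : ρ a ∈ _))
      have hγρ : γ⁻¹ * ρ ∈ AltOn (G.erase a) := by
        have h2 := stab_mem.1 (mul_mem (inv_mem (AltOn_mono hF2 hγ)) hρ)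
        refine stab_mem.2 ⟨fun x hx => ?_, h2.2⟩
        by_cases hxa : x = a
        · rw [hxa, Perm.mul_apply, ← hγa]; simp
        · exact h2.1 x fun hxG => hx (Finset.mem_erase.2 ⟨hxa, hxG⟩)
      obtain ⟨d', hd', hπd'⟩ := exists_tl (hrF F'') (hpF F'' hF3.ge) ⟨γ, hγ, rfl⟩
      obtain ⟨h', hh', hπh'⟩ := exists_tl (hrF (G.erase a))
        (hpF _ (by rw [Finset.card_erase_of_mem (hFG haF)]; omega)) ⟨γ⁻¹ * ρ, hγρ, rfl⟩
      have heq : e * d = d' * h' := (h9 G hG3.le).eq hed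
        (mul_mem (hmono hF2 hd') (hmono (Finset.erase_subset _ _) hh'))
        (by rw [← hρ', map_mul, hπd', hπh', ← map_mul, mul_inv_cancel_left])
      refine ⟨F'', hF2.trans hG2, haF'', hF3, d', hd', h' * h,
        mul_mem (hmono (Finset.erase_subset_erase a hG2) hh') hh, ?_⟩
      rw [← mul_assoc, heq, mul_assoc]
    · obtain ⟨ε, hε, hε'⟩ := pi_mem he
      obtain ⟨hε1, _⟩ := stab_mem.1 hε
      have hεR : Inv R ε := inv_of_fix fun x hx => hε1 x fun h => hx (hF'R h)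
      refine ⟨F.image ε, fun x hx => ?_, Finset.mem_image.2 ⟨a, haF, hε1 a haF'⟩, ?_, e * d * e⁻¹, ?_, e * h,
        mul_mem (hmono (fun x hx => Finset.mem_erase.2 ⟨fun h : x = a => haF' (h ▸ hx), hF'R hx⟩) he) hh, by group⟩
      · obtain ⟨y, hy, rfl⟩ := Finset.mem_image.1 hx
        exact hεR y (hFR hy)
      · rw [Finset.card_image_of_injective _ ε.injective, hF5]
      · refine tl_conj hd e ?_
        rintro _ ⟨g, hg, rfl⟩
        exact ⟨ε * g * ε⁻¹, stab_conj hg ε, by rw [map_mul, map_mul, map_inv, hε']⟩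
  have hTW : ∀ x ∈ tl π ((AltOn R).map ψ), x ∈ W := by
    intro x hx
    have h2 : (AltOn R).map ψ ≤ ⨆ F : {F : Finset ι // F ⊆ R ∧ F.card = 5}, (AltOn F.1).map ψ := by
      rw [← Subgroup.map_iSup]
      exact Subgroup.map_mono (stab_gen (by omega))
    have h3 := tl_iSup hc (fun F : {F : Finset ι // F ⊆ R ∧ F.card = 5} => hrF F.1)
      (fun F => hpF F.1 F.2.2.ge) (tl_mono h2 hx)
    have h4 : ∀ w ∈ W, x * w ∈ W := by
      refine Subgroup.iSup_induction (C := fun y => ∀ w ∈ W, y * w ∈ W) _ h3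
        (fun F e he => hWm F.1 F.2.1 F.2.2 e he) (fun w hw => by rwa [one_mul])
        (fun y z hy hz w hw => by rw [mul_assoc]; exact hy _ (hz w hw))
    simpa using h4 1 hW1
  refine (Subgroup.eq_bot_iff_forall _).2 fun x hx => ?_
  obtain ⟨F, hFR, haF, hF5, d, hd, h, hh, rfl⟩ := hTW x hx.1
  obtain ⟨δ, hδ, hδ'⟩ := pi_mem hd
  obtain ⟨η, hη, hη'⟩ := pi_mem hh
  have hk : π (d * h) = 1 := hx.2
  have h2 : δ * η = 1 := hψ (by rw [map_mul, hδ', hη', ← map_mul, hk, map_one])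
  have h3 : δ a = a := by
    have h4 : η a = a := (stab_mem.1 hη).1 a (by simp)
    have h5 : δ (η a) = a := by rw [← Perm.mul_apply, h2]; rfl
    rwa [h4] at h5
  obtain ⟨G, hG1, hG2, hG3⟩ := Finset.exists_subsuperset_card_eq hFR (by omega : _ ≤ 9) hR
  have h6 : δ ∈ AltOn (G.erase a) := by
    refine stab_mem.2 ⟨fun x hx => ?_, (stab_mem.1 hδ).2⟩
    by_cases hxa : x = a
    · rw [hxa, h3]
    · exact (stab_mem.1 hδ).1 x fun hxF => hx (Finset.mem_erase.2 ⟨hxa, hG1 hxF⟩)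
  have h7 : d ∈ tl π ((AltOn (G.erase a)).map ψ) :=
    (h9 G hG3.le).mem (Subgroup.map_mono (AltOn_mono (Finset.erase_subset _ _))) (hrF _)
      (hpF _ (by rw [Finset.card_erase_of_mem (hG1 haF)]; omega)) (hmono hG1 hd) ⟨δ, h6, hδ'⟩
  exact h1.eq (mul_mem (hmono (Finset.erase_subset_erase a hG2) h7) hh) (one_mem _) (by rw [hk, map_one])

end StabAux

/-- Write `T R = tl π ((AltOn R).map ψ)`.  `Split` holds for all `R` with at most `m` elements (`Finset.exists_superset_card_eq`,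
`Split.mono`).  Induct on `R` (`Finset.induction`-like on the cardinality, from `m` up): `R = insert a R₁`, `H = T R₁`,
`W = {d * h | h ∈ H, d ∈ T F, F ⊆ R, a ∈ F, |F| = 5}`.  `T R ≤ ⨆ T F` over the 5-subsets `F ⊆ R` (`tl_iSup`; `AltOn R` is generated by
3-cycles).  `W` is stable under left multiplication by `e ∈ T F'`: if `a ∉ F'` then `e ∈ H` and `e d e⁻¹ ∈ T (e F)` (`tl_conj`);
if `a ∈ F'` take `G ⊆ R`, `F ∪ F' ⊆ G`, `6 ≤ |G| ≤ 9`, write the even permutation under `e d` as (3-cycle or 1 moving `a` correctly) *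
(element of `AltOn (G.erase a)`), lift both (`exists_tl`), compare in `T G` (`Split.eq`).  If `d * h ∈ ker` then the permutation
under `d` fixes `a`, so `d ∈ H` (`Split.mem` inside a 6-set), and `d * h = 1`. -/
theorem stab {E P : Type*} [Group E] [Group P] {π : E →* P} (hc : π.ker ≤ Subgroup.center E) {ι : Type*} [Fintype ι]
    [DecidableEq ι] (ψ : Perm ι →* P) (hψ : Function.Injective ψ) (hr : (alternatingGroup ι).map ψ ≤ π.range) {m : ℕ}
    (h9 : 9 ≤ m) (hm : m ≤ Fintype.card ι) (h : ∀ R : Finset ι, R.card = m → Split π ((AltOn R).map ψ)) :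
    Split π ((alternatingGroup ι).map ψ) := by
  have hle : ∀ G : Finset ι, G.card ≤ 9 → Split π ((AltOn G).map ψ) := by
    intro G hG
    obtain ⟨R, hR1, hR2⟩ := Finset.exists_superset_card_eq (hG.trans h9) hm
    exact (h R hR2).mono (Subgroup.map_mono (AltOn_mono hR1))
  have hall : ∀ k, m ≤ k → ∀ R : Finset ι, R.card = k → Split π ((AltOn R).map ψ) := by
    intro k hk
    induction k, hk using Nat.le_induction with
    | base => exact h
    | succ k hk ih =>
      intro R hR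
      obtain ⟨a, ha⟩ : R.Nonempty := Finset.card_pos.1 (by omega)
      exact stab_step hc ψ hψ hr hle ha (by omega) (ih _ (by rw [Finset.card_erase_of_mem ha]; omega))
  refine (hall _ hm Finset.univ Finset.card_univ).mono (Subgroup.map_mono fun σ hσ => ?_)
  exact stab_mem.2 ⟨fun a ha => absurd (Finset.mem_univ a) ha, Perm.mem_alternatingGroup.1 hσ⟩

end Crest.Agent.R189.Ker
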