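import Crest.Agent.R189.Ker.Tow
import Crest.Agent.R189.Ker.Stab

/-! Row 189, block B4: splitting over all towers. -/

set_option autoImplicit false
set_option linter.unusedSectionVars false

noncomputable section

namespace Crest.Agent.R189.Ker

open Equiv

variable {n : ℕ} {X : Type} [TopologicalSpace X] [AddAction V X] [ContinuousConstVAdd V X] [CompactSpace X]
  [T2Space X] [TotallyDisconnectedSpace X] [IsCancelVAdd V X] {E : Type} [Group E] {π : E →* Perm (X × Fin n)}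

/-- `stab` with `ψ = sec U val` (injective if `U` is non-empty; `A ∅ R = ⊥`), `sec_restrict` identifies the small groups. -/
theorem split_A (hn : 9 ≤ n) (hE : Ext π)
    (h : ∀ (U : Set X) (R : Finset (St n)), IsClopen U → DisjR U R → R.card = n → Split π (A U R))
    {U : Set X} {R : Finset (St n)} (hU : IsClopen U) (hd : DisjR U R) (hR : n ≤ R.card) : Split π (A U R) := by
  rcases U.eq_empty_or_nonempty with rfl | ⟨y, hy⟩
  · obtain ⟨R', -, hc⟩ := Finset.exists_subset_card_eq hR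
    refine (h ∅ R' hU (disj_empty _) hc).mono ?_
    rintro _ ⟨σ, -, rfl⟩
    rw [sec_empty]
    exact one_mem _
  refine stab hE.cen (sec U (Subtype.val : R → St n)) (fun σ τ e => Equiv.ext fun k => Subtype.ext (pt_injective y ?_))
    (hE.range ▸ (A_le_L hU subset_rfl).trans (L_le_SG (by omega) hd)) hn (by rwa [Fintype.card_coe]) fun Q hQ => ?_
  · exact (sec_apply hd σ k hy).symm.trans (e ▸ sec_apply hd τ k hy)
  let e : Q.map (Function.Embedding.subtype _) ≃ Q :=
    { toFun := fun p => ⟨⟨p.1, Finset.property_of_mem_map_subtype Q p.2⟩, by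
        obtain ⟨q, hq, e⟩ := Finset.mem_map.1 p.2
        exact (Subtype.ext e : q = ⟨p.1, _⟩) ▸ hq⟩
      invFun := fun q => ⟨q.1.1, Finset.mem_map_of_mem _ q.2⟩
      left_inv := fun _ => rfl
      right_inv := fun _ => rfl }
  have hj : Function.Injective fun p => (e p).1 := Subtype.val_injective.comp e.injective
  refine (h U (Q.map (Function.Embedding.subtype _)) hU (hd.comp hj) (by rwa [Finset.card_map])).mono ?_
  rintro _ ⟨_, ⟨σ, hσ, rfl⟩, rfl⟩
  refine ⟨e.symm.permCongr σ, ?_, (sec_restrict hd hj (fun k => Perm.ofSubtype_apply_coe σ (e k)) fun i hi =>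
    Perm.ofSubtype_apply_of_not_mem σ fun hi' => hi (e.symm ⟨i, hi'⟩) rfl).symm⟩
  exact Perm.mem_alternatingGroup.2 ((Perm.sign_permCongr _ _).trans (Perm.mem_alternatingGroup.1 hσ))

/-- the elements of `L U R` that act in the same way at `r`-related points -/
def splK (hn : 5 ≤ n) (U : Set X) (R : Finset (St n)) (r : Set (X × X)) : Subgroup (Perm (X × Fin n)) where
  carrier := {g | g ∈ L U R ∧
    (IsClopen U → DisjR U R → ∀ x ∈ U, ∀ y ∈ U, (x, y) ∈ r → ∀ p ∈ R, act g x p = act g y p)}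
  one_mem' := ⟨one_mem _, fun _ _ x _ y _ _ p _ => by rw [act_one, act_one]⟩
  mul_mem' := by
    rintro g h ⟨hg, hg'⟩ ⟨hh, hh'⟩
    refine ⟨mul_mem hg hh, fun hU hd x hx y hy hr p hp => ?_⟩
    rw [act_mul (L_le_SG hn hd hg) (L_le_SG hn hd hh), act_mul (L_le_SG hn hd hg) (L_le_SG hn hd hh), Perm.mul_apply,
      Perm.mul_apply, hh' hU hd x hx y hy hr p hp]
    exact hg' hU hd x hx y hy hr _ ((((mem_L hn hU hd).1 hh).2.1 y hy).1 p hp)
  inv_mem' := by
    rintro g ⟨hg, hg'⟩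
    refine ⟨inv_mem hg, fun hU hd x hx y hy hr p hp => ?_⟩
    rw [act_inv (L_le_SG hn hd hg), act_inv (L_le_SG hn hd hg), Perm.inv_eq_iff_eq,
      hg' hU hd x hx y hy hr _ ((((mem_L hn hU hd).1 hg).2.1 y hy).1.inv p hp)]
    simp

theorem splK_le_A (hn : 5 ≤ n) {U : Set X} {R : Finset (St n)} {r : Set (X × X)} (hU : IsClopen U) (hd : DisjR U R)
    (hr : ∀ x ∈ U, ∀ y ∈ U, (x, y) ∈ r) : splK hn U R r ≤ A U R := by
  rintro g ⟨hg, hg'⟩
  obtain ⟨h1, h2, h3⟩ := (mem_L hn hU hd).1 hg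
  obtain ⟨τ, hτ, e⟩ : ∃ τ ∈ alternatingGroup R, ∀ y ∈ U, ∀ k : R, act g y k = τ k := by
    rcases U.eq_empty_or_nonempty with rfl | ⟨x, hx⟩
    · exact ⟨1, one_mem _, fun _ hy => hy.elim⟩
    obtain ⟨τ, hτ, e⟩ := resS_mem (h2 x hx).1 (h2 x hx).2
    refine ⟨τ, hτ, fun y hy k => ?_⟩
    rw [hg' hU hd y hy x hx (hr y hy x hx) k k.2, ← resS_of_mem (Z := (R : Set (St n))) (h2 x hx).1.iff k.2, ← e]
    exact Perm.ofSubtype_apply_coe τ k
  exact ⟨τ, hτ, (eq_sec hd (fun k y hy => by rw [rep_act h1 y, e y hy]) fun ω hω => h3 ω fun p hp => hω ⟨p, hp⟩).symm⟩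

/-- For `d : X → ℕ` locally constant let `K U d ≤ L U R` be the elements whose action on `R` over `U` factors through `d`.
`Split (K U d)` by `clopen_induction` (`split_mul`, `exists_res`, `L_comm`; if `d` is constant on `U` then `K U d ≤ A U R`), and the
`K B d` are directed (`Nat.pair`) with union `L B R` (`split_of_directed`). -/
theorem splits_of_small (hn : 9 ≤ n) (hE : Ext π)
    (h : ∀ (U : Set X) (R : Finset (St n)), IsClopen U → DisjR U R → R.card = n → Split π (A U R)) : Splits π := by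
  intro B R hB hd hR
  have h5 : 5 ≤ n := by omega
  have : Nonempty {r : Set (X × X) // ∀ x, r ∈ nhds (x, x)} := ⟨⟨Set.univ, fun _ => Filter.univ_mem⟩⟩
  refine split_of_directed (K := fun r : {r : Set (X × X) // ∀ x, r ∈ nhds (x, x)} => splK h5 B R r.1) (fun r r' => ?_)
    (fun g hg => ?_) fun r => ?_
  · exact ⟨⟨r.1 ∩ r'.1, fun x => Filter.inter_mem (r.2 x) (r'.2 x)⟩,
      fun g hg => ⟨hg.1, fun hU hd x hx y hy hr => hg.2 hU hd x hx y hy hr.1⟩,
      fun g hg => ⟨hg.1, fun hU hd x hx y hy hr => hg.2 hU hd x hx y hy hr.2⟩⟩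
  · refine ⟨⟨{q | ∀ p ∈ R, act g q.1 p = act g q.2 p}, fun x => ?_⟩, hg, fun _ _ x _ y _ hr => hr⟩
    refine (Filter.eventually_all_finset R).2 fun p _ => ?_
    have e := (act_lc (L_le_SG h5 hd hg) p).eventually_eq x
    filter_upwards [(continuous_fst.tendsto (x, x)).eventually e, (continuous_snd.tendsto (x, x)).eventually e]
      with q h1 h2 using h1.trans h2.symm
  have hs : ∀ U, IsClopen U → U ⊆ B → (∀ x ∈ U, ∀ y ∈ U, (x, y) ∈ r.1) → Split π (splK h5 U R r.1) := fun U hU hUB hr =>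
    (split_A hn hE h hU (hd.mono hUB) hR).mono (splK_le_A h5 hU (hd.mono hUB) hr)
  refine clopen_induction (P := fun U => Split π (splK h5 U R r.1)) hB
    (hs ∅ isClopen_empty (Set.empty_subset _) fun _ hx => hx.elim) (fun U W hU hW hUW hB' s1 s2 => ?_) fun x _ => ?_
  · have dU := hd.mono (Set.subset_union_left.trans hB')
    have dW := hd.mono (Set.subset_union_right.trans hB')
    have hne : ∀ p ∈ R, ∀ p' ∈ R, ∀ y ∈ U, ∀ z ∈ W, pt p y ≠ pt p' z := fun p hp p' hp' y hy z hz e => by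
      obtain rfl := disjR_iff.1 hd p hp p' hp' y (hB' (Or.inl hy)) z (hB' (Or.inr hz)) e
      exact Set.disjoint_left.1 hUW hy (pt_inj p e ▸ hz)
    refine split_mul hE.cen (J₁ := splK h5 U R r.1) (J₂ := splK h5 W R r.1) (L₁ := L U R) (fun g hg => hg.1)
      (hE.range ▸ L_le_SG h5 dU) (perf_L (h5.trans hR))
      (fun g hg g' hg' => (L_comm h5 hU hW dU dW hne hg).1 g' hg'.1)
      (fun g hg hg' => (L_comm h5 hU hW dU dW hne hg.1).2 hg'.1) (fun g hg => ?_) s1 s2
    obtain ⟨g₁, h1, g₂, h2, e, e1, e2⟩ := exists_res h5 (hU.union hW) hU (hd.mono hB') hg.1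
    rw [Set.union_inter_cancel_left] at h1 e1
    rw [Set.union_sdiff_cancel_left (Set.disjoint_iff.1 hUW)] at h2 e2
    have hg' := hg.2 (hU.union hW) (hd.mono hB')
    refine ⟨g₁, ⟨h1, fun _ _ x hx y hy hr p hp => ?_⟩, g₂, ⟨h2, fun _ _ x hx y hy hr p hp => ?_⟩, e⟩
    · rw [e1 x hx p hp, e1 y hy p hp, hg' x (Or.inl hx) y (Or.inl hy) hr p hp]
    · rw [e2 x hx p hp, e2 y hy p hp, hg' x (Or.inr hx) y (Or.inr hy) hr p hp]
  · obtain ⟨O, hO, hOr⟩ := Filter.mem_prod_self_iff.1 (nhds_prod_eq (x := x) (y := x) ▸ r.2 x)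
    obtain ⟨W, hW, hx, hWO⟩ := compact_exists_isClopen_in_isOpen isOpen_interior (mem_interior_iff_mem_nhds.2 hO)
    exact ⟨W, hW, hx, fun U hU h1 h2 => hs U hU h2 fun y hy z hz =>
      hOr ⟨interior_subset (hWO (h1 hy)), interior_subset (hWO (h1 hz))⟩⟩

end Crest.Agent.R189.Ker
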