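import Crest.Agent.R189.Ker.Tow
import Crest.Agent.R189.Ker.Coh

/-! Row 189, block B4: the value of a triple depends only on the class of its parity cocycle. -/

set_option autoImplicit false
set_option linter.unusedSectionVars false

noncomputable section

namespace Crest.Agent.R189.Ker

open Equiv

variable {n : ℕ} {X : Type} [TopologicalSpace X] [AddAction V X] [ContinuousConstVAdd V X] [CompactSpace X]
  [T2Space X] [TotallyDisconnectedSpace X] [IsCancelVAdd V X] {E : Type} [Group E] {π : E →* Perm (X × Fin n)}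

variable {H : Hier X} {t : ℕ} {s : ℤ}

/-- what we need to know about a multiple `u` of `q` -/
def Mq (q u : ℤ) : Prop := u ≤ -2 * q ∨ u = -q ∨ u = 0 ∨ u = q ∨ 2 * q ≤ u

theorem mq_mul {q : ℤ} (hq : 0 < q) (k : ℤ) : Mq q (q * k) := by
  rcases (by omega : k ≤ -2 ∨ k = -1 ∨ k = 0 ∨ k = 1 ∨ 2 ≤ k) with h | rfl | rfl | rfl | h
  · exact .inl (by nlinarith)
  · simp [Mq]
  · simp [Mq]
  · simp [Mq]
  · exact .inr (.inr (.inr (.inr (by nlinarith))))

theorem act_tile' (hn : 5 ≤ n) {a b c d : ℤ} (h1 : b - a ≤ H.q t) (h2 : d - c ≤ H.q t) {g : Perm (X × Fin n)}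
    (hg : g ∈ L (Bs H t) (reg n a b c d)) {x : X} (hx : x ∈ Bs H t) (p : St n) :
    act g x p = p ∨ ∃ u v : ℤ, Mq (H.q t) u ∧ Mq (H.q t) v ∧
      ((a ≤ p.1.1 - u ∧ p.1.1 - u < b) ∧ (c ≤ p.1.2 - v ∧ p.1.2 - v < d)) ∧
      ((a ≤ (act g x p).1.1 - u ∧ (act g x p).1.1 - u < b) ∧ (c ≤ (act g x p).1.2 - v ∧ (act g x p).1.2 - v < d)) := by
  have hq0 : (0 : ℤ) < H.q t := by exact_mod_cast H.q_pos t
  refine (act_tile hn (disjR_reg h1 h2) hg hx p).imp_right fun ⟨k, hk, hk'⟩ =>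
    ⟨_, _, mq_mul hq0 k.1, mq_mul hq0 k.2, ?_, ?_⟩
  · exact mem_reg.1 hk
  · exact mem_reg.1 hk'

theorem Tr.mem_SG (hn : 5 ≤ n) (hs : 0 < s) (hq : 2 * s ≤ H.q t) (T : Tr π H t s) :
    π T.bV ∈ SG V X n ∧ π T.bH ∈ SG V X n ∧ π T.c ∈ SG V X n :=
  ⟨L_le_SG hn (disjR_reg (by omega) (by omega)) (pi_mem T.hV), L_le_SG hn (disjR_reg (by omega) (by omega)) (pi_mem T.hH),
    L_le_SG hn (disjR_reg (by omega) (by omega)) (pi_mem T.hc)⟩

theorem Tr.act_eq (hn : 5 ≤ n) (hs : 0 < s) (hq : 2 * s ≤ H.q t) (T : Tr π H t s) (x : X) :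
    act (π T.bV) x * act (π T.bH) x = act (π T.c)⁻¹ x := by
  obtain ⟨h1, h2, -⟩ := T.mem_SG hn hs hq
  rw [← act_mul h1 h2, ← map_mul, eq_inv_of_mul_eq_one_left ((map_mul π _ _).symm.trans T.one)]

/-- `π bV * π bH = (π c)⁻¹` preserves the tiles (`act_tile`), so `π bV` preserves both halves of `RV`, `π bH` both halves of `RH` -/
theorem Tr.inv (hn : 5 ≤ n) (hs : 0 < s) (hq : 4 * s ≤ H.q t) (T : Tr π H t s) {x : X} (hx : x ∈ Bs H t) :
    Inv (reg n 0 s s (H.q t - s)) (act (π T.bV) x) ∧ Inv (reg n (-s) 0 s (H.q t - s)) (act (π T.bV) x) ∧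
    Inv (reg n s (H.q t - s) 0 s) (act (π T.bH) x) ∧ Inv (reg n s (H.q t - s) (-s) 0) (act (π T.bH) x) := by
  have hq0 : (0 : ℤ) < H.q t := by exact_mod_cast H.q_pos t
  have dV : DisjR (Bs H t) (RV n (H.q t) s) := disjR_reg (by omega) (by omega)
  have dH : DisjR (Bs H t) (RH n (H.q t) s) := disjR_reg (by omega) (by omega)
  have iV := (((mem_L hn clopen_Bs dV).1 (pi_mem T.hV)).2.1 x hx).1
  have iH := (((mem_L hn clopen_Bs dH).1 (pi_mem T.hH)).2.1 x hx).1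
  have key : ∀ p, act (π T.bV) x (act (π T.bH) x p) = p ∨ ∃ u v : ℤ, Mq (H.q t) u ∧ Mq (H.q t) v ∧
      ((0 ≤ p.1.1 - u ∧ p.1.1 - u < H.q t) ∧ (0 ≤ p.1.2 - v ∧ p.1.2 - v < H.q t)) ∧
      ((0 ≤ (act (π T.bV) x (act (π T.bH) x p)).1.1 - u ∧ (act (π T.bV) x (act (π T.bH) x p)).1.1 - u < H.q t) ∧
        (0 ≤ (act (π T.bV) x (act (π T.bH) x p)).1.2 - v ∧ (act (π T.bV) x (act (π T.bH) x p)).1.2 - v < H.q t)) := fun p => by
    have := act_tile' hn (by omega) (by omega) (inv_mem (pi_mem T.hc)) hx p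
    rwa [← T.act_eq hn hs (by omega), Perm.mul_apply] at this
  have fV : ∀ p ∈ RH n (H.q t) s, act (π T.bV) x p = p := fun p hp => by
    rcases act_tile' hn (by omega) (by omega) (pi_mem T.hV) hx p with h | ⟨u, v, hu, hv, h, -⟩
    · exact h
    · rw [RH, mem_reg] at hp; unfold Mq at hu; omega
  have fH : ∀ p ∈ RV n (H.q t) s, act (π T.bH) x p = p := fun p hp => by
    rcases act_tile' hn (by omega) (by omega) (pi_mem T.hH) hx p with h | ⟨u, v, hu, hv, h, -⟩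
    · exact h
    · rw [RV, mem_reg] at hp; unfold Mq at hu; omega
  have aV : ∀ p ∈ RV n (H.q t) s, (0 ≤ (act (π T.bV) x p).1.1 ↔ 0 ≤ p.1.1) := fun p hp => by
    have h1 := key p
    have h2 := iV p hp
    rw [fH p hp] at h1
    rw [RV, mem_reg] at hp h2
    rcases h1 with h | ⟨u, v, hu, hv, h⟩
    · rw [h]
    · unfold Mq at hu; omega
  have aH : ∀ p ∈ RH n (H.q t) s, (0 ≤ (act (π T.bH) x p).1.2 ↔ 0 ≤ p.1.2) := fun p hp => by
    have h1 := key p
    have h2 := iH p hp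
    rw [fV _ h2] at h1
    rw [RH, mem_reg] at hp h2
    rcases h1 with h | ⟨u, v, hu, hv, h⟩
    · rw [h]
    · unfold Mq at hv; omega
  refine ⟨fun p hp => ?_, fun p hp => ?_, fun p hp => ?_, fun p hp => ?_⟩
  all_goals rw [mem_reg] at hp ⊢
  iterate 2
    have h0 : p ∈ RV n (H.q t) s := by rw [RV, mem_reg]; omega
    have h1 := aV p h0
    have h2 := iV p h0
    rw [RV, mem_reg] at h2
    omega
  iterate 2
    have h0 : p ∈ RH n (H.q t) s := by rw [RH, mem_reg]; omega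
    have h1 := aH p h0
    have h2 := iH p h0
    rw [RH, mem_reg] at h2
    omega

theorem inv_par_vadd {g : Perm (X × Fin n)} (hg : g ∈ SG V X n) (u : V) (x : X) {R R' : Finset (St n)}
    (hR : ∀ a, sh u a ∈ R' ↔ a ∈ R) (h : Inv R (act g (u +ᵥ x))) :
    Inv R' (act g x) ∧ par R' (act g x) = par R (act g (u +ᵥ x)) := by
  have e : ∀ a, act g x (sh u a) = sh u (act g (u +ᵥ x) a) := fun a => by
    rw [act_vadd hg, Perm.mul_apply, Perm.mul_apply, Perm.coe_inv, Equiv.apply_symm_apply]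
  refine ⟨fun a ha => ?_, par_conj (sh u) hR fun a _ => e a⟩
  obtain ⟨b, rfl⟩ := (sh u).surjective a
  rw [e, hR]
  exact h b ((hR b).1 ha)

theorem par_two {α : Type*} [DecidableEq α] {R A B : Finset α} {σ : Perm α} (hA : Inv A σ) (hB : Inv B σ) (hd : Disjoint A B)
    (hs : A ∪ B ⊆ R) (hf : ∀ a ∈ R, a ∉ A ∪ B → σ a = a) : Inv R σ ∧ par R σ = par A σ + par B σ := by
  have hi : Inv (A ∪ B) σ := fun a ha =>
    Finset.mem_union.2 ((Finset.mem_union.1 ha).imp (hA a) (hB a))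
  refine ⟨fun a ha => ?_, (par_subset hs hf hi).trans (par_union hd hA hB)⟩
  by_cases h : a ∈ A ∪ B
  · exact hs (hi a h)
  · rwa [hf a ha h]

/-- `par RF (act (π c)⁻¹ x) = 0` is the sum of the parities on the four half rectangles inside the tile (`par_subset`, `par_union`,
`par_conj`, `act_vadd`); both halves of an edge rectangle have the same parity. -/
theorem Tr.coc (hn : 5 ≤ n) (hs : 0 < s) (hq : 4 * s ≤ H.q t) (T : Tr π H t s) : H.Coc t T.eps := by
  have hq0 : (0 : ℤ) < H.q t := by exact_mod_cast H.q_pos t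
  obtain ⟨gV, gH, gc⟩ := T.mem_SG hn hs (by omega)
  refine ⟨fun b => ?_, fun x hx => ?_⟩
  · cases b
    · exact par_act_lc gV _
    · exact par_act_lc gH _
  have dV : DisjR (Bs H t) (RV n (H.q t) s) := disjR_reg (by omega) (by omega)
  have dH : DisjR (Bs H t) (RH n (H.q t) s) := disjR_reg (by omega) (by omega)
  have dF : DisjR (Bs H t) (RF n (H.q t)) := disjR_reg (by omega) (by omega)
  have hx1 : H.st t true +ᵥ x ∈ Bs H t := (H.ph_st t true x).trans hx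
  have hx2 : H.st t false +ᵥ x ∈ Bs H t := (H.ph_st t false x).trans hx
  obtain ⟨iW, -, iS, -⟩ := T.inv hn hs hq hx
  obtain ⟨iW1, iE1, -, -⟩ := T.inv hn hs hq hx1
  obtain ⟨-, -, iS2, iN2⟩ := T.inv hn hs hq hx2
  obtain ⟨iE, pE⟩ := inv_par_vadd gV (H.st t true) x (R' := reg n (H.q t - s) (H.q t) s (H.q t - s))
    (fun a => by simp only [mem_reg, sh_apply, Hier.st, ev]; simp; omega) iE1
  obtain ⟨iN, pN⟩ := inv_par_vadd gH (H.st t false) x (R' := reg n s (H.q t - s) (H.q t - s) (H.q t))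
    (fun a => by simp only [mem_reg, sh_apply, Hier.st, ev]; simp; omega) iN2
  have e1 := (((mem_L hn clopen_Bs dV).1 (pi_mem T.hV)).2.1 _ hx1).2
  have e2 := (((mem_L hn clopen_Bs dH).1 (pi_mem T.hH)).2.1 _ hx2).2
  have e3 := (((mem_L hn clopen_Bs dF).1 (inv_mem (pi_mem T.hc))).2.1 _ hx).2
  rw [show RV n (H.q t) s = reg n 0 s s (H.q t - s) ∪ reg n (-s) 0 s (H.q t - s) by
    ext p; simp only [RV, Finset.mem_union, mem_reg]; omega,
    par_union (Finset.disjoint_left.2 fun p h h' => by rw [mem_reg] at h h'; omega) iW1 iE1, ← pE] at e1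
  rw [show RH n (H.q t) s = reg n s (H.q t - s) 0 s ∪ reg n s (H.q t - s) (-s) 0 by
    ext p; simp only [RH, Finset.mem_union, mem_reg]; omega,
    par_union (Finset.disjoint_left.2 fun p h h' => by rw [mem_reg] at h h'; omega) iS2 iN2, ← pN] at e2
  obtain ⟨jV, qV⟩ := par_two (R := RF n (H.q t)) iW iE
    (Finset.disjoint_left.2 fun p h h' => by rw [mem_reg] at h h'; omega)
    (fun p h => by simp only [RF, Finset.mem_union, mem_reg] at h ⊢; omega) fun p h h' => by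
      rcases act_tile' hn (by omega) (by omega) (pi_mem T.hV) hx p with h | ⟨u, v, hu, hv, h, -⟩
      · exact h
      · simp only [RF, Finset.mem_union, mem_reg, Mq] at *; omega
  obtain ⟨jH, qH⟩ := par_two (R := RF n (H.q t)) iS iN
    (Finset.disjoint_left.2 fun p h h' => by rw [mem_reg] at h h'; omega)
    (fun p h => by simp only [RF, Finset.mem_union, mem_reg] at h ⊢; omega) fun p h h' => by
      rcases act_tile' hn (by omega) (by omega) (pi_mem T.hH) hx p with h | ⟨u, v, hu, hv, h, -⟩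
      · exact h
      · simp only [RF, Finset.mem_union, mem_reg, Mq] at *; omega
  rw [← T.act_eq hn hs (by omega), par_mul jV jH, qV, qH] at e3
  simp only [Tr.eps, if_true, Bool.false_eq_true, if_false]
  have two : ∀ a b c d e f : ZMod 2, e + b = 0 → f + d = 0 → a + b + (c + d) = 0 → c + e = a + f := by decide
  exact two _ _ _ _ _ _ e1 e2 e3

theorem thb_half (hn : 5 ≤ n) (hE : Ext π) (hS : Splits π) {R Q₀ Q₁ F : Finset (St n)} (hR : R = Q₀ ∪ Q₁)
    (hd : DisjR (Bs H t) R) (hj : Disjoint Q₀ Q₁) (h0 : n ≤ Q₀.card) (h1 : n ≤ Q₁.card)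
    (l0 : L (Bs H t) Q₀ ≤ L (Bs H t) F) (l1 : L (Bs H t) Q₁ ≤ L (Bs H t) F) {a a' : E}
    (ha : a ∈ tl π (L (Bs H t) R)) (ha' : a' ∈ tl π (L (Bs H t) R))
    (hi : ∀ x ∈ Bs H t, Inv Q₀ (act (π a) x) ∧ Inv Q₁ (act (π a) x))
    (hi' : ∀ x ∈ Bs H t, Inv Q₀ (act (π a') x) ∧ Inv Q₁ (act (π a') x))
    (hp : ∀ x ∈ Bs H t, par Q₀ (act (π a) x) = par Q₀ (act (π a') x)) : a'⁻¹ * a ∈ tl π (L (Bs H t) F) := by
  have hu : a'⁻¹ * a ∈ tl π (L (Bs H t) R) := mul_mem (inv_mem ha') ha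
  have s0 : Q₀ ⊆ R := hR ▸ Finset.subset_union_left
  have s1 : Q₁ ⊆ R := hR ▸ Finset.subset_union_right
  obtain ⟨e, he, h⟩ := fact hn hE hS hd (h0.trans (Finset.card_le_card s0)) (Q := ![Q₀, Q₁])
    (fun i => by fin_cases i; exacts [s0, s1]) (fun i => by fin_cases i; exacts [h0, h1]) hu fun x hx => by
      have g1 := L_le_SG hn hd (pi_mem ha)
      have g2 := L_le_SG hn hd (pi_mem ha')
      obtain ⟨i2, p2⟩ := ((mem_L hn clopen_Bs hd).1 (pi_mem hu)).2.1 x hx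
      have e1 : act (π (a'⁻¹ * a)) x = (act (π a') x)⁻¹ * act (π a) x := by
        rw [map_mul, map_inv, act_mul (inv_mem g2) g1, act_inv g2]
      have i0 : Inv Q₀ (act (π (a'⁻¹ * a)) x) := e1 ▸ (hi' x hx).1.inv.mul (hi x hx).1
      have i1 : Inv Q₁ (act (π (a'⁻¹ * a)) x) := e1 ▸ (hi' x hx).2.inv.mul (hi x hx).2
      have p0 : par Q₀ (act (π (a'⁻¹ * a)) x) = 0 := by
        rw [e1, par_mul (hi' x hx).1.inv (hi x hx).1, par_inv (hi' x hx).1, hp x hx, CharTwo.add_self_eq_zero]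
      generalize act (π (a'⁻¹ * a)) x = σ at i0 i1 i2 p0 p2
      rw [hR, par_union hj i0 i1, p0, zero_add] at p2
      refine ⟨![resS Q₀ σ, resS Q₁ σ], fun i => by fin_cases i; exacts [resS_mem i0 p0, resS_mem i1 p2], ?_⟩
      ext1 p
      simp only [List.ofFn_succ, List.ofFn_zero, List.prod_cons, List.prod_nil, mul_one, Matrix.cons_val_zero,
        Matrix.cons_val_succ, Perm.mul_apply]
      by_cases q1 : p ∈ Q₁
      · rw [resS_of_mem (Z := (R : Set (St n))) i2.iff (s1 q1), resS_of_mem (Z := (Q₁ : Set (St n))) i1.iff q1,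
          resS_of_not (Z := (Q₀ : Set (St n))) fun h => Finset.disjoint_left.1 hj h (i1 p q1)]
      · rw [resS_of_not (Z := (Q₁ : Set (St n))) q1]
        by_cases q0 : p ∈ Q₀
        · rw [resS_of_mem (Z := (R : Set (St n))) i2.iff (s0 q0), resS_of_mem (Z := (Q₀ : Set (St n))) i0.iff q0]
        · rw [resS_of_not (Z := (Q₀ : Set (St n))) q0, resS_of_not (Z := (R : Set (St n))) fun h => ?_]
          rw [hR] at h
          exact (Finset.mem_union.1 h).elim q0 q1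
  rw [h]
  simp only [List.ofFn_succ, List.ofFn_zero, List.prod_cons, List.prod_nil, mul_one]
  exact mul_mem (tl_mono l0 (he 0)) (tl_mono l1 (he 1))

theorem thb_le (hn : 5 ≤ n) {a b c d : ℤ} (k l : ℤ) (h1 : 0 ≤ a + H.q t * k) (h2 : b + H.q t * k ≤ H.q t) (h3 : 0 ≤ c + H.q t * l)
    (h4 : d + H.q t * l ≤ H.q t) : L (Bs H t) (reg n a b c d) ≤ L (Bs H t) (RF n (H.q t)) := by
  refine L_le_of hn (disjR_reg (by omega) (by omega)) (disjR_reg (by omega) (by omega)) fun y hy =>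
    ⟨(H.q t * k, H.q t * l), ?_, fun p hp => ?_⟩
  · have h := at_of_mem hy 0
    rw [zero_vadd] at h
    exact (h.iff _).2 ⟨by simp, by simp⟩
  · rw [mem_reg] at hp
    simp only [RF, mem_reg, Prod.fst_add, Prod.snd_add]
    omega

/-- `u = bV'⁻¹ bV` factors over the two halves (`fact`, `m = 2`), which lie in the tile tower (`L_le_of`); same for `H`;
`bV bH c = bV' bH' (u u' c)` and `u u' c = c'` by `Split.eq`. -/
theorem Tr.val_eq (hn : 5 ≤ n) (hE : Ext π) (hS : Splits π) (hs : 0 < s) (hq : 4 * s ≤ H.q t) (T T' : Tr π H t s)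
    (h : ∀ b, ∀ x ∈ Bs H t, T.eps b x = T'.eps b x) : T.val = T'.val := by
  have dV : DisjR (Bs H t) (RV n (H.q t) s) := disjR_reg (by omega) (by omega)
  have dH : DisjR (Bs H t) (RH n (H.q t) s) := disjR_reg (by omega) (by omega)
  have u1 : T'.bV⁻¹ * T.bV ∈ tl π (L (Bs H t) (RF n (H.q t))) :=
    thb_half hn hE hS (Q₀ := reg n 0 s s (H.q t - s)) (Q₁ := reg n (-s) 0 s (H.q t - s))
      (by ext p; simp only [RV, Finset.mem_union, mem_reg]; omega) dV
      (Finset.disjoint_left.2 fun p h1 h2 => by rw [mem_reg] at h1 h2; omega) (le_card_reg hs (by omega))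
      (le_card_reg (by omega) (by omega)) (thb_le hn 0 0 (by omega) (by omega) (by omega) (by omega))
      (thb_le hn 1 0 (by omega) (by omega) (by omega) (by omega)) T.hV T'.hV
      (fun x hx => ⟨(T.inv hn hs hq hx).1, (T.inv hn hs hq hx).2.1⟩)
      (fun x hx => ⟨(T'.inv hn hs hq hx).1, (T'.inv hn hs hq hx).2.1⟩) (h false)
  have u2 : T'.bH⁻¹ * T.bH ∈ tl π (L (Bs H t) (RF n (H.q t))) :=
    thb_half hn hE hS (Q₀ := reg n s (H.q t - s) 0 s) (Q₁ := reg n s (H.q t - s) (-s) 0)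
      (by ext p; simp only [RH, Finset.mem_union, mem_reg]; omega) dH
      (Finset.disjoint_left.2 fun p h1 h2 => by rw [mem_reg] at h1 h2; omega) (le_card_reg (by omega) hs)
      (le_card_reg (by omega) (by omega)) (thb_le hn 0 0 (by omega) (by omega) (by omega) (by omega))
      (thb_le hn 0 1 (by omega) (by omega) (by omega) (by omega)) T.hH T'.hH
      (fun x hx => (T.inv hn hs hq hx).2.2) (fun x hx => (T'.inv hn hs hq hx).2.2) (h true)
  have cm : Commute (T'.bV⁻¹ * T.bV) T'.bH := comm_tl hE.cen (mul_mem (inv_mem T'.hV) T.hV) fun g hg =>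
    (L_comm hn clopen_Bs clopen_Bs dV dH (fun p hp p' hp' y hy z hz e => by
      have h1 := (dvd_neg.2 (dvd_of_pt_eq hy hz e).1)
      simp only [RV, RH, mem_reg] at hp hp'
      have := Int.le_of_dvd (by omega) h1
      omega) hg).1 _ (pi_mem T'.hH)
  have e1 : T.val = T'.bV * T'.bH * (T'.bV⁻¹ * T.bV * (T'.bH⁻¹ * T.bH) * T.c) := by
    rw [mul_assoc T'.bV, ← mul_assoc T'.bH, ← mul_assoc T'.bH, ← cm.eq, Tr.val]
    group
  have e2 : T'.bV⁻¹ * T.bV * (T'.bH⁻¹ * T.bH) * T.c = T'.c := by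
    refine (hS _ _ clopen_Bs (disjR_reg (by omega) (by omega)) (le_card_reg (by omega) (by omega))).eq
      (mul_mem (mul_mem u1 u2) T.hc) T'.hc (mul_left_cancel (a := π (T'.bV * T'.bH)) ?_)
    rw [← map_mul, ← map_mul, ← e1, T'.one]
    exact T.one
  rw [e1, e2, Tr.val]

section thc
variable {i j : Fin n} {a b c d a' b' c' d' : ℤ} {u v u' v' : V}

/-- the swap of two levels at the position `u` -/
def thc_sw (i j : Fin n) (u : V) : Perm (St n) := swap (u, i) (u, j)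

/-- two swaps, to the power `z` -/
def thc_F (i j : Fin n) (z : ZMod 2) (u v : V) : Perm (St n) := if z = 0 then 1 else thc_sw i j u * thc_sw i j v

theorem thc_fix {p : St n} (h : p.1 ≠ u) : thc_sw i j u p = p :=
  swap_apply_of_ne_of_ne (fun e => h (by rw [e])) fun e => h (by rw [e])

theorem thc_fst (p : St n) : (thc_sw i j u p).1 = p.1 := by
  rw [thc_sw, swap_apply_def]
  split_ifs with h h' <;> simp [*]

theorem thc_comm (u v : V) : thc_sw i j u * thc_sw i j v = thc_sw i j v * thc_sw i j u := by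
  rcases eq_or_ne v u with rfl | h
  · rfl
  · conv_lhs => rw [thc_sw.eq_1 i j v, mul_swap_eq_swap_mul, thc_fix (p := (v, i)) h, thc_fix (p := (v, j)) h]
    rfl

theorem thc_inv (u : V) : Inv (reg n a b c d) (thc_sw i j u) := fun p hp => by
  rw [mem_reg] at hp ⊢
  rwa [thc_fst]

theorem thc_invF (z : ZMod 2) (u v : V) : Inv (reg n a b c d) (thc_F i j z u v) := by
  unfold thc_F
  split_ifs
  exacts [fun p hp => hp, (thc_inv u).mul (thc_inv v)]

theorem thc_par1 (hij : i ≠ j) (hu : u ∈ rect a b c d) : par (reg n a b c d) (thc_sw i j u) = 1 :=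
  par_swap (by simpa [reg] using hu) (by simpa [reg] using hu) (by simpa using hij)

theorem thc_alt (hij : i ≠ j) (z : ZMod 2) (hu : u ∈ rect a b c d) (hv : v ∈ rect a b c d) :
    thc_F i j z u v ∈ AltOn (reg n a b c d) := by
  unfold thc_F
  split_ifs
  · exact one_mem _
  refine mem_AltOn.2 ⟨fun p hp => ?_, by rw [par_mul (thc_inv u) (thc_inv v), thc_par1 hij hu, thc_par1 hij hv]; decide⟩
  have : p.1 ∉ rect a b c d := by simpa [reg] using hp
  rw [Perm.mul_apply, thc_fix fun e => this (e ▸ hv), thc_fix fun e => this (e ▸ hu)]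

theorem thc_par (hij : i ≠ j) (z : ZMod 2) (hu : u ∈ rect a b c d) (hv : v ∉ rect a b c d) :
    par (reg n a b c d) (thc_F i j z u v) = z := by
  unfold thc_F
  split_ifs with h
  · rw [par_one, h]
  rw [par_mul (thc_inv u) (thc_inv v), thc_par1 hij hu,
    par_of_fix fun p hp => thc_fix fun e => hv (by simpa [reg, e] using hp)]
  revert z
  decide

theorem thc_prod (z : ZMod 2) (p0 p1 p2 p3 p4 p5 p6 p7 : V) :
    thc_F i j z p0 p1 * thc_F i j z p2 p3 * (thc_F i j z p4 p5 * thc_F i j z p6 p7) *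
      (thc_F i j z p0 p4 * thc_F i j z p1 p6 * thc_F i j z p3 p7 * thc_F i j z p2 p5) = 1 := by
  unfold thc_F
  split_ifs
  · simp
  have h1 : ∀ (u v : V) (x : Perm (St n)), thc_sw i j u * (thc_sw i j v * x) = thc_sw i j v * (thc_sw i j u * x) :=
    fun u v x => by rw [← mul_assoc, thc_comm, mul_assoc]
  have h2 : ∀ u : V, thc_sw i j u * thc_sw i j u = 1 := fun u => swap_mul_self _ _
  simp only [mul_assoc, h1, h2, thc_comm, mul_one]

theorem thc_sub (h : a' ≤ a ∧ b ≤ b' ∧ c' ≤ c ∧ d ≤ d') : reg n a b c d ⊆ reg n a' b' c' d' := fun p hp => by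
  rw [mem_reg] at hp ⊢
  omega

theorem thc_le (hn : 5 ≤ n) (k l : ℤ) (hk : (H.q t : ℤ) ∣ k) (hl : (H.q t : ℤ) ∣ l)
    (h : (a' ≤ a + k ∧ b + k ≤ b' ∧ c' ≤ c + l ∧ d + l ≤ d') ∧ b' - a' ≤ H.q t ∧ d' - c' ≤ H.q t) :
    tl π (L (Bs H t) (reg n a b c d)) ≤ tl π (L (Bs H t) (reg n a' b' c' d')) := by
  refine tl_mono (L_le_of hn (disjR_reg (by omega) (by omega)) (disjR_reg h.2.1 h.2.2) fun y hy => ⟨(k, l), ?_, fun p hp => ?_⟩)
  · exact (H.ph_vadd_eq_zero_iff hy _).2 ⟨hk.neg_right, hl.neg_right⟩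
  · rw [mem_reg] at hp ⊢
    simp only [Prod.fst_add, Prod.snd_add]
    omega

theorem thc_ex (hn : 5 ≤ n) (hE : Ext π) (hij : i ≠ j) {g : X → ZMod 2} (hg : IsLocallyConstant g) (a b c d : ℤ) (u v : V)
    (h : (b - a ≤ H.q t ∧ d - c ≤ H.q t) ∧ u ∈ rect a b c d ∧ v ∈ rect a b c d) :
    ∃ e ∈ tl π (L (Bs H t) (reg n a b c d)), ∀ a' b' c' d' : ℤ,
      (a' ≤ a ∧ b ≤ b' ∧ c' ≤ c ∧ d ≤ d') ∧ b' - a' ≤ H.q t ∧ d' - c' ≤ H.q t →
      ∀ x ∈ Bs H t, ∀ p ∈ reg n a' b' c' d', act (π e) x p = thc_F i j (g x) u v p := by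
  have hd : DisjR (Bs H t) (reg n a b c d) := disjR_reg h.1.1 h.1.2
  have hu := mem_rect.1 h.2.1
  obtain ⟨G, hG, h1⟩ := exists_tow hn clopen_Bs hd (f := fun x => thc_F i j (g x) u v) (hg.comp fun z => thc_F i j z u v)
    fun x _ => thc_alt hij _ h.2.1 h.2.2
  obtain ⟨e, he, rfl⟩ := exists_tl (π := π) (hE.range ▸ L_le_SG hn hd)
    (perf_L (hn.trans (le_card_reg (by omega) (by omega)))) hG
  refine ⟨e, he, fun a' b' c' d' h' x hx p hp => ?_⟩
  by_cases hp' : p ∈ reg n a b c d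
  · exact h1 x hx p hp'
  obtain ⟨h2, -, h3⟩ := (mem_L hn clopen_Bs hd).1 hG
  rw [(mem_AltOn.1 (thc_alt hij _ h.2.1 h.2.2)).1 p hp']
  refine pt_injective x ((rep_act h2 x p).symm.trans (h3 _ fun p' hp'' y hy e => hp' ?_))
  rwa [← disjR_iff.1 (disjR_reg h'.2.1 h'.2.2) p' (thc_sub h'.1 hp'') p hp y hy x hx e]

theorem thc_eps (hE : Ext π) (hij : i ≠ j) {bb e e' : E} {x : X} {w : V} {z z' : ZMod 2}
    (h0 : Inv (reg n a b c d) (act (π bb) x)) (h1 : ∀ p ∈ reg n a b c d, act (π e) x p = thc_F i j z u v p)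
    (h2 : ∀ p ∈ reg n a' b' c' d', act (π e') (w +ᵥ x) p = thc_F i j z' u' v' p)
    (h3 : ∀ p, sh w p ∈ reg n a b c d ↔ p ∈ reg n a' b' c' d') (hu : u ∈ rect a b c d) (hv : v ∉ rect a b c d)
    (hu' : u' ∈ rect a' b' c' d') (hv' : v' ∉ rect a' b' c' d') :
    par (reg n a b c d) (act (π (bb * (e * e'))) x) = par (reg n a b c d) (act (π bb) x) + (z' - z) := by
  have m : ∀ e : E, π e ∈ SG V X n := fun e => hE.range ▸ ⟨e, rfl⟩
  have h4 : ∀ p, act (π e') x (sh w p) = sh w (act (π e') (w +ᵥ x) p) := fun p => by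
    rw [act_vadd (m e'), Perm.mul_apply, Perm.mul_apply, Perm.inv_def, apply_symm_apply]
  have i1 : Inv (reg n a b c d) (act (π e) x) := fun p hp => h1 p hp ▸ thc_invF z u v p hp
  have i2 : Inv (reg n a b c d) (act (π e') x) := fun p hp => by
    obtain ⟨p, rfl⟩ := (sh w).surjective p
    rw [h4, h3, h2 p ((h3 p).1 hp)]
    exact thc_invF _ _ _ p ((h3 p).1 hp)
  rw [map_mul, map_mul, act_mul (m _) (mul_mem (m _) (m _)), act_mul (m _) (m _), par_mul h0 (i1.mul i2), par_mul i1 i2,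
    par_congr h1, thc_par hij z hu hv, par_conj (sh w) h3 fun p _ => h4 p, par_congr h2, thc_par hij z' hu' hv']
  rw [CharTwo.sub_eq_add, add_comm z]

theorem thc_mul (hE : Ext π) {R : Finset (St n)} {e e' : E} {x : X} {σ σ' : Perm (St n)}
    (h : (∀ p ∈ R, act (π e) x p = σ p) ∧ Inv R σ) (h' : (∀ p ∈ R, act (π e') x p = σ' p) ∧ Inv R σ') :
    (∀ p ∈ R, act (π (e * e')) x p = (σ * σ') p) ∧ Inv R (σ * σ') := by
  have m : ∀ e : E, π e ∈ SG V X n := fun e => hE.range ▸ ⟨e, rfl⟩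
  refine ⟨fun p hp => ?_, h.2.mul h'.2⟩
  rw [map_mul, act_mul (m _) (m _), Perm.mul_apply, Perm.mul_apply, h'.1 p hp, h.1 _ (h'.2 p hp)]

end thc
/-- In the corner tower (`c = s + 1`) the product of the eight swaps (levels `0,1` at the positions `(0,s), (-1,s), (0,-s-1), (-1,-s-1),
(s,0), (s,-1), (-s-1,0), (-s-1,-1)`), each taken twice, is trivial: group them once by arms (`eV`, `eH`) and once by quadrants (`φ`), all to
the power `g x`; `eV * eH * φ = 1` by `Split.eq`.  New triple `(bV eV, bH eH, φ c)`. -/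
theorem Tr.shift (hn : 5 ≤ n) (hE : Ext π) (hS : Splits π) (hs : 0 < s) (hq : 4 * s ≤ H.q t) (T : Tr π H t s)
    {g : X → ZMod 2} (hg : IsLocallyConstant g) :
    ∃ T' : Tr π H t s, T'.val = T.val ∧ ∀ b, ∀ x ∈ Bs H t, T'.eps b x = T.eps b x + (g (H.st t b +ᵥ x) - g x) := by
  have hij : (⟨0, by omega⟩ : Fin n) ≠ ⟨1, by omega⟩ := by simp
  have ex := thc_ex (H := H) (t := t) hn hE hij hg
  generalize (⟨0, by omega⟩ : Fin n) = i, (⟨1, by omega⟩ : Fin n) = j at hij ex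
  simp only [mem_rect] at ex
  obtain ⟨eT, mT, aT⟩ := ex (-s) s s (s + 1) (0, s) (-1, s) (by dsimp only; omega)
  obtain ⟨eB, mB, aB⟩ := ex (-s) s (-(s + 1)) (-s) (0, -(s + 1)) (-1, -(s + 1)) (by dsimp only; omega)
  obtain ⟨eR, mR, aR⟩ := ex s (s + 1) (-s) s (s, 0) (s, -1) (by dsimp only; omega)
  obtain ⟨eL, mL, aL⟩ := ex (-(s + 1)) (-s) (-s) s (-(s + 1), 0) (-(s + 1), -1) (by dsimp only; omega)
  obtain ⟨e0, m0, a0⟩ := ex 0 (s + 1) 0 (s + 1) (0, s) (s, 0) (by dsimp only; omega)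
  obtain ⟨e1, m1, a1⟩ := ex (-(s + 1)) 0 0 (s + 1) (-1, s) (-(s + 1), 0) (by dsimp only; omega)
  obtain ⟨e2, m2, a2⟩ := ex (-(s + 1)) 0 (-(s + 1)) 0 (-1, -(s + 1)) (-(s + 1), -1) (by dsimp only; omega)
  obtain ⟨e3, m3, a3⟩ := ex 0 (s + 1) (-(s + 1)) 0 (0, -(s + 1)) (s, -1) (by dsimp only; omega)
  have z := dvd_zero (H.q t : ℤ)
  have r := dvd_refl (H.q t : ℤ)
  have hd : DisjR (Bs H t) (reg n (-(s + 1)) (s + 1) (-(s + 1)) (s + 1)) := disjR_reg (by omega) (by omega)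
  have rel : eT * eB * (eR * eL) * (e0 * e1 * e2 * e3) = 1 := by
    have mC : eT * eB * (eR * eL) * (e0 * e1 * e2 * e3) ∈ tl π (L (Bs H t) (reg n (-(s + 1)) (s + 1) (-(s + 1)) (s + 1))) :=
      mul_mem (mul_mem (mul_mem (thc_le hn 0 0 z z (by omega) mT) (thc_le hn 0 0 z z (by omega) mB))
        (mul_mem (thc_le hn 0 0 z z (by omega) mR) (thc_le hn 0 0 z z (by omega) mL)))
        (mul_mem (mul_mem (mul_mem (thc_le hn 0 0 z z (by omega) m0) (thc_le hn 0 0 z z (by omega) m1))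
          (thc_le hn 0 0 z z (by omega) m2)) (thc_le hn 0 0 z z (by omega) m3))
    refine (hS _ _ clopen_Bs hd (le_card_reg (by omega) (by omega))).eq mC (one_mem _) ?_
    refine L_ext hn clopen_Bs hd (pi_mem mC) (pi_mem (one_mem _)) fun x hx p hp => ?_
    rw [(thc_mul hE (thc_mul hE (thc_mul hE ⟨aT _ _ _ _ (by omega) x hx, thc_invF _ _ _⟩ ⟨aB _ _ _ _ (by omega) x hx, thc_invF _ _ _⟩)
      (thc_mul hE ⟨aR _ _ _ _ (by omega) x hx, thc_invF _ _ _⟩ ⟨aL _ _ _ _ (by omega) x hx, thc_invF _ _ _⟩))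
      (thc_mul hE (thc_mul hE (thc_mul hE ⟨a0 _ _ _ _ (by omega) x hx, thc_invF _ _ _⟩ ⟨a1 _ _ _ _ (by omega) x hx, thc_invF _ _ _⟩)
        ⟨a2 _ _ _ _ (by omega) x hx, thc_invF _ _ _⟩) ⟨a3 _ _ _ _ (by omega) x hx, thc_invF _ _ _⟩)).1 p hp,
      thc_prod, map_one, act_one]
  have mV : eT * eB ∈ tl π (L (Bs H t) (RV n (H.q t) s)) :=
    mul_mem (thc_le hn 0 0 z z (by omega) mT) (thc_le hn 0 _ z r (by omega) mB)
  have mH : eR * eL ∈ tl π (L (Bs H t) (RH n (H.q t) s)) :=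
    mul_mem (thc_le hn 0 0 z z (by omega) mR) (thc_le hn _ 0 r z (by omega) mL)
  have mF : e0 * e1 * e2 * e3 ∈ tl π (L (Bs H t) (RF n (H.q t))) :=
    mul_mem (mul_mem (mul_mem (thc_le hn 0 0 z z (by omega) m0) (thc_le hn _ 0 r z (by omega) m1))
      (thc_le hn _ _ r r (by omega) m2)) (thc_le hn 0 _ z r (by omega) m3)
  have cm : Commute (eT * eB) T.bH := comm_tl hE.cen mV fun G hG =>
    (L_comm hn clopen_Bs clopen_Bs (disjR_reg (by omega) (by omega)) (disjR_reg (by omega) (by omega))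
      (fun p hp p' hp' y hy y' hy' e => by
        rw [mem_reg] at hp hp'
        have := Int.le_of_dvd (by omega) ((dvd_of_pt_eq hy' hy e.symm).1)
        omega) hG).1 _ (pi_mem T.hH)
  have hv : T.bV * (eT * eB) * (T.bH * (eR * eL)) * (e0 * e1 * e2 * e3 * T.c) = T.val := by
    rw [mul_assoc T.bV, ← mul_assoc (eT * eB), cm.eq, Tr.val]
    calc _ = T.bV * T.bH * (eT * eB * (eR * eL) * (e0 * e1 * e2 * e3)) * T.c := by simp only [mul_assoc]
      _ = _ := by rw [rel, mul_one]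
  refine ⟨⟨_, _, _, mul_mem T.hV mV, mul_mem T.hH mH, mul_mem mF T.hc, hv ▸ T.one⟩, hv, fun b x hx => ?_⟩
  have hy : H.st t b +ᵥ x ∈ Bs H t := (H.ph_st t b x).trans hx
  obtain ⟨i1, -, i2, -⟩ := T.inv hn hs hq hx
  cases b
  · refine thc_eps (a' := 0) (b' := s) (c' := s - H.q t) (d' := -s) hE hij i1
      (fun p hp => aT (-s) s s (H.q t - s) (by omega) x hx p (thc_sub (by omega) hp))
      (fun p hp => aB (-s) s (s - H.q t) (-s) (by omega) _ hy p (thc_sub (by omega) hp)) (fun p => ?_) ?_ ?_ ?_ ?_ <;>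
      simp [mem_reg, mem_rect, Hier.st, ev] <;> omega
  · refine thc_eps (a' := s - H.q t) (b' := -s) (c' := 0) (d' := s) hE hij i2
      (fun p hp => aR s (H.q t - s) (-s) s (by omega) x hx p (thc_sub (by omega) hp))
      (fun p hp => aL (s - H.q t) (-s) (-s) s (by omega) _ hy p (thc_sub (by omega) hp)) (fun p => ?_) ?_ ?_ ?_ ?_ <;>
      simp [mem_reg, mem_rect, Hier.st, ev] <;> omega

theorem Tr.pigeon [Nonempty X] (hn : 5 ≤ n) (hE : Ext π) (hS : Splits π) (hc : H.Count) : ∃ N : ℕ, ∀ (t : ℕ) (s : ℤ), 0 < s →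
    4 * s ≤ H.q t → ∀ T : Fin (N + 1) → Tr π H t s, ∃ i j, i ≠ j ∧ (T i).val = (T j).val := by
  obtain ⟨N, hN⟩ := hc.h1
  refine ⟨N, fun t s hs hq T => ?_⟩
  obtain ⟨i, j, hij, g, hg, h⟩ := hN t (fun i => (T i).eps) fun i => (T i).coc hn hs hq
  obtain ⟨T', h1, h2⟩ := (T j).shift hn hE hS hs hq hg
  refine ⟨i, j, hij, (Tr.val_eq hn hE hS hs hq _ _ fun b x hx => ?_).trans h1⟩
  rw [h2 b x hx, ← h b x hx, add_sub_cancel]

end Crest.Agent.R189.Ker
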