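import Crest.Agent.R189.Ker.Triple
import Crest.Agent.R189.Ker.Theta
import Crest.Agent.R189.Ker.Spin
import Crest.Agent.R189.Ker.Split
import Crest.Agent.R189.Iface

/-! Row 189, block B4: assembly. -/

set_option autoImplicit false
set_option linter.unusedSectionVars false

noncomputable section

namespace Crest.Agent.R189.Ker

open Equiv Filter

variable {n : ℕ} {X : Type} [TopologicalSpace X] [AddAction V X] [ContinuousConstVAdd V X] [CompactSpace X]
  [T2Space X] [TotallyDisconnectedSpace X] [IsCancelVAdd V X] {E : Type} [Group E] {π : E →* Perm (X × Fin n)}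

theorem exists_rad (w : List (Let π)) : ∃ r, Rad r w := by
  classical
  obtain ⟨r, hr⟩ := exists_subset_box ((w.flatMap fun l => List.ofFn l.τ).toFinset)
  refine ⟨r, fun l hl i => hr ?_⟩
  simp only [List.mem_toFinset, List.mem_flatMap, List.mem_ofFn]
  exact ⟨l, hl, i, rfl⟩

theorem Rad.mono {r r' : ℕ} {w : List (Let π)} (h : Rad r w) (hr : r ≤ r') : Rad r' w :=
  fun l hl i => box_mono hr (h l hl i)

theorem cm_word (hn : 5 ≤ n) {w : List (Let π)} (h1 : π (evw w) = 1) (x : X) :
    Cm (RP n) ((w.map fun l => l.at x).map fun l => cut l Low).prod := by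
  obtain ⟨r, hr⟩ := exists_rad w
  refine cm_low (r := r) ?_ (by rw [← act_evw hn, h1, act_one])
  intro l hl
  obtain ⟨l, hl', rfl⟩ := List.mem_map.1 hl
  exact l.ok hn (hr l hl') x

theorem cut_inv (hn : 5 ≤ n) (l : Let π) (x : X) (Z : Set V) : cut (l.inv.at x) Z = (cut (l.at x) Z)⁻¹ := by
  obtain ⟨r, hr⟩ := exists_rad [l]
  have h1 := l.ok hn (hr l (by simp)) x
  have h2 := l.inv.ok hn (hr l (by simp)) x
  have e : (l.inv.at x).2 = (l.at x).2⁻¹ := by
    show act (π l.e⁻¹) x = (act (π l.e) x)⁻¹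
    rw [map_inv, act_inv (l.mem_SG hn)]
  rw [eq_inv_iff_mul_eq_one]
  refine Equiv.ext fun p => ?_
  rw [Perm.mul_apply]
  by_cases hp : bs l.τ p ∈ Z
  · rw [cut_of_mem h1 hp, cut_of_mem h2 (by rw [show bs (l.inv.at x).1 ((l.at x).2 p) = bs l.τ p from h1.2 p]; exact hp), e]
    simp
  · rw [cut_of_not (l := l.at x) hp, cut_of_not (l := l.inv.at x) hp]
    rfl

theorem fg_split [Nonempty X] [AddAction.IsMinimal V X] (hn : 5 ≤ n) (hE : Ext π) (hS : Splits π) {H : Hier X}
    (hc : H.Count) : (π.ker ⊓ Subgroup.closure (Set.range (Let.e (π := π)))).FG := by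
  obtain ⟨x₀⟩ := ‹Nonempty X›
  refine fg_of_flux Let.e Let.inv (fun _ => rfl) π.ker (fun w => flux (w.map fun l => l.at x₀)) ?_ ?_ ?_
  · intro w w' h h'
    simp only [flux, List.map_append, List.prod_append]
    exact ind_mul (cm_word hn h x₀) (cm_word hn h' x₀)
  · intro w h
    simp only [flux]
    rw [← ind_inv (cm_word hn h x₀), List.prod_inv_reverse]
    congr 2
    simp only [List.map_reverse, List.map_map]
    congr 1
    refine List.map_congr_left fun l _ => ?_
    exact cut_inv hn l x₀ Low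
  · by_contra hinf
    obtain ⟨N, hN⟩ := Tr.pigeon hn hE hS hc
    let k : ℕ ↪ _ := Set.Infinite.natEmbedding _ hinf
    choose w hw hk h0 using fun i : Fin (N + 1) => (k i).2
    choose r hr using fun i => exists_rad (w i)
    obtain ⟨s, hs, q₀, hq⟩ := triple hn hE hS H (Finset.univ.sup r) (Finset.univ.sup fun i => (w i).length)
    have hle := H.le_q (q₀ + (4 * s).toNat)
    choose T hT using fun i => hq (q₀ + (4 * s).toNat) (by omega) (w i)
      ((hr i).mono (Finset.le_sup (f := r) (Finset.mem_univ i)))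
      (Finset.le_sup (f := fun i => (w i).length) (Finset.mem_univ i))
      (by rw [evw, hw i]; exact hk i)
      (fun x => (flux_const hn (by rw [evw, hw i]; exact hk i) x x₀).trans (h0 i))
    obtain ⟨i, j, hij, e⟩ := hN _ s hs (by omega) T
    rw [hT, hT, evw, evw, hw, hw] at e
    exact hij (Fin.ext (k.injective (Subtype.ext e)))

theorem ker_fg [Nonempty X] [AddAction.IsMinimal V X] [Group.FG E] (hn : 9 ≤ n) (hE : Ext π) {H : Hier X}
    (hc : H.Count) : π.ker.FG := by
  obtain ⟨Z, hZ, hfg, hsp⟩ := spin hn hE hc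
  obtain ⟨E', _, φ, π', hφ, hk, hr, hcen, hmap, hsplit⟩ := exists_quot hE.cen hZ
  have hE' : Ext π' := ⟨hr.trans hE.range, hcen⟩
  have hS : Splits π' := splits_of_small hn hE' fun U R hU hd hR => hsplit _ (hsp U R hU hd hR)
  haveI : Group.FG E' := Group.fg_of_surjective hφ
  refine fg_of_map φ (by rwa [hk, inf_eq_right.2 hZ]) ?_
  rw [hmap]
  refine fg_of_comm ?_
  have h1 := fg_split (by omega) hE' hS hc
  have h2 : commutator E' = tl π' (SG V X n) := by
    rw [tl, ← hE'.range, MonoidHom.comap_range_self, commutator_def]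
  have h3 : π'.ker ⊓ commutator E' = π'.ker ⊓ Subgroup.closure (Set.range (Let.e (π := π'))) := by
    refine congrArg _ (le_antisymm (h2 ▸ tl_le_closure (by omega) hE') ?_)
    rw [h2, Subgroup.closure_le]
    rintro _ ⟨l, rfl⟩
    exact tl_mono (L_le_SG (by omega) (disjR_Rt l.τ)) l.mem
  rwa [h3]

end Crest.Agent.R189.Ker

namespace Crest.Agent.R189

theorem s_B4 : S_B4 := by
  intro X g Γ _ _ π hs hc
  haveI := g.H.isCancelVAdd
  haveI := g.isMinimal
  have hk : (X.S.subtype.comp π).ker = π.ker := by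
    rw [← MonoidHom.comap_ker, Subgroup.ker_subtype]
    rfl
  rw [← hk]
  refine Ker.ker_fg (by norm_num) ⟨?_, hk ▸ hc⟩ g.count
  rw [MonoidHom.range_comp, MonoidHom.range_eq_top.2 hs, ← MonoidHom.range_eq_map, Subgroup.range_subtype]

end Crest.Agent.R189
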