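import Crest.Agent.R189.Ker.Defs

/-! Row 189, block B4: canonical lifts in central extensions (pure group theory). -/

set_option autoImplicit false
set_option linter.unusedSectionVars false

noncomputable section

namespace Crest.Agent.R189.Ker

open Equiv

variable {E P : Type*} [Group E] [Group P] {π : E →* P} {J J' : Subgroup P}

theorem tl_mono (h : J ≤ J') : tl π J ≤ tl π J' :=
  Subgroup.commutator_mono (Subgroup.comap_mono h) (Subgroup.comap_mono h)

theorem tl_le_comap : tl π J ≤ J.comap π := by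
  unfold tl
  rw [Subgroup.commutator_le]
  intro a ha b hb
  rw [commutatorElement_def]
  exact mul_mem (mul_mem (mul_mem ha hb) (inv_mem ha)) (inv_mem hb)

theorem pi_mem {e : E} (h : e ∈ tl π J) : π e ∈ J := tl_le_comap h

theorem map_tl (hr : J ≤ π.range) : (tl π J).map π = ⁅J, J⁆ := by
  unfold tl
  rw [Subgroup.map_commutator, Subgroup.map_comap_eq_self hr]

/-- `(tl π J).map π = ⁅J, J⁆` (`Subgroup.map_commutator`, `map_comap_eq_self`). -/
theorem exists_tl (hr : J ≤ π.range) (hp : Perf J) {g : P} (hg : g ∈ J) : ∃ e ∈ tl π J, π e = g := by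
  have h : g ∈ (tl π J).map π := by
    rw [map_tl hr]
    exact hp hg
  exact h

theorem Split.eq (h : Split π J) {e e' : E} (he : e ∈ tl π J) (he' : e' ∈ tl π J) (hπ : π e = π e') : e = e' := by
  have h1 : e⁻¹ * e' ∈ tl π J ⊓ π.ker :=
    Subgroup.mem_inf.2 ⟨mul_mem (inv_mem he) he', by
      rw [MonoidHom.mem_ker, map_mul, map_inv, hπ, inv_mul_cancel]⟩
  unfold Split at h
  rw [h, Subgroup.mem_bot] at h1
  exact inv_mul_eq_one.1 h1

theorem Split.mono (h : Split π J') (hle : J ≤ J') : Split π J := by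
  unfold Split at h ⊢
  rw [eq_bot_iff, ← h]
  exact inf_le_inf_right _ (tl_mono hle)

/-- a lift in a split overgroup is the canonical lift -/
theorem Split.mem (h : Split π J') (hle : J ≤ J') (hr : J ≤ π.range) (hp : Perf J) {e : E} (he : e ∈ tl π J')
    (hπ : π e ∈ J) : e ∈ tl π J := by
  obtain ⟨e', he', h'⟩ := exists_tl hr hp hπ
  rw [← h.eq (tl_mono hle he') he h']
  exact he'

/-- central factors do not change a commutator -/
theorem comm_central {z w : E} (hz : z ∈ Subgroup.center E) (hw : w ∈ Subgroup.center E) (a b : E) :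
    z * a * (w * b) * (z * a)⁻¹ * (w * b)⁻¹ = a * b * a⁻¹ * b⁻¹ := by
  have hzc := Subgroup.mem_center_iff.1 hz
  have hwc := Subgroup.mem_center_iff.1 hw
  calc z * a * (w * b) * (z * a)⁻¹ * (w * b)⁻¹
      = z * (a * w * b * a⁻¹) * z⁻¹ * b⁻¹ * w⁻¹ := by group
    _ = a * w * b * a⁻¹ * b⁻¹ * w⁻¹ := by rw [← hzc]; group
    _ = w * (a * b * a⁻¹ * b⁻¹) * w⁻¹ := by rw [hwc a]; group
    _ = a * b * a⁻¹ * b⁻¹ := by rw [← hwc]; group

/-- `x ↦ ⁅x, e'⁆` is a homomorphism from `J.comap π` to the centre, so it kills commutators. -/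
theorem comm_tl (hc : π.ker ≤ Subgroup.center E) {e e' : E} (he : e ∈ tl π J) (h : ∀ g ∈ J, Commute g (π e')) :
    Commute e e' := by
  have key : tl π J ≤ Subgroup.centralizer {e'} := by
    unfold tl
    rw [Subgroup.commutator_le]
    intro a ha b hb
    have hz : ∀ x ∈ J.comap π, ∃ z ∈ Subgroup.center E, e' * x * e'⁻¹ = z * x := by
      intro x hx
      refine ⟨e' * x * e'⁻¹ * x⁻¹, hc ?_, by group⟩
      show π (e' * x * e'⁻¹ * x⁻¹) = 1
      simp only [map_mul, map_inv]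
      rw [← (h (π x) hx).eq]
      group
    obtain ⟨z, hz1, hz2⟩ := hz a ha
    obtain ⟨w, hw1, hw2⟩ := hz b hb
    rw [Subgroup.mem_centralizer_singleton_iff]
    have h1 := comm_central hz1 hw1 a b
    rw [← hz2, ← hw2] at h1
    rw [commutatorElement_def]
    calc a * b * a⁻¹ * b⁻¹ * e'
        = e' * a * e'⁻¹ * (e' * b * e'⁻¹) * (e' * a * e'⁻¹)⁻¹ * (e' * b * e'⁻¹)⁻¹ * e' := by rw [h1]
      _ = e' * (a * b * a⁻¹ * b⁻¹) := by group
  exact Subgroup.mem_centralizer_singleton_iff.1 (key he)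

theorem tl_conj {e : E} (he : e ∈ tl π J) (x : E) (h : ∀ g ∈ J, π x * g * (π x)⁻¹ ∈ J') : x * e * x⁻¹ ∈ tl π J' := by
  have key : tl π J ≤ (tl π J').comap (MulAut.conj x).toMonoidHom := by
    unfold tl
    rw [Subgroup.commutator_le]
    intro a ha b hb
    have hm : ∀ y ∈ J.comap π, (MulAut.conj x).toMonoidHom y ∈ J'.comap π := by
      intro y hy
      show π (x * y * x⁻¹) ∈ J'
      rw [map_mul, map_mul, map_inv]
      exact h _ hy
    rw [Subgroup.mem_comap, map_commutatorElement]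
    exact Subgroup.commutator_mem_commutator (hm a ha) (hm b hb)
  exact key he

theorem Perf.iSup {ι : Sort*} {J : ι → Subgroup P} (h : ∀ i, Perf (J i)) : Perf (⨆ i, J i) :=
  iSup_le fun i => (h i).trans (Subgroup.commutator_mono (le_iSup J i) (le_iSup J i))

theorem Perf.map {Q : Type*} [Group Q] (h : Perf J) (f : P →* Q) : Perf (J.map f) := by
  unfold Perf
  rw [← Subgroup.map_commutator]
  exact Subgroup.map_mono h

/-- With `T = ⨆ tl (J i)`: every element of `(⨆ J i).comap π` is `t * k` (`t ∈ T`, `k` central), and `⁅t k, t' k'⁆ = ⁅t, t'⁆`. -/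
theorem tl_iSup (hc : π.ker ≤ Subgroup.center E) {ι : Sort*} {J : ι → Subgroup P} (hr : ∀ i, J i ≤ π.range)
    (hp : ∀ i, Perf (J i)) : tl π (⨆ i, J i) ≤ ⨆ i, tl π (J i) := by
  set T := ⨆ i, tl π (J i) with hT
  have h1 : (⨆ i, J i) ≤ T.map π := by
    refine iSup_le fun i g hg => ?_
    obtain ⟨e, he, rfl⟩ := exists_tl (hr i) (hp i) hg
    exact ⟨e, le_iSup (fun i => tl π (J i)) i he, rfl⟩
  have hz : ∀ x ∈ (⨆ i, J i).comap π, ∃ z ∈ Subgroup.center E, ∃ t ∈ T, x = z * t := by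
    intro x hx
    obtain ⟨t, ht, e⟩ := h1 hx
    refine ⟨x * t⁻¹, hc ?_, t, ht, by group⟩
    show π (x * t⁻¹) = 1
    rw [map_mul, map_inv, e, mul_inv_cancel]
  unfold tl
  rw [Subgroup.commutator_le]
  intro x hx y hy
  obtain ⟨z, hz1, a, ha, rfl⟩ := hz x hx
  obtain ⟨w, hw1, b, hb, rfl⟩ := hz y hy
  rw [commutatorElement_def, comm_central hz1 hw1]
  exact mul_mem (mul_mem (mul_mem ha hb) (inv_mem ha)) (inv_mem hb)

open scoped commutatorElement in
theorem tildeb_comm {x y x' y' : E} (h1 : Commute x y) (h2 : Commute x y') (h3 : Commute x' y) (h4 : Commute x' y') :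
    x * y * (x' * y') * (x * y)⁻¹ * (x' * y')⁻¹ = x * x' * x⁻¹ * x'⁻¹ * (y * y' * y⁻¹ * y'⁻¹) := by
  rw [h1.mul_inv, h4.mul_inv, h3.symm.mul_mul_mul_comm,
    (h1.mul_right h2).inv_left.symm.mul_mul_mul_comm,
    ((h3.mul_right h4).mul_right h3.inv_right).inv_left.symm.mul_mul_mul_comm]

/-- `J₁.comap π` and `J₂.comap π` commute elementwise (`x ∈ L₁.comap π` is `t * k`, `t ∈ tl L₁`; `comm_tl`), every element of
`J.comap π` is `x * y`, and `⁅x y, x' y'⁆ = ⁅x, x'⁆ ⁅y, y'⁆`; so `tl J ≤ {a * b}`; `π a * π b = 1` forces `π a = 1 = π b`. -/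
theorem split_mul (hc : π.ker ≤ Subgroup.center E) {J₁ J₂ L₁ : Subgroup P} (h1 : J₁ ≤ L₁) (hr : L₁ ≤ π.range)
    (hp : Perf L₁) (hcm : ∀ g ∈ L₁, ∀ h ∈ J₂, Commute g h) (hd : ∀ g ∈ J₁, g ∈ J₂ → g = 1)
    (hJ : ∀ g ∈ J, ∃ a ∈ J₁, ∃ b ∈ J₂, g = a * b) (s1 : Split π J₁) (s2 : Split π J₂) : Split π J := by
  have hA : ∀ x y : E, π x ∈ J₁ → π y ∈ J₂ → Commute x y := fun x y hx hy => by
    obtain ⟨t, ht, e⟩ := exists_tl hr hp (h1 hx)
    have hk : t⁻¹ * x ∈ π.ker := by rw [MonoidHom.mem_ker, map_mul, map_inv, e, inv_mul_cancel]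
    have h2 : Commute (t⁻¹ * x) y := (Subgroup.mem_center_iff.1 (hc hk) y).symm
    have h3 := (comm_tl hc ht fun g hg => hcm g hg _ hy).mul_left h2
    rwa [mul_inv_cancel_left] at h3
  have hB : ∀ e : E, π e ∈ J → ∃ x y : E, π x ∈ J₁ ∧ π y ∈ J₂ ∧ e = x * y := fun e he => by
    obtain ⟨a, ha, b, hb, h2⟩ := hJ _ he
    obtain ⟨x, rfl⟩ := hr (h1 ha)
    refine ⟨x, x⁻¹ * e, ha, ?_, (mul_inv_cancel_left _ _).symm⟩
    rwa [map_mul, map_inv, h2, inv_mul_cancel_left]
  let T : Subgroup E :=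
    { carrier := {e | ∃ a ∈ tl π J₁, ∃ b ∈ tl π J₂, e = a * b}
      one_mem' := ⟨1, one_mem _, 1, one_mem _, (one_mul 1).symm⟩
      mul_mem' := by
        rintro _ _ ⟨a, ha, b, hb, rfl⟩ ⟨a', ha', b', hb', rfl⟩
        exact ⟨a * a', mul_mem ha ha', b * b', mul_mem hb hb',
          (hA a' b (pi_mem ha') (pi_mem hb)).symm.mul_mul_mul_comm a b'⟩
      inv_mem' := by
        rintro _ ⟨a, ha, b, hb, rfl⟩
        exact ⟨a⁻¹, inv_mem ha, b⁻¹, inv_mem hb, (hA a b (pi_mem ha) (pi_mem hb)).mul_inv⟩ }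
  have hT : tl π J ≤ T := Subgroup.commutator_le.2 fun e he e' he' => by
    obtain ⟨x, y, hx, hy, rfl⟩ := hB e he
    obtain ⟨x', y', hx', hy', rfl⟩ := hB e' he'
    exact ⟨_, Subgroup.commutator_mem_commutator hx hx', _, Subgroup.commutator_mem_commutator hy hy',
      tildeb_comm (hA x y hx hy) (hA x y' hx hy') (hA x' y hx' hy) (hA x' y' hx' hy')⟩
  refine eq_bot_iff.2 fun e he => ?_
  obtain ⟨a, ha, b, hb, rfl⟩ := hT he.1
  have h2 : π a * π b = 1 := by rw [← map_mul]; exact he.2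
  have h3 : π a = 1 := hd _ (pi_mem ha) (by rw [eq_inv_of_mul_eq_one_left h2]; exact inv_mem (pi_mem hb))
  have h4 : π b = 1 := by rwa [h3, one_mul] at h2
  have h5 : a = 1 := Subgroup.mem_bot.1 (s1.le ⟨ha, h3⟩)
  have h6 : b = 1 := Subgroup.mem_bot.1 (s2.le ⟨hb, h4⟩)
  rw [h5, h6, one_mul]
  exact one_mem _

/-- directed unions -/
theorem split_of_directed {ι : Type*} [Nonempty ι] {K : ι → Subgroup P} (hd : Directed (· ≤ ·) K)
    (hJ : ∀ g ∈ J, ∃ i, g ∈ K i) (hs : ∀ i, Split π (K i)) : Split π J := by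
  have hT : tl π J ≤ ⨆ i, tl π (K i) := Subgroup.commutator_le.2 fun e he e' he' => by
    obtain ⟨i, hi⟩ := hJ _ he
    obtain ⟨j, hj⟩ := hJ _ he'
    obtain ⟨k, h1, h2⟩ := hd i j
    exact Subgroup.mem_iSup_of_mem k (Subgroup.commutator_mem_commutator (h1 hi) (h2 hj))
  refine eq_bot_iff.2 fun e he => ?_
  obtain ⟨i, hi⟩ := (Subgroup.mem_iSup_of_directed (hd.mono_comp _ fun _ _ h => tl_mono h)).1 (hT he.1)
  exact (hs i).le ⟨hi, he.2⟩

/-- passing to the quotient by a central subgroup -/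
theorem exists_quot {E : Type} [Group E] {π : E →* P} (hc : π.ker ≤ Subgroup.center E) {Z : Subgroup E} (hZ : Z ≤ π.ker) :
    ∃ (E' : Type) (_ : Group E') (φ : E →* E') (π' : E' →* P), Function.Surjective φ ∧ φ.ker = Z ∧
      π'.range = π.range ∧ π'.ker ≤ Subgroup.center E' ∧ π.ker.map φ = π'.ker ∧
      ∀ J, tl π J ⊓ π.ker ≤ Z → Split π' J := by
  have hN : Z.Normal := ⟨fun z hz g => by
    rw [Subgroup.mem_center_iff.1 (hc (hZ hz)) g, mul_inv_cancel_right]
    exact hz⟩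
  have hs := QuotientGroup.mk'_surjective Z
  refine ⟨E ⧸ Z, inferInstance, QuotientGroup.mk' Z, QuotientGroup.lift Z π hZ, hs, QuotientGroup.ker_mk' Z, ?_, ?_,
    (QuotientGroup.ker_lift Z π hZ).symm, fun J hJ => eq_bot_iff.2 fun e he => ?_⟩
  · ext g
    constructor
    · rintro ⟨x, rfl⟩
      obtain ⟨x, rfl⟩ := hs x
      exact ⟨x, rfl⟩
    · rintro ⟨x, rfl⟩
      exact ⟨QuotientGroup.mk' Z x, rfl⟩
  · intro x hx
    obtain ⟨x, rfl⟩ := hs x
    refine Subgroup.mem_center_iff.2 fun y => ?_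
    obtain ⟨y, rfl⟩ := hs y
    rw [← map_mul, ← map_mul, Subgroup.mem_center_iff.1 (hc hx) y]
  · have e1 : (J.comap π).map (QuotientGroup.mk' Z) = J.comap (QuotientGroup.lift Z π hZ) :=
      Subgroup.map_comap_eq_self_of_surjective hs (J.comap (QuotientGroup.lift Z π hZ))
    have h1 := he.1
    rw [tl, ← e1, ← Subgroup.map_commutator] at h1
    obtain ⟨x, hx, rfl⟩ := h1
    exact Subgroup.mem_bot.2 ((QuotientGroup.eq_one_iff x).2 (hJ ⟨hx, he.2⟩))

theorem fg_of_map {E' : Type*} [Group E'] (φ : E →* E') {K : Subgroup E} (h1 : (K ⊓ φ.ker).FG) (h2 : (K.map φ).FG) :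
    K.FG := by
  obtain ⟨S₁, e₁, f₁⟩ := (Subgroup.fg_iff _).1 h1
  obtain ⟨S₂, e₂, f₂⟩ := (Subgroup.fg_iff _).1 h2
  have hl : ∀ y : S₂, ∃ x ∈ K, φ x = y := fun y => Subgroup.mem_map.1 (e₂ ▸ Subgroup.subset_closure y.2)
  choose l hlK hlφ using hl
  have := f₂.to_subtype
  refine (Subgroup.fg_iff _).2 ⟨S₁ ∪ Set.range l, le_antisymm ?_ fun k hk => ?_, f₁.union (Set.finite_range l)⟩
  · rw [Subgroup.closure_le]
    rintro x (hx | ⟨y, rfl⟩)
    · exact (e₁ ▸ Subgroup.subset_closure hx : x ∈ K ⊓ φ.ker).1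
    · exact hlK y
  · have h3 : K.map φ ≤ (Subgroup.closure (S₁ ∪ Set.range l)).map φ := by
      rw [← e₂, Subgroup.closure_le]
      exact fun y hy => ⟨l ⟨y, hy⟩, Subgroup.subset_closure (Or.inr ⟨_, rfl⟩), hlφ _⟩
    obtain ⟨x, hx, ex⟩ := h3 ⟨k, hk, rfl⟩
    have hxK : x ∈ K := by
      refine (Subgroup.closure_le K).2 ?_ hx
      rintro x (hx | ⟨y, rfl⟩)
      · exact (e₁ ▸ Subgroup.subset_closure hx : x ∈ K ⊓ φ.ker).1
      · exact hlK y
    have h4 : x⁻¹ * k ∈ Subgroup.closure S₁ := by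
      rw [e₁]
      exact ⟨K.mul_mem (K.inv_mem hxK) hk, by simp [ex]⟩
    simpa using mul_mem hx (Subgroup.closure_mono Set.subset_union_left h4)

private theorem tildec_comm {A : Type*} [CommGroup A] [Group.FG A] (H : Subgroup A) : H.FG := by
  have : Module.Finite ℤ (Additive A) := Module.Finite.iff_addGroup_fg.2 inferInstance
  rw [Subgroup.fg_iff_add_fg, ← AddSubgroup.toIntSubmodule_toAddSubgroup H.toAddSubgroup,
    ← Submodule.fg_iff_addSubgroup_fg]
  exact IsNoetherian.noetherian _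

/-- `fg_of_map` for `Abelianization.of`; subgroups of f.g. abelian groups are f.g. -/
theorem fg_of_comm [Group.FG E] {K : Subgroup E} (h : (K ⊓ commutator E).FG) : K.FG := by
  have : Group.FG (Abelianization E) := Group.fg_of_surjective (f := Abelianization.of) fun x => Quot.induction_on x fun a => ⟨a, rfl⟩
  exact fg_of_map Abelianization.of (by rwa [Abelianization.ker_of]) (tildec_comm _)

private theorem tildec_map {E' : Type*} [Group E'] (φ : E →* E') {K : Subgroup E} (h : K.FG) : (K.map φ).FG := by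
  obtain ⟨S, rfl, f⟩ := (Subgroup.fg_iff _).1 h
  exact (Subgroup.fg_iff _).2 ⟨φ '' S, (MonoidHom.map_closure φ S).symm, f.image _⟩

/-- The values of `F` on relation words form a subgroup `dℤ`; take `w₀` with `F w₀ = d`.  (Work with the subgroup of
`E × Multiplicative ℤ` formed by the pairs `(value w, F w)`, `w` a relation word.) -/
theorem fg_of_flux {Λ : Type*} (ev : Λ → E) (inv : Λ → Λ) (hinv : ∀ l, ev (inv l) = (ev l)⁻¹) (K : Subgroup E)
    (F : List Λ → ℤ) (hadd : ∀ w w' : List Λ, (w.map ev).prod ∈ K → (w'.map ev).prod ∈ K → F (w ++ w') = F w + F w')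
    (hneg : ∀ w : List Λ, (w.map ev).prod ∈ K → F (w.reverse.map inv) = -F w)
    (hfin : {k | ∃ w : List Λ, (w.map ev).prod = k ∧ k ∈ K ∧ F w = 0}.Finite) :
    (K ⊓ Subgroup.closure (Set.range ev)).FG := by
  have hrev : ∀ w : List Λ, ((w.reverse.map inv).map ev).prod = (w.map ev).prod⁻¹ := fun w => by
    induction w with
    | nil => simp
    | cons a w ih =>
      rw [List.reverse_cons, List.map_append, List.map_append, List.prod_append, ih]
      simp [hinv]
  let Γ : Subgroup (E × Multiplicative ℤ) :=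
    { carrier := {p | ∃ w : List Λ, (w.map ev).prod = p.1 ∧ p.1 ∈ K ∧ Multiplicative.ofAdd (F w) = p.2}
      one_mem' := ⟨[], rfl, one_mem K, by
        have := hadd [] [] (one_mem K) (one_mem K)
        rw [List.append_nil, left_eq_add] at this
        rw [this]
        rfl⟩
      mul_mem' := by
        rintro ⟨a, s⟩ ⟨b, t⟩ ⟨w, rfl, hw, rfl⟩ ⟨w', rfl, hw', rfl⟩
        exact ⟨w ++ w', by simp, mul_mem hw hw', by rw [hadd w w' hw hw']; rfl⟩
      inv_mem' := by
        rintro ⟨a, s⟩ ⟨w, rfl, hw, rfl⟩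
        exact ⟨w.reverse.map inv, hrev w, inv_mem hw, by rw [hneg w hw]; rfl⟩ }
  have h1 : Γ.FG := by
    refine fg_of_map (MonoidHom.snd _ _) ((Subgroup.fg_iff _).2 ⟨_, Subgroup.closure_eq _, ?_⟩) (tildec_comm _)
    refine (hfin.image fun k => (k, (1 : Multiplicative ℤ))).subset ?_
    rintro ⟨a, s⟩ ⟨⟨w, rfl, hw, rfl⟩, h⟩
    exact ⟨_, ⟨w, rfl, hw, h⟩, Prod.ext rfl (Eq.symm h)⟩
  have h2 : Γ.map (MonoidHom.fst _ _) = K ⊓ Subgroup.closure (Set.range ev) := by
    refine le_antisymm ?_ ?_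
    · rintro _ ⟨⟨a, s⟩, ⟨w, rfl, hw, rfl⟩, rfl⟩
      refine ⟨hw, list_prod_mem fun x hx => ?_⟩
      obtain ⟨l, -, rfl⟩ := List.mem_map.1 hx
      exact Subgroup.subset_closure ⟨l, rfl⟩
    · rintro k ⟨hk, hc⟩
      have h3 : ∃ w : List Λ, (w.map ev).prod = k := by
        clear hk
        induction hc using Subgroup.closure_induction with
        | mem x hx => obtain ⟨l, rfl⟩ := hx; exact ⟨[l], by simp⟩
        | one => exact ⟨[], rfl⟩
        | mul x y _ _ hx hy =>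
          obtain ⟨w, rfl⟩ := hx
          obtain ⟨w', rfl⟩ := hy
          exact ⟨w ++ w', by simp⟩
        | inv x _ hx =>
          obtain ⟨w, rfl⟩ := hx
          exact ⟨_, hrev w⟩
      obtain ⟨w, rfl⟩ := h3
      exact ⟨(_, Multiplicative.ofAdd (F w)), ⟨w, rfl, hk, rfl⟩, rfl⟩
  exact h2 ▸ tildec_map _ h1

end Crest.Agent.R189.Ker
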