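import Crest.Agent.R189.Ker.Tilde
import Crest.Agent.R189.Ker.Par

/-! Row 189, block B4: towers. -/

set_option autoImplicit false
set_option linter.unusedSectionVars false

noncomputable section

namespace Crest.Agent.R189.Ker

open Equiv

variable {n : ℕ} {X : Type} [TopologicalSpace X] [AddAction V X] [ContinuousConstVAdd V X] [CompactSpace X]
  [T2Space X] [TotallyDisconnectedSpace X] [IsCancelVAdd V X] {E : Type} [Group E] {π : E →* Perm (X × Fin n)}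

variable {g h : Perm (X × Fin n)} {B U W : Set X} {R R' : Finset (St n)}

theorem pt_injective (x : X) : Function.Injective fun p : St n => pt p x := by
  intro p p' h
  simp only [pt, Prod.mk.injEq] at h
  exact Prod.ext (IsCancelVAdd.right_cancel _ _ x h.1) h.2

theorem Rep.act_eq {x : X} {σ : Perm (St n)} (h : Rep g x σ) : act g x = σ := by
  have h' : ∃ σ, Rep g x σ := ⟨σ, h⟩
  rw [act, dif_pos h']
  exact Equiv.ext fun p => pt_injective x ((h'.choose_spec p).symm.trans (h p))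

/-- from `isLoc_of_mem` for `g` and `g⁻¹` (`IsLoc.sites`, `Filter.Eventually.self_of_nhds`) -/
theorem rep_act (hg : g ∈ SG V X n) (x : X) : Rep g x (act g x) := by
  obtain key : ∀ g ∈ SG V X n, ∃ f : St n → St n, ∀ p, g (pt p x) = pt (f p) x := fun g hg => by
    choose f hf using fun p : St n => (isLoc_of_mem hg).sites (fun _ : Unit => p) x
    exact ⟨fun p => f p (), fun p => (hf p).self_of_nhds ()⟩
  obtain ⟨f, hf⟩ := key g hg
  obtain ⟨f', hf'⟩ := key g⁻¹ (inv_mem hg)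
  have h : Rep g x ⟨f, f', fun p => pt_injective x (by simp only [← hf', ← hf]; simp),
    fun p => pt_injective x (by simp only [← hf', ← hf]; simp)⟩ := hf
  rwa [h.act_eq]

theorem act_one (x : X) : act (1 : Perm (X × Fin n)) x = 1 := by
  exact Rep.act_eq fun _ => rfl

theorem act_mul (hg : g ∈ SG V X n) (hh : h ∈ SG V X n) (x : X) : act (g * h) x = act g x * act h x := by
  exact Rep.act_eq fun p => by rw [Perm.mul_apply, rep_act hh, rep_act hg, Perm.mul_apply]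

theorem act_inv (hg : g ∈ SG V X n) (x : X) : act g⁻¹ x = (act g x)⁻¹ := by
  rw [eq_inv_iff_mul_eq_one, ← act_mul (inv_mem hg) hg, inv_mul_cancel, act_one]

theorem act_vadd (hg : g ∈ SG V X n) (u : V) (x : X) : act g (u +ᵥ x) = (sh u)⁻¹ * act g x * sh u := by
  refine Rep.act_eq fun p => ?_
  rw [pt_add, rep_act hg, pt_add, ← sh_apply, ← sh_apply, ← Perm.mul_apply (sh u), ← mul_assoc, ← mul_assoc, mul_inv_cancel,
    one_mul, Perm.mul_apply]

theorem act_lc (hg : g ∈ SG V X n) (p : St n) : IsLocallyConstant fun x => act g x p := by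
  refine (IsLocallyConstant.iff_eventually_eq _).2 fun x => ?_
  obtain ⟨s, hs⟩ := (isLoc_of_mem hg).sites (fun _ : Unit => p) x
  have key : ∀ y, g (pt p y) = pt (s ()) y → act g y p = s () := fun y hy => pt_injective y ((rep_act hg y p).symm.trans hy)
  exact hs.mono fun y hy => (key y (hy ())).trans (key x (hs.self_of_nhds ())).symm

theorem par_act_lc (hg : g ∈ SG V X n) (R : Finset (St n)) : IsLocallyConstant fun x => par R (act g x) := by
  refine (IsLocallyConstant.iff_eventually_eq _).2 fun x => ?_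
  exact ((Filter.eventually_all_finset R).2 fun p _ => (act_lc hg p).eventually_eq x).mono fun y hy => par_congr hy

theorem disjR_iff : DisjR B R ↔ ∀ p ∈ R, ∀ p' ∈ R, ∀ y ∈ B, ∀ z ∈ B, pt p y = pt p' z → p = p' := by
  rw [DisjR, disj_iff]
  exact ⟨fun h p hp p' hp' y hy z hz e => congrArg Subtype.val (h ⟨p, hp⟩ ⟨p', hp'⟩ y hy z hz e),
    fun h p p' y hy z hz e => Subtype.ext (h p p.2 p' p'.2 y hy z hz e)⟩

theorem disjR_Rt (τ : Fin n → V) : DisjR (Set.univ : Set X) (Rt τ) := by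
  refine disjR_iff.2 fun p hp p' hp' y _ z _ e => ?_
  have h : p.2 = p'.2 := congrArg (Prod.snd : X × Fin n → Fin n) e
  exact Prod.ext (by rw [mem_Rt.1 hp, mem_Rt.1 hp', h]) h

theorem card_Rt (τ : Fin n → V) : (Rt τ).card = n := by
  rw [Rt, Finset.card_image_of_injective _ fun i j h => (Prod.mk.inj h).2, Finset.card_fin]

/-- `sec_mem_AG`, `SG_eq_AG` -/
theorem L_le_SG (hn : 5 ≤ n) (hd : DisjR B R) : L B R ≤ SG V X n := by
  rw [SG_eq_AG hn]
  refine iSup_le fun U => ?_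
  rintro _ ⟨σ, hσ, rfl⟩
  exact sec_mem_AG U.2.1 (hd.mono U.2.2) hσ

theorem perf_A (hR : 5 ≤ R.card) : Perf (A U R) := by
  exact Perf.map (commutator_alternatingGroup_eq_self (by simpa using hR)).ge _

theorem perf_L (hR : 5 ≤ R.card) : Perf (L B R) := by
  exact Perf.iSup fun _ => perf_A hR

theorem A_le_L (hU : IsClopen U) (h : U ⊆ B) : A U R ≤ L B R := by
  exact le_iSup (fun U : {U : Set X // IsClopen U ∧ U ⊆ B} => A U.1 R) ⟨U, hU, h⟩

theorem L_mono (h : U ⊆ W) : L U R ≤ L W R := by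
  exact iSup_le fun U' => A_le_L U'.2.1 (U'.2.2.trans h)

theorem towb_act (hg : g ∈ SG V X n) {x : X} {p q : St n} (h : g (pt p x) = pt q x) : act g x p = q :=
  pt_injective x ((rep_act hg x p).symm.trans h)

theorem towb_fix (hd : DisjR B R) (hUB : U ⊆ B) (hg : g ∈ SG V X n)
    (hs : ∀ ω, (∀ p ∈ R, ∀ y ∈ U, pt p y ≠ ω) → g ω = ω) {x : X} (hx : x ∈ B) (hx' : x ∉ U) {p : St n} (hp : p ∈ R) :
    act g x p = p :=
  towb_act hg (hs _ fun q hq y hy e => by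
    obtain rfl := disjR_iff.1 hd q hq p hp y (hUB hy) x hx e
    exact hx' (pt_inj q e ▸ hy))

theorem towb_fwd (hn : 5 ≤ n) (hd : DisjR B R) (hg : g ∈ L B R) : g ∈ SG V X n ∧
    (∀ x ∈ B, Inv R (act g x) ∧ par R (act g x) = 0) ∧ ∀ ω, (∀ p ∈ R, ∀ y ∈ B, pt p y ≠ ω) → g ω = ω := by
  refine Subgroup.iSup_induction _ (C := fun g => g ∈ SG V X n ∧
    (∀ x ∈ B, Inv R (act g x) ∧ par R (act g x) = 0) ∧ ∀ ω, (∀ p ∈ R, ∀ y ∈ B, pt p y ≠ ω) → g ω = ω) hg ?_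
    ⟨one_mem _, fun x _ => by rw [act_one]; exact ⟨fun _ h => h, par_one⟩, fun _ _ => rfl⟩ ?_
  · rintro ⟨U, hU, hUB⟩ _ ⟨σ, hσ, rfl⟩
    have hg : sec U (Subtype.val : R → St n) σ ∈ SG V X n := L_le_SG hn hd (A_le_L hU hUB ⟨σ, hσ, rfl⟩)
    have hs : ∀ ω, (∀ p ∈ R, ∀ y ∈ U, pt p y ≠ ω) → sec U (Subtype.val : R → St n) σ ω = ω := fun ω h =>
      sec_apply_not σ fun k y hy => h k k.2 y hy
    refine ⟨hg, fun x hx => ?_, fun ω h => hs ω fun p hp y hy => h p hp y (hUB hy)⟩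
    by_cases hx' : x ∈ U
    · have e : ∀ p ∈ R, act (sec U (Subtype.val : R → St n) σ) x p = Perm.ofSubtype σ p := fun p hp => by
        rw [Perm.ofSubtype_apply_of_mem σ hp]
        exact towb_act hg (sec_apply (hd.mono hUB) σ ⟨p, hp⟩ hx')
      have h := mem_AltOn.1 (⟨σ, hσ, rfl⟩ : Perm.ofSubtype σ ∈ AltOn R)
      exact ⟨fun p hp => e p hp ▸ inv_of_fix h.1 p hp, (par_congr e).trans h.2⟩
    · have e : ∀ p ∈ R, act (sec U (Subtype.val : R → St n) σ) x p = p := fun p hp => towb_fix hd hUB hg hs hx hx' hp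
      exact ⟨fun p hp => (e p hp).symm ▸ hp, par_of_fix e⟩
  · rintro g h ⟨a1, a2, a3⟩ ⟨b1, b2, b3⟩
    refine ⟨mul_mem a1 b1, fun x hx => ?_, fun ω hω => by rw [Perm.mul_apply, b3 ω hω, a3 ω hω]⟩
    rw [act_mul a1 b1, par_mul (a2 x hx).1 (b2 x hx).1, (a2 x hx).2, (b2 x hx).2, add_zero]
    exact ⟨(a2 x hx).1.mul (b2 x hx).1, rfl⟩

theorem towb_glue (hn : 5 ≤ n) (hd : DisjR (U ∪ W) R) (hUW : Disjoint U W) (hg : g ∈ L U R) (hh : h ∈ L W R)
    {f : X → Perm (St n)} (e₁ : ∀ x ∈ U, ∀ p ∈ R, act g x p = f x p) (e₂ : ∀ x ∈ W, ∀ p ∈ R, act h x p = f x p) :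
    ∀ x ∈ U ∪ W, ∀ p ∈ R, act (g * h) x p = f x p := by
  obtain ⟨a1, -, a3⟩ := towb_fwd hn (hd.mono Set.subset_union_left) hg
  obtain ⟨b1, b2, b3⟩ := towb_fwd hn (hd.mono Set.subset_union_right) hh
  intro x hx p hp
  rw [act_mul a1 b1, Perm.mul_apply]
  rcases id hx with hx' | hx'
  · rw [towb_fix hd Set.subset_union_right b1 b3 hx (Set.disjoint_left.1 hUW hx') hp, e₁ x hx' p hp]
  · rw [towb_fix hd Set.subset_union_left a1 a3 hx (Set.disjoint_right.1 hUW hx') ((b2 x hx').1 p hp), e₂ x hx' p hp]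

/-- existence: `clopen_induction` on `B` (glue with `sec`, products over disjoint clopen sets) -/
theorem exists_tow (hn : 5 ≤ n) (hB : IsClopen B) (hd : DisjR B R) {f : X → Perm (St n)} (hf : IsLocallyConstant f)
    (hm : ∀ x ∈ B, f x ∈ AltOn R) : ∃ g ∈ L B R, ∀ x ∈ B, ∀ p ∈ R, act g x p = f x p := by
  refine clopen_induction (P := fun U => ∃ g ∈ L U R, ∀ x ∈ U, ∀ p ∈ R, act g x p = f x p) hB
    ⟨1, one_mem _, fun _ hx => hx.elim⟩ ?_ fun x hx => ⟨_, hf.isClopen_fiber (f x), rfl, fun U hU hW hUB => ?_⟩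
  · rintro U W hU hW hUW hs ⟨g₁, h₁, e₁⟩ ⟨g₂, h₂, e₂⟩
    exact ⟨g₁ * g₂, mul_mem (L_mono Set.subset_union_left h₁) (L_mono Set.subset_union_right h₂),
      towb_glue hn (hd.mono hs) hUW h₁ h₂ e₁ e₂⟩
  · obtain ⟨σ, hσ, e⟩ := hm x hx
    have hg : sec U (Subtype.val : R → St n) σ ∈ L U R := A_le_L hU subset_rfl ⟨σ, hσ, rfl⟩
    refine ⟨_, hg, fun y hy p hp => ?_⟩
    rw [show f y = f x from hW hy, ← e, Perm.ofSubtype_apply_of_mem σ hp]
    exact towb_act (L_le_SG hn (hd.mono hUB) hg) (sec_apply (hd.mono hUB) σ ⟨p, hp⟩ hy)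

theorem towb_ext (hg : g ∈ SG V X n) (hh : h ∈ SG V X n) (sg : ∀ ω, (∀ p ∈ R, ∀ y ∈ B, pt p y ≠ ω) → g ω = ω)
    (sh : ∀ ω, (∀ p ∈ R, ∀ y ∈ B, pt p y ≠ ω) → h ω = ω) (e : ∀ x ∈ B, ∀ p ∈ R, act g x p = act h x p) : g = h := by
  refine Equiv.ext fun ω => ?_
  by_cases hω : ∀ p ∈ R, ∀ y ∈ B, pt p y ≠ ω
  · rw [sg ω hω, sh ω hω]
  · push Not at hω
    obtain ⟨p, hp, y, hy, rfl⟩ := hω
    rw [rep_act hg, rep_act hh, e y hy p hp]

theorem towb_res {σ τ : Perm (St n)} (h : ∀ p ∈ R, σ p = τ p) : resS (R : Set (St n)) σ = resS (R : Set (St n)) τ := by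
  by_cases hi : Inv R σ
  · have hi' : Inv R τ := fun p hp => h p hp ▸ hi p hp
    refine Equiv.ext fun p => ?_
    by_cases hp : p ∈ R
    · rw [resS_of_mem (Z := (R : Set (St n))) hi.iff hp, resS_of_mem (Z := (R : Set (St n))) hi'.iff hp, h p hp]
    · rw [resS_of_not hp, resS_of_not hp]
  · rw [resS, resS, dif_neg fun h' => hi fun p hp => (h' p).2 hp,
      dif_neg fun h' => hi fun p hp => (h p hp).symm ▸ (h' p).2 hp]

theorem towb_ex (hn : 5 ≤ n) (hB : IsClopen B) (hd : DisjR B R) (hg : g ∈ SG V X n)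
    (h : ∀ x ∈ B, Inv R (act g x) ∧ par R (act g x) = 0) : ∃ g' ∈ L B R, ∀ x ∈ B, ∀ p ∈ R, act g' x p = act g x p := by
  obtain ⟨g', hg', e⟩ := exists_tow hn hB hd (f := fun x => resS (R : Set (St n)) (act g x))
    ((IsLocallyConstant.iff_eventually_eq _).2 fun x =>
      ((Filter.eventually_all_finset R).2 fun p _ => (act_lc hg p).eventually_eq x).mono fun y hy => towb_res hy)
    fun x hx => resS_mem (h x hx).1 (h x hx).2
  exact ⟨g', hg', fun x hx p hp => (e x hx p hp).trans (resS_of_mem (Z := (R : Set (St n))) (h x hx).1.iff hp)⟩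

/-- (CHAR) `→`: `Subgroup.iSup_induction`; `←`: `exists_tow` with `f x = resS R (act g x)` and extensionality. -/
theorem mem_L (hn : 5 ≤ n) (hB : IsClopen B) (hd : DisjR B R) : g ∈ L B R ↔ g ∈ SG V X n ∧
    (∀ x ∈ B, Inv R (act g x) ∧ par R (act g x) = 0) ∧ ∀ ω, (∀ p ∈ R, ∀ y ∈ B, pt p y ≠ ω) → g ω = ω := by
  refine ⟨towb_fwd hn hd, fun ⟨h1, h2, h3⟩ => ?_⟩
  obtain ⟨g', hg', e⟩ := towb_ex hn hB hd h1 h2
  obtain ⟨b1, -, b3⟩ := towb_fwd hn hd hg'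
  rwa [← towb_ext b1 h1 b3 h3 e]

theorem L_ext (hn : 5 ≤ n) (hB : IsClopen B) (hd : DisjR B R) (hg : g ∈ L B R) (hh : h ∈ L B R)
    (e : ∀ x ∈ B, ∀ p ∈ R, act g x p = act h x p) : g = h := by
  obtain ⟨a1, -, a3⟩ := towb_fwd hn hd hg
  obtain ⟨b1, -, b3⟩ := towb_fwd hn hd hh
  exact towb_ext a1 b1 a3 b3 e

/-- disjoint towers commute and meet trivially -/
theorem L_comm (hn : 5 ≤ n) (hU : IsClopen U) (hW : IsClopen W) (hd : DisjR U R) (hd' : DisjR W R')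
    (hne : ∀ p ∈ R, ∀ p' ∈ R', ∀ y ∈ U, ∀ z ∈ W, pt p y ≠ pt p' z) (hg : g ∈ L U R) :
    (∀ h ∈ L W R', Commute g h) ∧ (g ∈ L W R' → g = 1) := by
  have key : ∀ h ∈ L W R', Perm.Disjoint g h := fun h hh ω => by
    by_cases hω : ∀ p ∈ R, ∀ y ∈ U, pt p y ≠ ω
    · exact Or.inl ((towb_fwd hn hd hg).2.2 ω hω)
    · push Not at hω
      obtain ⟨p, hp, y, hy, rfl⟩ := hω
      exact Or.inr ((towb_fwd hn hd' hh).2.2 _ fun p' hp' z hz => (hne p hp p' hp' y hy z hz).symm)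
  exact ⟨fun h hh => (key h hh).commute, fun hh => Perm.disjoint_refl_iff.1 (key g hh)⟩

/-- restriction to a clopen subset of the base -/
theorem exists_res (hn : 5 ≤ n) (hW : IsClopen W) (hU : IsClopen U) (hd : DisjR W R) (hg : g ∈ L W R) :
    ∃ g₁ ∈ L (W ∩ U) R, ∃ g₂ ∈ L (W \ U) R, g = g₁ * g₂ ∧ (∀ x ∈ W ∩ U, ∀ p ∈ R, act g₁ x p = act g x p) ∧
      ∀ x ∈ W \ U, ∀ p ∈ R, act g₂ x p = act g x p := by
  obtain ⟨a1, a2, -⟩ := towb_fwd hn hd hg
  obtain ⟨g₁, h₁, e₁⟩ := towb_ex hn (hW.inter hU) (hd.mono Set.inter_subset_left) a1 fun x hx => a2 x hx.1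
  obtain ⟨g₂, h₂, e₂⟩ := towb_ex hn (hW.diff hU) (hd.mono Set.sdiff_subset) a1 fun x hx => a2 x hx.1
  refine ⟨g₁, h₁, g₂, h₂, L_ext hn hW hd hg (mul_mem (L_mono Set.inter_subset_left h₁) (L_mono Set.sdiff_subset h₂))
    fun x hx p hp => ?_, e₁, e₂⟩
  have e : W ∩ U ∪ W \ U = W := Set.inter_union_sdiff W U
  exact (towb_glue hn (e.symm ▸ hd) (Set.disjoint_left.2 fun _ h h' => h'.2 h.2) h₁ h₂ e₁ e₂ x (e.symm ▸ hx) p hp).symm

/-! ### level-`t` towers -/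

variable {H : Hier X} {t : ℕ}

theorem clopen_Bs : IsClopen (Bs H t) := by
  exact (H.ph_lc t).isClopen_fiber 0

theorem clopen_Zn (Y : Set V) : IsClopen (Zn H t Y) := by
  have : Zn H t Y = H.ph t ⁻¹' {c | ∃ u ∈ Y, ((((-u).1 : ℤ) : ZMod (H.q t)), (((-u).2 : ℤ) : ZMod (H.q t))) + c = 0} := by
    ext y
    simp only [Zn, At, H.ph_vadd, Set.mem_setOf_eq, Set.mem_preimage]
  rw [this]
  exact ⟨⟨H.ph_lc t _ᶜ⟩, H.ph_lc t _⟩

theorem At.vadd {y : X} {u : V} (h : At H t y u) (v : V) : At H t (v +ᵥ y) (v + u) := by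
  rwa [At, ← add_vadd, neg_add_rev, neg_add_cancel_right]

theorem At.iff {y : X} {u : V} (h : At H t y u) (u' : V) :
    At H t y u' ↔ (H.q t : ℤ) ∣ u'.1 - u.1 ∧ (H.q t : ℤ) ∣ u'.2 - u.2 := by
  rw [At, show -u' +ᵥ y = (u - u') +ᵥ (-u +ᵥ y) by rw [← add_vadd]; congr 1; abel, H.ph_vadd_eq_zero_iff h, Prod.fst_sub,
    Prod.snd_sub, dvd_sub_comm, dvd_sub_comm (b := u.2)]

theorem at_of_mem {x : X} (hx : x ∈ Bs H t) (u : V) : At H t (u +ᵥ x) u := by
  rwa [At, neg_vadd_vadd]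

theorem exists_At (y : X) (a b : ℤ) : ∃ u ∈ rect a (a + H.q t) b (b + H.q t), At H t y u := by
  have hq : (0 : ℤ) < H.q t := by exact_mod_cast H.q_pos t
  have h0 : At H t y (H.pos t y) := H.ph_neg_pos t y
  have key : ∀ a c : ℤ, (a ≤ a + (c - a) % H.q t ∧ a + (c - a) % H.q t < a + H.q t) ∧ (H.q t : ℤ) ∣ a + (c - a) % H.q t - c :=
    fun a c => ⟨⟨by linarith [Int.emod_nonneg (c - a) hq.ne'], by linarith [Int.emod_lt_of_pos (c - a) hq]⟩,
      ⟨-((c - a) / H.q t), by linarith [Int.emod_add_mul_ediv (c - a) (H.q t)]⟩⟩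
  exact ⟨(a + ((H.pos t y).1 - a) % H.q t, b + ((H.pos t y).2 - b) % H.q t), mem_rect.2 ⟨(key _ _).1, (key _ _).1⟩,
    (h0.iff _).2 ⟨(key _ _).2, (key _ _).2⟩⟩

theorem dvd_of_pt_eq {y z : X} (hy : y ∈ Bs H t) (hz : z ∈ Bs H t) {p p' : St n} (h : pt p y = pt p' z) :
    (H.q t : ℤ) ∣ p.1.1 - p'.1.1 ∧ (H.q t : ℤ) ∣ p.1.2 - p'.1.2 ∧ p.2 = p'.2 := by
  simp only [pt, Prod.mk.injEq] at h
  have h1 := at_of_mem hy p.1
  rw [h.1] at h1
  obtain ⟨h2, h3⟩ := ((at_of_mem hz p'.1).iff _).1 h1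
  exact ⟨h2, h3, h.2⟩

theorem disjR_reg {a b c d : ℤ} (h1 : b - a ≤ H.q t) (h2 : d - c ≤ H.q t) : DisjR (Bs H t) (reg n a b c d) := by
  refine disjR_iff.2 fun p hp p' hp' y hy z hz e => ?_
  obtain ⟨h3, h4, h5⟩ := dvd_of_pt_eq hy hz e
  rw [mem_reg] at hp hp'
  exact Prod.ext (Prod.ext (sub_eq_zero.1 (Int.eq_zero_of_abs_lt_dvd h3 (abs_lt.2 (by omega))))
    (sub_eq_zero.1 (Int.eq_zero_of_abs_lt_dvd h4 (abs_lt.2 (by omega))))) h5

theorem le_card_reg {a b c d : ℤ} (h1 : a < b) (h2 : c < d) : n ≤ (reg n a b c d).card := by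
  rw [reg, Finset.card_product, Finset.card_fin]
  exact Nat.le_mul_of_pos_left _ (Finset.card_pos.2 ⟨(a, c), mem_rect.2 ⟨⟨le_rfl, h1⟩, le_rfl, h2⟩⟩)

/-- Inclusion of towers.  For `U ⊆ W` clopen, `clopen_induction` with `sec_union`; on small `U` one `u` works (`ph` is locally
constant), `sec_shift`, `sec_restrict`. -/
theorem L_le_of (hn : 5 ≤ n) (hd : DisjR W R) (hd' : DisjR (Bs H t) R')
    (h : ∀ y ∈ W, ∃ u, At H t y u ∧ ∀ p ∈ R, (p.1 + u, p.2) ∈ R') : L W R ≤ L (Bs H t) R' := by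
  refine iSup_le ?_
  rintro ⟨U, hU, hUW⟩ _ ⟨σ, hσ, rfl⟩
  refine clopen_induction (P := fun U => sec U (Subtype.val : R → St n) σ ∈ L (Bs H t) R') hU
    (by rw [sec_empty]; exact one_mem _) (fun A B _ _ hAB hs h1 h2 => ?_) fun x hx => ?_
  · rw [sec_union (hd.mono (hs.trans hUW)) hAB]; exact mul_mem h1 h2
  obtain ⟨u, hu, hR⟩ := h x (hUW hx)
  refine ⟨(fun y => -u +ᵥ y) ⁻¹' Bs H t, clopen_Bs.preimage (continuous_const_vadd _), hu, fun A hA h1 _ => ?_⟩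
  have e : A = (fun y => u +ᵥ y) '' ((fun y => u +ᵥ y) ⁻¹' A) := (Set.image_preimage_eq _ (AddAction.surjective u)).symm
  have h3 : (fun y => u +ᵥ y) ⁻¹' A ⊆ Bs H t := fun y hy => by simpa using h1 hy
  let j : R ↪ R' := ⟨fun p => ⟨(p.1.1 + u, p.1.2), hR _ p.2⟩, fun p p' e => Subtype.ext ((sh u).injective (congrArg Subtype.val e))⟩
  rw [e, (sec_shift u σ).2]
  refine A_le_L (hA.preimage (continuous_const_vadd u)) h3 ⟨σ.viaFintypeEmbedding j, ?_, ?_⟩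
  · simpa using hσ
  · exact sec_restrict (hd'.mono h3) j.injective (σ.viaFintypeEmbedding_apply_image j)
      fun i hi => σ.viaFintypeEmbedding_apply_notMem_range j fun ⟨k, hk⟩ => hi k hk

/-- an element of a level-`t` tower seen from a corner: it fixes `p` or moves it inside a translate of the region -/
theorem act_tile (hn : 5 ≤ n) (hd : DisjR (Bs H t) R) (hg : g ∈ L (Bs H t) R) {x : X} (hx : x ∈ Bs H t) (p : St n) :
    act g x p = p ∨ ∃ k : V, (p.1 - (H.q t : ℤ) • k, p.2) ∈ R ∧ ((act g x p).1 - (H.q t : ℤ) • k, (act g x p).2) ∈ R := by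
  obtain ⟨h1, h2, h3⟩ := (mem_L hn clopen_Bs hd).1 hg
  by_cases hp : ∀ p' ∈ R, ∀ y ∈ Bs H t, pt p' y ≠ pt p x
  · exact Or.inl (pt_injective x ((rep_act h1 x p).symm.trans (h3 _ hp)))
  push Not at hp
  obtain ⟨p', hp', y, hy, e⟩ := hp
  obtain ⟨⟨k₁, e1⟩, ⟨k₂, e2⟩, e3⟩ := dvd_of_pt_eq hx hy e.symm
  have e4 : p = (p'.1 + (H.q t : ℤ) • (k₁, k₂), p'.2) :=
    Prod.ext (Prod.ext (by simp; linarith) (by simp; linarith)) e3
  have e5 : y = (H.q t : ℤ) • (k₁, k₂) +ᵥ x := pt_inj p' (by rw [pt_add, ← e4, e])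
  have e6 : act g x p = ((act g y p').1 + (H.q t : ℤ) • (k₁, k₂), (act g y p').2) :=
    pt_injective x (by simp only; rw [← pt_add, ← e5, ← rep_act h1, ← rep_act h1, e])
  refine Or.inr ⟨(k₁, k₂), ?_, ?_⟩
  · rw [e4]; simpa using hp'
  · rw [e6]; simpa using (h2 y hy).1 p' hp'

/-- (FACT) pointwise factorisations lift: choose the factors as functions of `resS R (act (π a) x)`, `exists_tow`, `exists_tl`,
`L_ext`, `Split.eq`. -/
theorem fact (hn : 5 ≤ n) (hE : Ext π) (hS : Splits π) (hd : DisjR (Bs H t) R) (hR : n ≤ R.card) {m : ℕ}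
    {Q : Fin m → Finset (St n)} (hQ : ∀ i, Q i ⊆ R) (hQ' : ∀ i, n ≤ (Q i).card) {a : E} (ha : a ∈ tl π (L (Bs H t) R))
    (h : ∀ x ∈ Bs H t, ∃ e : Fin m → Perm (St n), (∀ i, e i ∈ AltOn (Q i)) ∧ resS (R : Set (St n)) (act (π a) x) = (List.ofFn e).prod) :
    ∃ e : Fin m → E, (∀ i, e i ∈ tl π (L (Bs H t) (Q i))) ∧ a = (List.ofFn e).prod := by
  classical
  have hg := pi_mem ha
  obtain ⟨h1, h2, -⟩ := (mem_L hn clopen_Bs hd).1 hg
  have hdQ : ∀ i, DisjR (Bs H t) (Q i) := fun i =>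
    disjR_iff.2 fun p hp p' hp' => disjR_iff.1 hd p (hQ i hp) p' (hQ i hp')
  have hle : ∀ i, L (Bs H t) (Q i) ≤ L (Bs H t) R := fun i =>
    L_le_of hn (hdQ i) hd fun y hy => ⟨0, by simpa using at_of_mem hy 0, fun p hp => by simpa using hQ i hp⟩
  let P : (R → St n) → (Fin m → Perm (St n)) → Prop := fun v e => (∀ i, e i ∈ AltOn (Q i)) ∧ ∀ p : R, (List.ofFn e).prod p = v p
  let f : X → Fin m → Perm (St n) := fun x => Classical.epsilon (P fun p => act (π a) x p)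
  have hv : IsLocallyConstant fun x (p : R) => act (π a) x p := (IsLocallyConstant.iff_eventually_eq _).2 fun x =>
    (Filter.eventually_all.2 fun p : R => (act_lc h1 p.1).eventually_eq x).mono fun y hy => funext hy
  have hf : ∀ x ∈ Bs H t, P (fun p => act (π a) x p) (f x) := fun x hx => Classical.epsilon_spec (by
    obtain ⟨e, a1, a2⟩ := h x hx
    exact ⟨e, a1, fun p => by rw [← a2, resS_of_mem (h2 x hx).1.iff p.2]⟩)
  choose g hg1 hg2 using fun i => exists_tow hn clopen_Bs (hdQ i) (f := fun x => f x i)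
    (hv.comp fun v => Classical.epsilon (P v) i) fun x hx => (hf x hx).1 i
  have hS' : ∀ i, g i ∈ SG V X n := fun i => L_le_SG hn (hdQ i) (hg1 i)
  choose e he1 he2 using fun i => exists_tl (π := π) (hE.range ▸ L_le_SG hn (hdQ i)) (perf_L (hn.trans (hQ' i))) (hg1 i)
  have hm : (List.ofFn e).prod ∈ tl π (L (Bs H t) R) :=
    list_prod_mem fun z hz => by
      obtain ⟨i, rfl⟩ := List.mem_ofFn.1 hz
      exact tl_mono (hle i) (he1 i)
  refine ⟨e, he1, (hS _ _ clopen_Bs hd hR).eq ha hm (L_ext hn clopen_Bs hd hg (pi_mem hm) fun x hx p hp => ?_)⟩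
  have h3 : ∀ i, ∀ p ∈ R, act (g i) x p = f x i p ∧ f x i p ∈ R := fun i p hp => by
    have h4 := (mem_AltOn.1 ((hf x hx).1 i)).1
    by_cases hi : p ∈ Q i
    · exact ⟨hg2 i x hx p hi, hQ i (inv_of_fix h4 p hi)⟩
    · rw [h4 p hi]
      exact ⟨pt_injective x ((rep_act (hS' i) x p).symm.trans (((mem_L hn clopen_Bs (hdQ i)).1 (hg1 i)).2.2 _
        fun p' hp' y hy e => hi (disjR_iff.1 hd p' (hQ i hp') p hp y hy x hx e ▸ hp'))), hp⟩
  have key : ∀ l : List (Fin m), act (l.map g).prod x p = (l.map (f x)).prod p ∧ (l.map (f x)).prod p ∈ R := fun l => by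
    induction l with
    | nil => simpa [act_one] using hp
    | cons i l ih =>
      rw [List.map_cons, List.prod_cons, List.map_cons, List.prod_cons, act_mul (hS' i)
        (list_prod_mem fun z hz => by obtain ⟨j, -, rfl⟩ := List.mem_map.1 hz; exact hS' j), Perm.mul_apply, Perm.mul_apply, ih.1]
      exact h3 i _ ih.2
  rw [map_list_prod, List.map_ofFn, show π ∘ e = g from funext he2, List.ofFn_eq_map, (key _).1, ← List.ofFn_eq_map]
  exact ((hf x hx).2 ⟨p, hp⟩).symm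

end Crest.Agent.R189.Ker
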