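import Crest.Agent.R189.Ker.Frag
import Crest.Agent.R189.Ker.Corner

/-! Row 189, block B4: a relation without flux is a triple. -/

set_option autoImplicit false
set_option linter.unusedSectionVars false

noncomputable section

namespace Crest.Agent.R189.Ker

open Equiv

variable {n : ℕ} {X : Type} [TopologicalSpace X] [AddAction V X] [ContinuousConstVAdd V X] [CompactSpace X]
  [T2Space X] [TotallyDisconnectedSpace X] [IsCancelVAdd V X] {E : Type} [Group E] {π : E →* Perm (X × Fin n)}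

variable {H : Hier X} {t : ℕ}

theorem mul_cases (q k : ℤ) (hq : 0 ≤ q) : q * k ≤ -2 * q ∨ q * k = -q ∨ q * k = 0 ∨ q ≤ q * k := by
  rcases lt_trichotomy k (-1) with h | h | h
  · left; nlinarith
  · right; left; rw [h]; ring
  · rcases eq_or_lt_of_le (show 0 ≤ k by omega) with h | h
    · right; right; left; rw [← h]; ring
    · right; right; right; nlinarith

theorem At.mix {y : X} {u u' : V} (h : At H t y u) (h' : At H t y u') : At H t y (u.1, u'.2) :=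
  (h.iff _).2 ⟨by simp, ((h.iff u').1 h').2⟩

theorem At.sub1 {y : X} {u : V} (h : At H t y u) : At H t y (u.1 - H.q t, u.2) :=
  (h.iff _).2 ⟨by simp, by simp⟩

theorem At.sub2 {y : X} {u : V} (h : At H t y u) : At H t y (u.1, u.2 - H.q t) :=
  (h.iff _).2 ⟨by simp, by simp⟩

theorem at_q {y : X} (hy : y ∈ Bs H t) (a b : ℤ) : At H t y (H.q t * a, H.q t * b) :=
  ((show At H t y 0 by simpa using at_of_mem hy 0).iff _).2 ⟨by simp, by simp⟩

theorem L_le_shift (hn : 5 ≤ n) {R R' : Finset (St n)} (hd : DisjR (Bs H t) R) (hd' : DisjR (Bs H t) R') (a b : ℤ)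
    (h : ∀ p ∈ R, (p.1 + ((H.q t : ℤ) * a, (H.q t : ℤ) * b), p.2) ∈ R') : L (Bs H t) R ≤ L (Bs H t) R' :=
  L_le_of hn hd hd' fun _ hy => ⟨_, at_q hy a b, h⟩

theorem nest_Zn {Y : ℕ → Set V} {r m : ℕ} (h : ∀ i j, i < j → j < m → ∀ u ∈ Y j, ∀ v ∈ box (2 * r), v + u ∈ Y i) :
    ∀ i j, i < j → j < m → ∀ y ∈ Zn H t (Y j), ∀ v ∈ box (2 * r), v +ᵥ y ∈ Zn H t (Y i) := by
  rintro i j hij hj y ⟨u, hu, hy⟩ v hv
  exact ⟨v + u, h i j hij hj u hu v hv, hy.vadd v⟩

theorem Zn_mono {Y Y' : Set V} (h : Y ⊆ Y') : Zn H t Y ⊆ Zn H t Y' := fun _ ⟨u, hu, hy⟩ => ⟨u, h hu, hy⟩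

/-- the edge towers are disjoint -/
theorem comm_VH (hn : 5 ≤ n) (hE : Ext π) {s : ℤ} (hs : 0 < s) (hq : 2 * s ≤ H.q t) {a b : E}
    (ha : a ∈ tl π (L (Bs H t) (RV n (H.q t) s))) (hb : b ∈ tl π (L (Bs H t) (RH n (H.q t) s))) : Commute a b := by
  refine comm_tl hE.cen ha fun g hg => (L_comm hn clopen_Bs clopen_Bs (disjR_reg (by omega) (by omega))
    (disjR_reg (by omega) (by omega)) ?_ hg).1 _ (pi_mem hb)
  intro p hp p' hp' y hy z hz e
  obtain ⟨⟨k, hk⟩, -, -⟩ := dvd_of_pt_eq hy hz e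
  rw [mem_reg] at hp hp'
  rcases mul_cases (H.q t) k (by omega) with h | h | h | h <;> omega

/-- how a corner element with `a bV bH c = 1` crosses the walls -/
theorem cross (hn : 5 ≤ n) {s c : ℤ} (hs : 0 < s) (hsc : s < c) (hq : 2 * c ≤ H.q t) {gV gH gF : Perm (X × Fin n)}
    (hV : gV ∈ L (Bs H t) (RV n (H.q t) s)) (hH : gH ∈ L (Bs H t) (RH n (H.q t) s)) (hF : gF ∈ L (Bs H t) (RF n (H.q t)))
    {x : X} (hx : x ∈ Bs H t) {p : St n} (hp : p ∈ reg n (-c) c (-c) c) :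
    (¬ (0 ≤ (act gF x (act gH x (act gV x p))).1.1 ↔ 0 ≤ p.1.1) → p ∈ Rg n s c 4 ∨ p ∈ Rg n s c 5) ∧
    (¬ (0 ≤ (act gF x (act gH x (act gV x p))).1.2 ↔ 0 ≤ p.1.2) → p ∈ Rg n s c 6 ∨ p ∈ Rg n s c 7) := by
  have h1 := act_tile hn (disjR_reg (by omega) (by omega)) hV hx p
  have h2 := act_tile hn (disjR_reg (by omega) (by omega)) hH hx (act gV x p)
  have h3 := act_tile hn (disjR_reg (by omega) (by omega)) hF hx (act gH x (act gV x p))
  generalize act gV x p = p1 at h1 h2 h3 ⊢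
  generalize act gH x p1 = p2 at h2 h3 ⊢
  generalize act gF x p2 = p3 at h3 ⊢
  have e3 : (0 ≤ p3.1.1 ↔ 0 ≤ p2.1.1) ∧ (0 ≤ p3.1.2 ↔ 0 ≤ p2.1.2) := by
    rcases h3 with rfl | ⟨k, h, h'⟩
    · simp
    · simp only [mem_reg, Prod.fst_sub, Prod.snd_sub, Prod.smul_fst, Prod.smul_snd, smul_eq_mul] at h h'
      have := mul_cases (H.q t) k.1 (by omega)
      have := mul_cases (H.q t) k.2 (by omega)
      omega
  rw [e3.1, e3.2]
  simp only [Rg, Matrix.cons_val, mem_reg] at hp ⊢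
  rcases h1 with rfl | ⟨k, h, h'⟩ <;> rcases h2 with rfl | ⟨k', g, g'⟩
  · simp
  · simp only [mem_reg, Prod.fst_sub, Prod.snd_sub, Prod.smul_fst, Prod.smul_snd, smul_eq_mul] at g g'
    have := mul_cases (H.q t) k'.1 (by omega)
    have := mul_cases (H.q t) k'.2 (by omega)
    omega
  · simp only [mem_reg, Prod.fst_sub, Prod.snd_sub, Prod.smul_fst, Prod.smul_snd, smul_eq_mul] at h h'
    have := mul_cases (H.q t) k.1 (by omega)
    have := mul_cases (H.q t) k.2 (by omega)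
    omega
  · simp only [mem_reg, Prod.fst_sub, Prod.snd_sub, Prod.smul_fst, Prod.smul_snd, smul_eq_mul] at h h' g g'
    have := mul_cases (H.q t) (k.1 - k'.1) (by omega)
    rw [mul_sub] at this
    omega

/-- from the corner decomposition to a triple -/
theorem triple_of (hn : 5 ≤ n) (hE : Ext π) (hS : Splits π) {s c : ℤ} (hs : 0 < s) (hsc : s < c) (hq : 2 * c ≤ H.q t)
    {a bV bH f : E} (ha : a ∈ tl π (L (Bs H t) (reg n (-c) c (-c) c))) (hV : bV ∈ tl π (L (Bs H t) (RV n (H.q t) s)))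
    (hH : bH ∈ tl π (L (Bs H t) (RH n (H.q t) s))) (hF : f ∈ tl π (L (Bs H t) (RF n (H.q t))))
    (h1 : π (a * (bV * (bH * f))) = 1)
    (h0 : ∀ x ∈ Bs H t, ∑ p ∈ reg n (-c) c 0 c, dif (RP n) (act (π a) x) p = 0) :
    ∃ T : Tr π H t s, T.val = a * (bV * (bH * f)) := by
  have dC : DisjR (Bs H t) (reg n (-c) c (-c) c) := disjR_reg (by omega) (by omega)
  have dV : DisjR (Bs H t) (RV n (H.q t) s) := disjR_reg (by omega) (by omega)
  have dH : DisjR (Bs H t) (RH n (H.q t) s) := disjR_reg (by omega) (by omega)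
  have dF : DisjR (Bs H t) (RF n (H.q t)) := disjR_reg (by omega) (by omega)
  have ea : π a = (π f)⁻¹ * ((π bH)⁻¹ * (π bV)⁻¹) := by
    rw [map_mul, map_mul, map_mul, mul_eq_one_iff_eq_inv] at h1
    rw [h1]; group
  obtain ⟨e, he, rfl⟩ := fact hn hE hS dC (le_card_reg (by omega) (by omega)) (Q := Rg n s c) (fun i p hp => by
      fin_cases i <;> simp only [Rg, Matrix.cons_val, mem_reg, Fin.reduceFinMk] at hp ⊢ <;> omega)
    (fun i => by fin_cases i <;> exact le_card_reg (by omega) (by omega)) ha fun x hx => by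
      obtain ⟨-, hi, -⟩ := (mem_L hn clopen_Bs dC).1 (pi_mem ha)
      have er : ∀ p ∈ reg n (-c) c (-c) c, resS (reg n (-c) c (-c) c : Set (St n)) (act (π a) x) p = act (π a) x p :=
        fun p hp => resS_of_mem (hi x hx).1.iff hp
      have ec : ∀ p, act (π a) x p = act (π f)⁻¹ x (act (π bH)⁻¹ x (act (π bV)⁻¹ x p)) := fun p => by
        have m1 := inv_mem (L_le_SG hn dF (pi_mem hF))
        have m2 := inv_mem (L_le_SG hn dH (pi_mem hH))
        have m3 := inv_mem (L_le_SG hn dV (pi_mem hV))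
        rw [ea, act_mul m1 (mul_mem m2 m3), act_mul m2 m3]
        rfl
      have cr := fun p hp => cross hn hs hsc hq (inv_mem (pi_mem hV)) (inv_mem (pi_mem hH)) (inv_mem (pi_mem hF)) hx
        (p := p) hp
      refine corner (by omega) s c hs hsc (resS_mem (hi x hx).1 (hi x hx).2) (fun p hp => ?_) (fun p hp => ?_) ?_
      · rw [er p hp, ec]; exact (cr p hp).1
      · rw [er p hp, ec]; exact (cr p hp).2
      · refine Eq.trans (Finset.sum_congr rfl fun p hp => ?_) (h0 x hx)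
        rw [dif, dif, er p (by rw [mem_reg] at hp ⊢; omega)]
  have dQ : ∀ i, DisjR (Bs H t) (Rg n s c i) := fun i => by
    fin_cases i <;> exact disjR_reg (by omega) (by omega)
  have mv : ∀ (i : Fin 8) {R' : Finset (St n)} (_ : DisjR (Bs H t) R') (a b : ℤ),
      (∀ p ∈ Rg n s c i, (p.1 + ((H.q t : ℤ) * a, (H.q t : ℤ) * b), p.2) ∈ R') → e i ∈ tl π (L (Bs H t) R') :=
    fun i R' hd a b h => tl_mono (L_le_shift hn (dQ i) hd a b h) (he i)
  have m0 := mv 0 dF 0 0 fun p hp => by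
    simp only [Rg, Matrix.cons_val, RF, mem_reg, Prod.fst_add, Prod.snd_add] at hp ⊢; omega
  have m1 := mv 1 dF 1 0 fun p hp => by
    simp only [Rg, Matrix.cons_val, RF, mem_reg, Prod.fst_add, Prod.snd_add] at hp ⊢; omega
  have m2 := mv 2 dF 1 1 fun p hp => by
    simp only [Rg, Matrix.cons_val, RF, mem_reg, Prod.fst_add, Prod.snd_add] at hp ⊢; omega
  have m3 := mv 3 dF 0 1 fun p hp => by
    simp only [Rg, Matrix.cons_val, RF, mem_reg, Prod.fst_add, Prod.snd_add] at hp ⊢; omega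
  have m4 := mv 4 dV 0 0 fun p hp => by
    simp only [Rg, Matrix.cons_val, RV, mem_reg, Prod.fst_add, Prod.snd_add] at hp ⊢; omega
  have m5 := mv 5 dV 0 1 fun p hp => by
    simp only [Rg, Matrix.cons_val, RV, mem_reg, Prod.fst_add, Prod.snd_add] at hp ⊢; omega
  have m6 := mv 6 dH 0 0 fun p hp => by
    simp only [Rg, Matrix.cons_val, RH, mem_reg, Prod.fst_add, Prod.snd_add] at hp ⊢; omega
  have m7 := mv 7 dH 1 0 fun p hp => by
    simp only [Rg, Matrix.cons_val, RH, mem_reg, Prod.fst_add, Prod.snd_add] at hp ⊢; omega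
  have hcm := comm_VH hn hE hs (by omega) hV (mul_mem m6 m7)
  have hz := Subgroup.mem_center_iff.1 (hE.cen h1) (e 0 * e 1 * e 2 * e 3)
  have ev : (e 4 * e 5 * bV) * (e 6 * e 7 * bH) * (f * (e 0 * e 1 * e 2 * e 3)) =
      (List.ofFn e).prod * (bV * (bH * f)) := by
    refine mul_left_cancel (a := e 0 * e 1 * e 2 * e 3) ?_
    rw [hz]
    simp only [List.ofFn_succ, List.ofFn_zero, List.prod_cons, List.prod_nil, Fin.succ_zero_eq_one, Fin.reduceSucc]
    calc _ = e 0 * e 1 * e 2 * e 3 * (e 4 * e 5) * (bV * (e 6 * e 7)) * bH * f * (e 0 * e 1 * e 2 * e 3) := by group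
      _ = _ := by rw [hcm.eq]; group
  exact ⟨⟨_, _, _, mul_mem (mul_mem m4 m5) hV, mul_mem (mul_mem m6 m7) hH,
    mul_mem hF (mul_mem (mul_mem (mul_mem m0 m1) m2) m3), by rw [ev, h1]⟩, ev⟩

theorem triple (hn : 5 ≤ n) (hE : Ext π) (hS : Splits π) (H : Hier X) (r m : ℕ) : ∃ s : ℤ, 0 < s ∧ ∃ q₀ : ℕ, ∀ t, q₀ ≤ H.q t →
    ∀ w : List (Let π), Rad r w → w.length ≤ m → π (evw w) = 1 → (∀ x, flux (w.map fun l => l.at x) = 0) →
    ∃ T : Tr π H t s, T.val = evw w := by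
  obtain ⟨M, hM⟩ : ∃ M : ℕ, M = 2 * r * m := ⟨_, rfl⟩
  refine ⟨M + 2 * r + 1, by omega, 20 * (M + r + 1), fun t hq w hr hm h1 h0 => ?_⟩
  obtain ⟨k, hk⟩ : ∃ k : ℕ → ℤ, k = fun i : ℕ => 2 * (r : ℤ) * i := ⟨_, rfl⟩
  have k0 : ∀ i, i ≤ w.length → 0 ≤ k i ∧ k i ≤ M := fun i hi => by
    have : (i : ℤ) ≤ m := by omega
    rw [hk, hM]
    exact ⟨by positivity, by push_cast; nlinarith⟩
  have k1 : ∀ i j, i < j → k i + 2 * r ≤ k j := fun i j hij => by
    have : (i : ℤ) + 1 ≤ j := by omega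
    rw [hk]
    nlinarith
  obtain ⟨ρ, hρ⟩ : ∃ ρ : ℤ, ρ = 4 * M + 6 * r + 4 := ⟨_, rfl⟩
  obtain ⟨c, hc⟩ : ∃ c : ℤ, c = 6 * M + 7 * r + 5 := ⟨_, rfl⟩
  let YC : ℕ → Set V := fun i => rect (-(ρ + M - k i)) (ρ + M - k i) (-(ρ + M - k i)) (ρ + M - k i)
  let YV : ℕ → Set V := fun i => {u | -(M + r - k i) ≤ u.1 ∧ u.1 < M + r - k i}
  let YH : ℕ → Set V := fun i => {u | -(M + r - k i) ≤ u.2 ∧ u.2 < M + r - k i}
  let W₁ : Set X := (Zn H t (rect (-ρ) ρ (-ρ) ρ))ᶜ
  let W₂ : Set X := W₁ \ Zn H t {u | -(r : ℤ) ≤ u.1 ∧ u.1 < r}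
  have c1 : IsClopen W₁ := (clopen_Zn _).compl
  have c2 : IsClopen W₂ := c1.diff (clopen_Zn _)
  obtain ⟨a, w₁, e1, -, l1, ra, r1, sa, s1, hact⟩ := frag hn hE hS isClopen_univ w hr (fun l _ => pi_mem l.mem)
    (fun i => Zn H t (YC i)) (fun _ => clopen_Zn _) (nest_Zn fun i j hij _ u hu v hv => by
      have := k1 i j hij
      simp only [YC, Finset.mem_coe, mem_rect, mem_box, Prod.fst_add, Prod.snd_add] at hu hv ⊢
      omega)
  obtain ⟨b, w₂, e2, -, l2, rb, r2, sb, s2, -⟩ := frag hn hE hS c1 w₁ r1 (fun l hl => by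
      obtain ⟨i, hi, h⟩ := s1 l hl
      refine L_mono (fun y hy hy' => hy.2 (Zn_mono (fun u hu => ?_) hy')) h
      have := k0 i hi.le
      simp only [YC, Finset.mem_coe, mem_rect] at hu ⊢
      omega)
    (fun i => Zn H t (YV i)) (fun _ => clopen_Zn _) (nest_Zn fun i j hij _ u hu v hv => by
      have := k1 i j hij
      simp only [YV, Set.mem_ofPred_eq, mem_box, Prod.fst_add] at hu hv ⊢
      omega)
  obtain ⟨d, f, e3, -, -, rd, rf, sd, sf, -⟩ := frag hn hE hS c2 w₂ r2 (fun l hl => by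
      obtain ⟨i, hi, h⟩ := s2 l hl
      refine L_mono (Set.sdiff_subset_sdiff_right (Zn_mono fun u hu => ?_)) h
      have := k0 i (by omega)
      simp only [YV, Set.mem_ofPred_eq] at hu ⊢
      omega)
    (fun i => Zn H t (YH i)) (fun _ => clopen_Zn _) (nest_Zn fun i j hij _ u hu v hv => by
      have := k1 i j hij
      simp only [YH, Set.mem_ofPred_eq, mem_box, Prod.snd_add] at hu hv ⊢
      omega)
  rw [e1, e2, e3] at h1 ⊢
  refine triple_of hn hE hS (c := c) (by omega) (by omega) (by omega) (evw_mem hn hE hS (by omega) (by omega) ra fun l hl => ?_)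
    (evw_mem hn hE hS (by omega) (by omega) rb fun l hl => ?_) (evw_mem hn hE hS (by omega) (by omega) rd fun l hl => ?_)
    (evw_mem hn hE hS (by omega) (by omega) rf fun l hl => ?_) h1 fun x hx => ?_
  · obtain ⟨i, hi, h⟩ := sa l hl
    refine ⟨_, isClopen_univ.inter (clopen_Zn _), h, ?_⟩
    rintro y ⟨-, u, hu, hy⟩
    refine ⟨u, ?_, hy⟩
    have := k0 i hi.le
    simp only [YC, Finset.mem_coe, mem_rect] at hu ⊢
    omega
  · obtain ⟨i, hi, h⟩ := sb l hl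
    refine ⟨_, c1.inter (clopen_Zn _), h, ?_⟩
    rintro y ⟨hW, u, hu, hy⟩
    obtain ⟨u', hu', hy'⟩ := exists_At (H := H) (t := t) y 0 0
    refine ⟨_, ?_, hy.mix hy'⟩
    have := k0 i (by omega)
    have g1 := fun h => hW ⟨_, h, hy.mix hy'⟩
    have g2 := fun h => hW ⟨_, h, (hy.mix hy').sub2⟩
    simp only [YV, Set.mem_ofPred_eq, Finset.mem_coe, mem_rect, imp_false] at hu hu' g1 g2 ⊢
    omega
  · obtain ⟨i, hi, h⟩ := sd l hl
    refine ⟨_, c2.inter (clopen_Zn _), h, ?_⟩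
    rintro y ⟨⟨hW, -⟩, u, hu, hy⟩
    obtain ⟨u', hu', hy'⟩ := exists_At (H := H) (t := t) y 0 0
    refine ⟨_, ?_, hy'.mix hy⟩
    have := k0 i (by omega)
    have g1 := fun h => hW ⟨_, h, hy'.mix hy⟩
    have g2 := fun h => hW ⟨_, h, (hy'.mix hy).sub1⟩
    simp only [YH, Set.mem_ofPred_eq, Finset.mem_coe, mem_rect, imp_false] at hu hu' g1 g2 ⊢
    omega
  · obtain ⟨i, hi, h⟩ := sf l hl
    refine ⟨_, c2.diff (clopen_Zn _), h, ?_⟩
    rintro y ⟨⟨-, hW⟩, hW'⟩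
    obtain ⟨u, hu, hy⟩ := exists_At (H := H) (t := t) y 0 0
    refine ⟨_, ?_, hy⟩
    have := k0 i (by omega)
    have g1 := fun h => hW ⟨_, h, hy⟩
    have g2 := fun h => hW ⟨_, h, hy.sub1⟩
    have g3 := fun h => hW' ⟨_, h, hy⟩
    have g4 := fun h => hW' ⟨_, h, hy.sub2⟩
    simp only [YH, Set.mem_ofPred_eq, mem_rect, imp_false] at hu g1 g2 g3 g4 ⊢
    omega
  · rw [hact]
    have hl := k0 _ le_rfl
    refine Eq.trans (flux_top (r := r) (D := M + r + 1) (ρ := ρ) (ρ' := ρ + M) ?_ ?_ ?_ (by omega) (by omega) (by omega)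
      ?_ ?_) (h0 x)
    · intro l hl
      obtain ⟨l, hl', rfl⟩ := List.mem_map.1 hl
      exact l.ok hn (hr l hl') x
    · rw [← act_evw hn, e1, e2, e3, h1, act_one]
    · rw [List.length_map]
      rw [hk] at hl
      linarith [hl.2]
    · intro i hi v hv
      rw [List.length_map] at hi
      refine ⟨v, ?_, at_of_mem hx v⟩
      have := k0 i hi.le
      simp only [YC, Finset.mem_coe, mem_rect] at hv ⊢
      omega
    · rintro i hi v hv ⟨u, hu, hy⟩
      rw [List.length_map] at hi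
      obtain ⟨⟨j, hj⟩, ⟨j', hj'⟩⟩ := ((at_of_mem hx v).iff u).1 hy
      have := k0 i hi.le
      have := mul_cases (H.q t) j (by omega)
      have := mul_cases (H.q t) j' (by omega)
      simp only [YC, Finset.mem_coe, mem_rect] at hu hv ⊢
      omega

end Crest.Agent.R189.Ker
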